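import Vale.Agent.P162.KL.Chan
import Vale.Agent.P162.KL.BL
import Vale.Agent.P162.KL.Pinsker

/-!
# P162 : the abstract block lemma of the level-by-level route

Input `a : A` (uniform reference), a function `f : A → C` of the input and a channel
`K : A → B → ℝ`.  `rho` is the density of the reference joint law of `(f a, output)` with respect
to the product of its marginals and `kap a c = ∑ t, K a t * rho c t - 1` is the kernel smoothed by
the channel.  An exponential moment bound for `kap a ·` under the reference law of `f` implies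

`D(f) + D(output) ≤ D(f, output) + θ D(input)`   for all input laws.
-/

namespace Vale.Agent.P162.SB8

open Finset Real Vale.Agent.P162.KL

variable {A B C : Type*} [Fintype A] [Fintype B] [Fintype C] [DecidableEq C]

theorem unif_pos [Nonempty A] (a : A) : 0 < unif A a := by
  unfold unif
  have : (0 : ℝ) < Fintype.card A := by exact_mod_cast Fintype.card_pos
  positivity

theorem unif_nonneg (a : A) : 0 ≤ unif A a := by
  unfold unif
  positivity

theorem unif_sum [Nonempty A] : ∑ a, unif A a = 1 := by
  unfold unif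
  have : (Fintype.card A : ℝ) ≠ 0 := by exact_mod_cast Fintype.card_ne_zero
  simp [Finset.sum_const, this]

theorem push_nonneg {K : A → B → ℝ} (hK : ∀ a b, 0 ≤ K a b) {p : A → ℝ} (hp : ∀ a, 0 ≤ p a)
    (b : B) : 0 ≤ push K p b :=
  Finset.sum_nonneg fun a _ => mul_nonneg (hp a) (hK a b)

/-- density of the reference joint law with respect to the product of its marginals -/
noncomputable def rho (f : A → C) (K : A → B → ℝ) (c : C) (t : B) : ℝ :=
  joint f K (unif A) (c, t) / (pm (unif A) f c * push K (unif A) t)

/-- the kernel smoothed by the channel, centred -/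
noncomputable def kap (f : A → C) (K : A → B → ℝ) (a : A) (c : C) : ℝ :=
  ∑ t, K a t * rho f K c t - 1

theorem joint_nonneg' (f : A → C) (K : A → B → ℝ) (hK : ∀ a b, 0 ≤ K a b) (μ : A → ℝ)
    (hμ : ∀ a, 0 ≤ μ a) (x : C × B) : 0 ≤ joint f K μ x := by
  unfold joint
  apply Finset.sum_nonneg
  intro ω _
  split_ifs
  · exact mul_nonneg (hμ ω) (hK ω _)
  · exact le_rfl

theorem joint_sum_right (f : A → C) (K : A → B → ℝ) (hK : IsChan K) (μ : A → ℝ) (c : C) :
    ∑ t, joint f K μ (c, t) = pm μ f c := by
  unfold joint pm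
  rw [Finset.sum_comm, Finset.sum_filter]
  apply Finset.sum_congr rfl
  intro ω _
  by_cases h : f ω = c
  · simp only [h, if_true]
    rw [← Finset.mul_sum, (hK ω).2, mul_one]
  · simp [h]

theorem joint_sum_left (f : A → C) (K : A → B → ℝ) (μ : A → ℝ) (t : B) :
    ∑ c, joint f K μ (c, t) = push K μ t := by
  unfold joint push
  rw [Finset.sum_comm]
  apply Finset.sum_congr rfl
  intro ω _
  simp

theorem joint_le_pm (f : A → C) (K : A → B → ℝ) (hK : IsChan K) (μ : A → ℝ)
    (hμ : ∀ a, 0 ≤ μ a) (c : C) (t : B) : joint f K μ (c, t) ≤ pm μ f c := by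
  rw [← joint_sum_right f K hK μ c]
  exact Finset.single_le_sum (f := fun t => joint f K μ (c, t))
    (fun t _ => joint_nonneg' f K (fun a b => (hK a).1 b) μ hμ (c, t)) (Finset.mem_univ t)

theorem joint_le_push (f : A → C) (K : A → B → ℝ) (hK : IsChan K) (μ : A → ℝ)
    (hμ : ∀ a, 0 ≤ μ a) (c : C) (t : B) : joint f K μ (c, t) ≤ push K μ t := by
  rw [← joint_sum_left f K μ t]
  exact Finset.single_le_sum (f := fun c => joint f K μ (c, t))
    (fun c _ => joint_nonneg' f K (fun a b => (hK a).1 b) μ hμ (c, t)) (Finset.mem_univ c)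

/-- absolute continuity of the joint law -/
theorem joint_ac [Nonempty A] (f : A → C) (K : A → B → ℝ) (hK : IsChan K) (μ : A → ℝ)
    (x : C × B) (h0 : joint f K (unif A) x = 0) : joint f K μ x = 0 := by
  unfold joint at h0 ⊢
  have hnn : ∀ ω ∈ (Finset.univ : Finset A),
      0 ≤ (if f ω = x.1 then unif A ω * K ω x.2 else 0) := by
    intro ω _
    split_ifs
    · exact mul_nonneg (unif_nonneg ω) ((hK ω).1 _)
    · exact le_rfl
  have hz := (Finset.sum_eq_zero_iff_of_nonneg hnn).1 h0
  apply Finset.sum_eq_zero
  intro ω hω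
  have h1 := hz ω hω
  by_cases h : f ω = x.1
  · simp only [h, if_true] at h1 ⊢
    rcases mul_eq_zero.1 h1 with h2 | h2
    · exact absurd h2 (unif_pos ω).ne'
    · rw [h2, mul_zero]
  · simp [h]

theorem rho_nonneg (f : A → C) (K : A → B → ℝ) (hK : IsChan K) (c : C) (t : B) :
    0 ≤ rho f K c t := by
  unfold rho
  apply div_nonneg
  · exact joint_nonneg' f K (fun a b => (hK a).1 b) _ unif_nonneg _
  · apply mul_nonneg
    · exact pm_nonneg _ unif_nonneg _ _
    · exact push_nonneg (fun a b => (hK a).1 b) unif_nonneg _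

theorem xlog_ge (x y : ℝ) (hx : 0 < x) (hy : 0 < y) : x - y ≤ x * Real.log (x / y) := by
  have h := Real.log_le_sub_one_of_pos (div_pos hy hx)
  have h2 : Real.log (x / y) = - Real.log (y / x) := by
    rw [← Real.log_inv, inv_div]
  rw [h2]
  have h3 : x * (y / x - 1) = y - x := by field_simp
  have h4 := mul_le_mul_of_nonneg_left h hx.le
  rw [h3] at h4
  linarith

theorem pm_sum_one (p : A → ℝ) (hp : IsLaw p) (f : A → C) : ∑ c, pm p f c = 1 := by
  rw [pm_sum, hp.2]

/-- the defect of superadditivity is bounded by a bilinear form in the smoothed kernel -/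
theorem sb_bilinear [Nonempty A] (f : A → C) (K : A → B → ℝ) (hK : IsChan K) (p : A → ℝ)
    (hp : IsLaw p) :
    Dv p (unif A) f + kl (push K p) (push K (unif A)) - kl (joint f K p) (joint f K (unif A))
      ≤ ∑ a, ∑ c, p a * pm p f c * kap f K a c := by
  have hK0 : ∀ a b, 0 ≤ K a b := fun a b => (hK a).1 b
  have h1 : Dv p (unif A) f = ∑ c, ∑ t, joint f K p (c, t) *
      Real.log (pm p f c / pm (unif A) f c) := by
    unfold Dv kl
    apply Finset.sum_congr rfl
    intro c _
    rw [← Finset.sum_mul, joint_sum_right f K hK p c]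
  have h2 : kl (push K p) (push K (unif A)) = ∑ c, ∑ t, joint f K p (c, t) *
      Real.log (push K p t / push K (unif A) t) := by
    unfold kl
    rw [Finset.sum_comm]
    apply Finset.sum_congr rfl
    intro t _
    rw [← Finset.sum_mul, joint_sum_left f K p t]
  have h3 : kl (joint f K p) (joint f K (unif A)) = ∑ c, ∑ t, joint f K p (c, t) *
      Real.log (joint f K p (c, t) / joint f K (unif A) (c, t)) := by
    unfold kl
    rw [Fintype.sum_prod_type]
  have h4 : ∀ c t, joint f K p (c, t) - pm p f c * push K p t * rho f K c t ≤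
      joint f K p (c, t) * Real.log (joint f K p (c, t) / joint f K (unif A) (c, t))
      - joint f K p (c, t) * Real.log (pm p f c / pm (unif A) f c)
      - joint f K p (c, t) * Real.log (push K p t / push K (unif A) t) := by
    intro c t
    have hQ0 : 0 ≤ joint f K p (c, t) := joint_nonneg' f K hK0 p hp.1 _
    rcases hQ0.eq_or_lt with hz | hpos
    · rw [← hz]
      have : 0 ≤ pm p f c * push K p t * rho f K c t :=
        mul_nonneg (mul_nonneg (pm_nonneg _ hp.1 _ _) (push_nonneg hK0 hp.1 _))
          (rho_nonneg f K hK c t)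
      simp only [zero_mul, sub_zero, zero_sub]
      linarith
    · have hR : 0 < joint f K (unif A) (c, t) := by
        rcases (joint_nonneg' f K hK0 (unif A) unif_nonneg (c, t)).eq_or_lt with h | h
        · exact absurd (joint_ac f K hK p (c, t) h.symm) hpos.ne'
        · exact h
      have hQB : 0 < pm p f c := lt_of_lt_of_le hpos (joint_le_pm f K hK p hp.1 c t)
      have hQT : 0 < push K p t := lt_of_lt_of_le hpos (joint_le_push f K hK p hp.1 c t)
      have hRC : 0 < pm (unif A) f c :=
        lt_of_lt_of_le hR (joint_le_pm f K hK _ unif_nonneg c t)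
      have hRT : 0 < push K (unif A) t :=
        lt_of_lt_of_le hR (joint_le_push f K hK _ unif_nonneg c t)
      have hrho : 0 < rho f K c t := by
        unfold rho
        positivity
      have hy : 0 < pm p f c * push K p t * rho f K c t := by positivity
      have h5 := xlog_ge _ _ hpos hy
      have h6 : Real.log (joint f K p (c, t) / (pm p f c * push K p t * rho f K c t)) =
          Real.log (joint f K p (c, t) / joint f K (unif A) (c, t))
          - Real.log (pm p f c / pm (unif A) f c)
          - Real.log (push K p t / push K (unif A) t) := by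
        unfold rho
        rw [Real.log_div hpos.ne' (by positivity), Real.log_div hpos.ne' hR.ne',
          Real.log_div hQB.ne' hRC.ne', Real.log_div hQT.ne' hRT.ne',
          Real.log_mul (by positivity) (by positivity), Real.log_mul hQB.ne' hQT.ne',
          Real.log_div hR.ne' (by positivity), Real.log_mul hRC.ne' hRT.ne']
        ring
      rw [h6] at h5
      linarith
  have h5 : ∑ c, ∑ t, joint f K p (c, t) = 1 := by
    have : ∀ c, ∑ t, joint f K p (c, t) = pm p f c := fun c => joint_sum_right f K hK p c
    simp only [this]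
    exact pm_sum_one p hp f
  have h6 : ∑ c, ∑ t, pm p f c * push K p t * rho f K c t =
      ∑ a, ∑ c, p a * pm p f c * kap f K a c + 1 := by
    have e1 : ∀ a c, p a * pm p f c * kap f K a c =
        ∑ t, pm p f c * (p a * K a t) * rho f K c t - p a * pm p f c := by
      intro a c
      unfold kap
      rw [mul_sub, mul_one, Finset.mul_sum]
      congr 1
      apply Finset.sum_congr rfl
      intro t _
      ring
    simp only [e1, Finset.sum_sub_distrib]
    have e2 : ∑ a, ∑ c, p a * pm p f c = 1 := by
      simp only [← Finset.mul_sum, pm_sum_one p hp f, mul_one, hp.2]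
    have e3 : ∑ a, ∑ c, ∑ t, pm p f c * (p a * K a t) * rho f K c t =
        ∑ c, ∑ t, pm p f c * push K p t * rho f K c t := by
      rw [Finset.sum_comm]
      apply Finset.sum_congr rfl
      intro c _
      rw [Finset.sum_comm]
      apply Finset.sum_congr rfl
      intro t _
      unfold push
      rw [Finset.mul_sum, Finset.sum_mul]
    rw [e2, sub_add_cancel, e3]
  have h7 : ∑ c, ∑ t, (joint f K p (c, t) - pm p f c * push K p t * rho f K c t) ≤
      ∑ c, ∑ t, (joint f K p (c, t) *
        Real.log (joint f K p (c, t) / joint f K (unif A) (c, t))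
      - joint f K p (c, t) * Real.log (pm p f c / pm (unif A) f c)
      - joint f K p (c, t) * Real.log (push K p t / push K (unif A) t)) :=
    Finset.sum_le_sum fun c _ => Finset.sum_le_sum fun t _ => h4 c t
  simp only [Finset.sum_sub_distrib] at h7
  rw [h5, h6, ← h1, ← h2, ← h3] at h7
  linarith

theorem RC_mul_rho (f : A → C) (K : A → B → ℝ) (hK : IsChan K) (c : C) (t : B) :
    pm (unif A) f c * rho f K c t = joint f K (unif A) (c, t) / push K (unif A) t := by
  by_cases h : pm (unif A) f c = 0
  · have h1 : joint f K (unif A) (c, t) = 0 :=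
      le_antisymm (h ▸ joint_le_pm f K hK _ unif_nonneg c t)
        (joint_nonneg' f K (fun a b => (hK a).1 b) _ unif_nonneg _)
    rw [h, h1]
    simp
  · unfold rho
    by_cases h2 : push K (unif A) t = 0
    · rw [h2]; simp
    · field_simp

theorem RT_mul_rho (f : A → C) (K : A → B → ℝ) (hK : IsChan K) (c : C) (t : B) :
    push K (unif A) t * rho f K c t = joint f K (unif A) (c, t) / pm (unif A) f c := by
  by_cases h : push K (unif A) t = 0
  · have h1 : joint f K (unif A) (c, t) = 0 :=
      le_antisymm (h ▸ joint_le_push f K hK _ unif_nonneg c t)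
        (joint_nonneg' f K (fun a b => (hK a).1 b) _ unif_nonneg _)
    rw [h, h1]
    simp
  · unfold rho
    by_cases h2 : pm (unif A) f c = 0
    · rw [h2]; simp
    · field_simp

/-- the smoothed kernel is centred in `c` under the reference law of `f`, for every input -/
theorem centre_c [Nonempty A] (f : A → C) (K : A → B → ℝ) (hK : IsChan K) (a : A) :
    ∑ c, pm (unif A) f c * kap f K a c = 0 := by
  have e1 : ∀ c, pm (unif A) f c * kap f K a c =
      ∑ t, K a t * (pm (unif A) f c * rho f K c t) - pm (unif A) f c := by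
    intro c
    unfold kap
    rw [mul_sub, mul_one, Finset.mul_sum]
    congr 1
    apply Finset.sum_congr rfl
    intro t _
    ring
  simp only [e1, Finset.sum_sub_distrib]
  rw [pm_sum, unif_sum, Finset.sum_comm]
  have e2 : ∀ t, ∑ c, K a t * (pm (unif A) f c * rho f K c t) = K a t := by
    intro t
    rw [← Finset.mul_sum]
    by_cases h : K a t = 0
    · rw [h, zero_mul]
    · have hRT : 0 < push K (unif A) t := by
        have h1 : 0 < K a t := lt_of_le_of_ne ((hK a).1 t) (Ne.symm h)
        have h2 : unif A a * K a t ≤ push K (unif A) t := by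
          unfold push
          exact Finset.single_le_sum (f := fun a => unif A a * K a t)
            (fun a _ => mul_nonneg (unif_nonneg a) ((hK a).1 t)) (Finset.mem_univ a)
        exact lt_of_lt_of_le (mul_pos (unif_pos a) h1) h2
      simp only [RC_mul_rho f K hK]
      rw [← Finset.sum_div, joint_sum_left, div_self hRT.ne', mul_one]
  simp only [e2]
  rw [(hK a).2, sub_self]

/-- the smoothed kernel is centred in the input under the uniform law -/
theorem centre_a [Nonempty A] (f : A → C) (K : A → B → ℝ) (hK : IsChan K) (c : C)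
    (hc : pm (unif A) f c ≠ 0) : ∑ a, unif A a * kap f K a c = 0 := by
  have e1 : ∀ a, unif A a * kap f K a c =
      ∑ t, (unif A a * K a t) * rho f K c t - unif A a := by
    intro a
    unfold kap
    rw [mul_sub, mul_one, Finset.mul_sum]
    congr 1
    apply Finset.sum_congr rfl
    intro t _
    ring
  simp only [e1, Finset.sum_sub_distrib]
  rw [unif_sum, Finset.sum_comm]
  have e2 : ∀ t, ∑ a, (unif A a * K a t) * rho f K c t =
      joint f K (unif A) (c, t) / pm (unif A) f c := by
    intro t
    rw [← Finset.sum_mul]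
    exact RT_mul_rho f K hK c t
  simp only [e2]
  rw [← Finset.sum_div, joint_sum_right f K hK, div_self hc, sub_self]

/-- optimisation of the Donsker-Varadhan parameter -/
theorem opt_bound (x D V g0 : ℝ) (hV : 0 < V) (hg0 : 0 < g0) (hD : 0 ≤ D) (hDV : D ≤ V * g0 ^ 2)
    (h : ∀ g, 0 < g → g ≤ g0 → g * x ≤ D + V * g ^ 2) :
    x ≤ Real.sqrt (2 * V) * Real.sqrt (2 * D) := by
  have hα : 0 < Real.sqrt (2 * V) := Real.sqrt_pos.2 (by linarith)
  have hα2 : Real.sqrt (2 * V) ^ 2 = 2 * V := Real.sq_sqrt (by linarith)
  have hβ0 : 0 ≤ Real.sqrt (2 * D) := Real.sqrt_nonneg _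
  have hβ2 : Real.sqrt (2 * D) ^ 2 = 2 * D := Real.sq_sqrt (by linarith)
  set α := Real.sqrt (2 * V) with hαdef
  set β := Real.sqrt (2 * D) with hβdef
  rcases hβ0.eq_or_lt with hz | hβ
  · have hD0 : D = 0 := by
      rw [← hz] at hβ2
      nlinarith
    rw [← hz, mul_zero]
    by_contra hx
    push_neg at hx
    have hg : 0 < min g0 (x / (2 * V)) := lt_min hg0 (by positivity)
    have h1 := h _ hg (min_le_left _ _)
    rw [hD0, zero_add] at h1
    have h2 : x ≤ V * min g0 (x / (2 * V)) := by
      have h3 : min g0 (x / (2 * V)) * x ≤ min g0 (x / (2 * V)) * (V * min g0 (x / (2 * V))) := by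
        calc min g0 (x / (2 * V)) * x ≤ V * min g0 (x / (2 * V)) ^ 2 := h1
          _ = min g0 (x / (2 * V)) * (V * min g0 (x / (2 * V))) := by ring
      exact le_of_mul_le_mul_left h3 hg
    have h4 : V * min g0 (x / (2 * V)) ≤ V * (x / (2 * V)) :=
      mul_le_mul_of_nonneg_left (min_le_right _ _) hV.le
    have h5 : V * (x / (2 * V)) = x / 2 := by field_simp
    linarith
  · have hg : 0 < β / α := div_pos hβ hα
    have hle : β / α ≤ g0 := by
      rw [div_le_iff₀ hα]
      by_contra hcon
      push_neg at hcon
      have h1 : 0 ≤ g0 * α := by positivity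
      have h2 : (g0 * α) ^ 2 < β ^ 2 := by
        apply pow_lt_pow_left₀ hcon h1 (by norm_num)
      rw [mul_pow, hα2, hβ2] at h2
      nlinarith
    have h1 := h _ hg hle
    have h2 : D + V * (β / α) ^ 2 = β ^ 2 := by
      have hV' : V = α ^ 2 / 2 := by linarith
      have hD' : D = β ^ 2 / 2 := by linarith
      rw [hV', hD']
      field_simp
      ring
    rw [h2] at h1
    have h3 : β / α * x ≤ β / α * (α * β) := by
      calc β / α * x ≤ β ^ 2 := h1
        _ = β / α * (α * β) := by field_simp
    exact le_of_mul_le_mul_left h3 hg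

theorem pm_id' [DecidableEq A] (q : A → ℝ) : pm q (id : A → A) = q := by
  funext a
  unfold pm
  simp [Finset.filter_eq']

theorem pair_unif [Nonempty A] (p : A → ℝ) (hp : IsLaw p) : Pair p (unif A) :=
  ⟨hp.1, unif_nonneg, fun w h => absurd h (unif_pos w).ne', hp.2, unif_sum⟩

theorem Dv_le_kl' [Nonempty A] (p : A → ℝ) (hp : IsLaw p) (f : A → C) :
    Dv p (unif A) f ≤ kl p (unif A) := by
  classical
  have h := Dv_comp_le (pair_unif p hp) (id : A → A) f
  have h2 : Dv p (unif A) (id : A → A) = kl p (unif A) := by
    unfold Dv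
    rw [pm_id', pm_id']
  rw [h2] at h
  exact h

/-- Donsker-Varadhan step: exponential moments control the averages of the kernel -/
theorem dv_step [Nonempty A] (f : A → C) (K : A → B → ℝ) (V g0 : ℝ)
    (hexp : ∀ a g, |g| ≤ g0 →
      ∑ c, pm (unif A) f c * Real.exp (g * kap f K a c) ≤ Real.exp (V * g ^ 2))
    (p : A → ℝ) (hp : IsLaw p) (a : A) (g : ℝ) (hg : |g| ≤ g0) :
    g * ∑ c, pm p f c * kap f K a c ≤ Dv p (unif A) f + V * g ^ 2 := by
  have hpair := pair_unif p hp
  have h := dv_ineq (pm p f) (pm (unif A) f) (fun c => Real.exp (g * kap f K a c))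
    (pm_nonneg _ hp.1 _) (pm_nonneg _ unif_nonneg _)
    (pm_ac p (unif A) hpair.nnP hpair.nnU hpair.ac f)
    (fun c => (Real.exp_pos _).le) (fun c h0 => absurd h0 (Real.exp_pos _).ne')
    (pm_sum_one p hp f)
  simp only [Real.log_exp] at h
  have hpos : 0 < ∑ c, pm (unif A) f c * Real.exp (g * kap f K a c) := by
    apply Finset.sum_pos'
    · intro c _
      exact mul_nonneg (pm_nonneg _ unif_nonneg _ _) (Real.exp_pos _).le
    · refine ⟨f a, Finset.mem_univ _, mul_pos ?_ (Real.exp_pos _)⟩
      have h2 : unif A a ≤ pm (unif A) f (f a) := by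
        unfold pm
        exact Finset.single_le_sum (f := fun w => unif A w) (fun w _ => unif_nonneg w)
          (by simp)
      exact lt_of_lt_of_le (unif_pos a) h2
  have h3 : Real.log (∑ c, pm (unif A) f c * Real.exp (g * kap f K a c)) ≤ V * g ^ 2 := by
    have := Real.log_le_log hpos (hexp a g hg)
    rwa [Real.log_exp] at this
  have h4 : ∑ c, pm p f c * (g * kap f K a c) = g * ∑ c, pm p f c * kap f K a c := by
    rw [Finset.mul_sum]
    apply Finset.sum_congr rfl
    intro c _
    ring
  rw [h4] at h
  unfold Dv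
  linarith

/-- **Abstract block lemma.** -/
theorem sb_abs [Nonempty A] (f : A → C) (K : A → B → ℝ) (hK : IsChan K) (V g0 : ℝ) (hV : 0 < V)
    (hg0 : 0 < g0)
    (hexp : ∀ a g, |g| ≤ g0 →
      ∑ c, pm (unif A) f c * Real.exp (g * kap f K a c) ≤ Real.exp (V * g ^ 2))
    (p : A → ℝ) (hp : IsLaw p) :
    Dv p (unif A) f + kl (push K p) (push K (unif A)) ≤
      kl (joint f K p) (joint f K (unif A)) +
        2 * max (Real.sqrt (2 * V)) (2 / g0) * kl p (unif A) := by
  have hpair := pair_unif p hp
  have hbil := sb_bilinear f K hK p hp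
  have hDB0 : 0 ≤ Dv p (unif A) f := Dv_nonneg hpair f
  have hDBle : Dv p (unif A) f ≤ kl p (unif A) := Dv_le_kl' p hp f
  set DB := Dv p (unif A) f with hDBdef
  set Dp := kl p (unif A) with hDpdef
  set θ := max (Real.sqrt (2 * V)) (2 / g0) with hθ
  have hθ1 : Real.sqrt (2 * V) ≤ θ := le_max_left _ _
  have hθ2 : 2 / g0 ≤ θ := le_max_right _ _
  have hθ0 : 0 ≤ θ := le_trans (Real.sqrt_nonneg _) hθ1
  set aa : A → ℝ := fun a => ∑ c, pm p f c * kap f K a c with haa
  have hsum : ∑ a, ∑ c, p a * pm p f c * kap f K a c = ∑ a, p a * aa a := by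
    apply Finset.sum_congr rfl
    intro a _
    rw [haa]
    simp only
    rw [Finset.mul_sum]
    apply Finset.sum_congr rfl
    intro c _
    ring
  have hdv : ∀ a g, |g| ≤ g0 → g * aa a ≤ DB + V * g ^ 2 :=
    fun a g hg => dv_step f K V g0 hexp p hp a g hg
  have key : ∑ a, p a * aa a ≤ θ * (DB + Dp) := by
    by_cases hcase : DB ≤ V * g0 ^ 2
    · -- small divergence
      have hup : ∀ a, aa a ≤ Real.sqrt (2 * V) * Real.sqrt (2 * DB) := by
        intro a
        apply opt_bound (aa a) DB V g0 hV hg0 hDB0 hcase
        intro g hg hgle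
        exact hdv a g (by rw [abs_of_pos hg]; exact hgle)
      have hlo : ∀ a, -aa a ≤ Real.sqrt (2 * V) * Real.sqrt (2 * DB) := by
        intro a
        apply opt_bound (-aa a) DB V g0 hV hg0 hDB0 hcase
        intro g hg hgle
        have := hdv a (-g) (by rw [abs_neg, abs_of_pos hg]; exact hgle)
        have e : (-g) ^ 2 = g ^ 2 := by ring
        rw [e] at this
        linarith
      have habs : ∀ a, |aa a| ≤ Real.sqrt (2 * V) * Real.sqrt (2 * DB) := by
        intro a
        rw [abs_le]
        exact ⟨by linarith [hlo a], hup a⟩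
      have hcen : ∑ a, unif A a * aa a = 0 := by
        have e1 : ∑ a, unif A a * aa a = ∑ c, pm p f c * ∑ a, unif A a * kap f K a c := by
          rw [haa]
          simp only [Finset.mul_sum]
          rw [Finset.sum_comm]
          apply Finset.sum_congr rfl
          intro c _
          apply Finset.sum_congr rfl
          intro a _
          ring
        rw [e1]
        apply Finset.sum_eq_zero
        intro c _
        by_cases hc : pm (unif A) f c = 0
        · rw [pm_ac p (unif A) hpair.nnP hpair.nnU hpair.ac f c hc, zero_mul]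
        · rw [centre_a f K hK c hc, mul_zero]
      have hpin := pinsker p (unif A) hp.1 unif_nonneg
        (fun a h => absurd h (unif_pos a).ne') hp.2 unif_sum
      set s := ∑ a, |p a - unif A a| with hs
      have hs0 : 0 ≤ s := Finset.sum_nonneg fun a _ => abs_nonneg _
      have h1 : ∑ a, p a * aa a = ∑ a, (p a - unif A a) * aa a := by
        have : ∑ a, (p a - unif A a) * aa a = ∑ a, p a * aa a - ∑ a, unif A a * aa a := by
          rw [← Finset.sum_sub_distrib]
          apply Finset.sum_congr rfl
          intro a _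
          ring
        rw [this, hcen, sub_zero]
      have h2 : ∑ a, (p a - unif A a) * aa a ≤
          s * (Real.sqrt (2 * V) * Real.sqrt (2 * DB)) := by
        rw [hs, Finset.sum_mul]
        apply Finset.sum_le_sum
        intro a _
        calc (p a - unif A a) * aa a ≤ |(p a - unif A a) * aa a| := le_abs_self _
          _ = |p a - unif A a| * |aa a| := abs_mul _ _
          _ ≤ |p a - unif A a| * (Real.sqrt (2 * V) * Real.sqrt (2 * DB)) :=
            mul_le_mul_of_nonneg_left (habs a) (abs_nonneg _)
      have hβ2 : Real.sqrt (2 * DB) ^ 2 = 2 * DB := Real.sq_sqrt (by linarith)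
      have hα0 : 0 ≤ Real.sqrt (2 * V) := Real.sqrt_nonneg _
      have h3 : s * Real.sqrt (2 * DB) ≤ DB + Dp := by
        nlinarith [sq_nonneg (s - Real.sqrt (2 * DB))]
      have h4 : 0 ≤ DB + Dp := by linarith
      calc ∑ a, p a * aa a ≤ s * (Real.sqrt (2 * V) * Real.sqrt (2 * DB)) := by rw [h1]; exact h2
        _ = Real.sqrt (2 * V) * (s * Real.sqrt (2 * DB)) := by ring
        _ ≤ Real.sqrt (2 * V) * (DB + Dp) := mul_le_mul_of_nonneg_left h3 hα0
        _ ≤ θ * (DB + Dp) := mul_le_mul_of_nonneg_right hθ1 h4
    · -- large divergence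
      push_neg at hcase
      have hup : ∀ a, aa a ≤ 2 / g0 * DB := by
        intro a
        have h1 := hdv a g0 (by rw [abs_of_pos hg0])
        have h2 : g0 * aa a ≤ g0 * (2 / g0 * DB) := by
          have : g0 * (2 / g0 * DB) = 2 * DB := by field_simp
          rw [this]
          linarith
        exact le_of_mul_le_mul_left h2 hg0
      calc ∑ a, p a * aa a ≤ ∑ a, p a * (2 / g0 * DB) :=
            Finset.sum_le_sum fun a _ => mul_le_mul_of_nonneg_left (hup a) (hp.1 a)
        _ = 2 / g0 * DB := by rw [← Finset.sum_mul, hp.2, one_mul]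
        _ ≤ θ * DB := mul_le_mul_of_nonneg_right hθ2 hDB0
        _ ≤ θ * (DB + Dp) := by
          apply mul_le_mul_of_nonneg_left _ hθ0
          linarith
  rw [hsum] at hbil
  have h5 : θ * (DB + Dp) ≤ 2 * θ * Dp := by
    have : θ * (DB + Dp) ≤ θ * (Dp + Dp) := by
      apply mul_le_mul_of_nonneg_left _ hθ0
      linarith
    linarith
  linarith

end Vale.Agent.P162.SB8
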