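import Vale.Agent.P162.SB.Defs

namespace Vale.Agent.P162.SB

open Finset Real Vale.Agent.P162 Vale.Agent.P162.KL

theorem step0_term (Q R qB uB qT uT be : ℝ) (hQ : 0 < Q) (hR : 0 < R) (hqB : 0 < qB)
    (huB : 0 < uB) (hqT : 0 < qT) (huT : 0 < uT) (hbe : 0 < be) (H2 : R ≤ uB * uT / be) :
    Q * (Real.log (qB / uB) + Real.log (qT / uT) - Real.log (Q / R)) ≤ qB * qT / be - Q := by
  have hx : Real.log (qB / uB) + Real.log (qT / uT) - Real.log (Q / R) =
      Real.log ((qB / uB) * (qT / uT) / (Q / R)) := by
    have a1 : (qB / uB) * (qT / uT) ≠ 0 := by positivity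
    have a2 : Q / R ≠ 0 := by positivity
    have a3 : qB / uB ≠ 0 := by positivity
    have a4 : qT / uT ≠ 0 := by positivity
    rw [Real.log_div a1 a2, Real.log_mul a3 a4]
  have h1 := Real.log_le_sub_one_of_pos (show 0 < (qB / uB) * (qT / uT) / (Q / R) by positivity)
  have h2 : R / (uB * uT) ≤ 1 / be := by
    rw [div_le_iff₀ (by positivity)]
    calc R ≤ uB * uT / be := H2
      _ = 1 / be * (uB * uT) := by ring
  calc Q * (Real.log (qB / uB) + Real.log (qT / uT) - Real.log (Q / R))
      = Q * Real.log ((qB / uB) * (qT / uT) / (Q / R)) := by rw [hx]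
    _ ≤ Q * ((qB / uB) * (qT / uT) / (Q / R) - 1) := mul_le_mul_of_nonneg_left h1 hQ.le
    _ = qB * qT * (R / (uB * uT)) - Q := by
        field_simp
    _ ≤ qB * qT * (1 / be) - Q := by
        have := mul_le_mul_of_nonneg_left h2 (mul_pos hqB hqT).le
        linarith
    _ = qB * qT / be - Q := by ring

/-- STEP 0 (only `log x ≤ x - 1`): with `Q = joint β K p`, `qB = KL.pm p β`, `qT = push K p`:
`D(B)+D(T)-D(B,T) = ∑ Q log (qB qT W / (uB uT Q)) ≤ ∑_{Q>0} (qB qT / be - Q) ≤ ∑_{sh} qB qT / be - 1`
and the last expression is `∑ a, p a * ∑ b, qB b * kap a b`. -/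
theorem sb_step0 {A B C : Type*} [Fintype A] [Fintype B] [DecidableEq B] [Fintype C]
    (β : A → B) (K : A → C → ℝ) (hK : IsChan K) (sh : B → C → Prop) [∀ b c, Decidable (sh b c)]
    (be : ℝ) (hbe : 0 < be)
    (H1 : ∀ a c, K a c ≠ 0 → sh (β a) c)
    (H2 : ∀ b c, joint β K (unif A) (b, c) ≤ KL.pm (unif A) β b * push K (unif A) c / be)
    (p : A → ℝ) (hp : IsLaw p) :
    Dv p (unif A) β + kl (push K p) (push K (unif A)) - kl (joint β K p) (joint β K (unif A)) ≤
      ∑ a, p a * ∑ b, KL.pm p β b * kap K sh be a b := by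
  have hne : Nonempty A := by
    by_contra h
    rw [not_nonempty_iff] at h
    have := hp.2
    simp at this
  have hu : ∀ a, 0 < unif A a := by
    intro a
    unfold unif
    have : (0 : ℝ) < (Fintype.card A : ℝ) := by exact_mod_cast Fintype.card_pos
    positivity
  -- general facts on `joint`, `pm`, `push` for a nonnegative weight
  have hJ : ∀ (μ : A → ℝ) b c, joint β K μ (b, c) = ∑ a, if β a = b then μ a * K a c else 0 :=
    fun _ _ _ => rfl
  have hpm : ∀ (μ : A → ℝ) b, KL.pm μ β b = ∑ a, if β a = b then μ a else 0 := by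
    intro μ b
    unfold KL.pm
    rw [Finset.sum_filter]
  have hterm0 : ∀ (μ : A → ℝ), (∀ a, 0 ≤ μ a) → ∀ b c a,
      0 ≤ (if β a = b then μ a * K a c else 0) := by
    intro μ hμ b c a
    split_ifs
    · exact mul_nonneg (hμ a) ((hK a).1 c)
    · exact le_refl _
  have hJ0 : ∀ (μ : A → ℝ), (∀ a, 0 ≤ μ a) → ∀ b c, 0 ≤ joint β K μ (b, c) := by
    intro μ hμ b c
    rw [hJ]
    exact Finset.sum_nonneg (fun a _ => hterm0 μ hμ b c a)
  have hmB : ∀ (μ : A → ℝ) b, ∑ c, joint β K μ (b, c) = KL.pm μ β b := by
    intro μ b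
    simp only [hJ]
    rw [Finset.sum_comm, hpm]
    apply Finset.sum_congr rfl
    intro a _
    split_ifs
    · rw [← Finset.mul_sum, (hK a).2, mul_one]
    · simp
  have hmT : ∀ (μ : A → ℝ) c, ∑ b, joint β K μ (b, c) = push K μ c := by
    intro μ c
    simp only [hJ]
    rw [Finset.sum_comm]
    unfold push
    apply Finset.sum_congr rfl
    intro a _
    rw [Finset.sum_ite_eq]
    simp
  have hqB0 : ∀ b, 0 ≤ KL.pm p β b := by
    intro b
    rw [← hmB]
    exact Finset.sum_nonneg (fun c _ => hJ0 p hp.1 b c)
  have hqT0 : ∀ c, 0 ≤ push K p c := by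
    intro c
    rw [← hmT]
    exact Finset.sum_nonneg (fun b _ => hJ0 p hp.1 b c)
  have hqBsum : ∑ b, KL.pm p β b = 1 := by
    rw [KL.pm_sum, hp.2]
  -- the termwise inequality
  have hT : ∀ b c, joint β K p (b, c) *
      (Real.log (KL.pm p β b / KL.pm (unif A) β b) +
        Real.log (push K p c / push K (unif A) c) -
        Real.log (joint β K p (b, c) / joint β K (unif A) (b, c))) ≤
      (if sh b c then KL.pm p β b * push K p c / be else 0) - joint β K p (b, c) := by
    intro b c
    rcases (hJ0 p hp.1 b c).eq_or_lt with h0 | hpos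
    · rw [← h0, zero_mul, sub_zero]
      split_ifs
      · exact div_nonneg (mul_nonneg (hqB0 b) (hqT0 c)) hbe.le
      · exact le_refl _
    · have hne0 : (∑ a, if β a = b then p a * K a c else 0) ≠ 0 := by
        rw [← hJ]
        exact ne_of_gt hpos
      obtain ⟨a, _, ha⟩ := Finset.exists_ne_zero_of_sum_ne_zero hne0
      have hab : β a = b := by
        by_contra h
        rw [if_neg h] at ha
        exact ha rfl
      rw [if_pos hab] at ha
      have hKa : K a c ≠ 0 := right_ne_zero_of_mul ha
      have hKpos : 0 < K a c := lt_of_le_of_ne ((hK a).1 c) (Ne.symm hKa)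
      have hsh : sh b c := hab ▸ H1 a c hKa
      have hRpos : 0 < joint β K (unif A) (b, c) := by
        rw [hJ]
        have h1 := Finset.single_le_sum (fun a' _ => hterm0 (unif A) (fun a' => (hu a').le) b c a')
          (Finset.mem_univ a)
        rw [if_pos hab] at h1
        exact lt_of_lt_of_le (mul_pos (hu a) hKpos) h1
      have huB : 0 < KL.pm (unif A) β b := by
        rw [← hmB]
        exact lt_of_lt_of_le hRpos (Finset.single_le_sum
          (fun c' _ => hJ0 (unif A) (fun a' => (hu a').le) b c') (Finset.mem_univ c))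
      have huT : 0 < push K (unif A) c := by
        rw [← hmT]
        exact lt_of_lt_of_le hRpos (Finset.single_le_sum
          (f := fun b' => joint β K (unif A) (b', c))
          (fun b' _ => hJ0 (unif A) (fun a' => (hu a').le) b' c) (Finset.mem_univ b))
      have hqB : 0 < KL.pm p β b := by
        rw [← hmB]
        exact lt_of_lt_of_le hpos (Finset.single_le_sum
          (fun c' _ => hJ0 p hp.1 b c') (Finset.mem_univ c))
      have hqT : 0 < push K p c := by
        rw [← hmT]
        exact lt_of_lt_of_le hpos (Finset.single_le_sum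
          (f := fun b' => joint β K p (b', c))
          (fun b' _ => hJ0 p hp.1 b' c) (Finset.mem_univ b))
      rw [if_pos hsh]
      exact step0_term _ _ _ _ _ _ be hpos hRpos hqB huB hqT huT hbe (H2 b c)
  -- the left side as a double sum
  have hL : Dv p (unif A) β + kl (push K p) (push K (unif A)) -
      kl (joint β K p) (joint β K (unif A)) =
      ∑ b, ∑ c, joint β K p (b, c) *
      (Real.log (KL.pm p β b / KL.pm (unif A) β b) +
        Real.log (push K p c / push K (unif A) c) -
        Real.log (joint β K p (b, c) / joint β K (unif A) (b, c))) := by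
    have e1 : Dv p (unif A) β = ∑ b, ∑ c, joint β K p (b, c) *
        Real.log (KL.pm p β b / KL.pm (unif A) β b) := by
      unfold Dv kl
      apply Finset.sum_congr rfl
      intro b _
      rw [← Finset.sum_mul, hmB]
    have e2 : kl (push K p) (push K (unif A)) = ∑ b, ∑ c, joint β K p (b, c) *
        Real.log (push K p c / push K (unif A) c) := by
      unfold kl
      rw [Finset.sum_comm]
      apply Finset.sum_congr rfl
      intro c _
      rw [← Finset.sum_mul, hmT]
    have e3 : kl (joint β K p) (joint β K (unif A)) = ∑ b, ∑ c, joint β K p (b, c) *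
        Real.log (joint β K p (b, c) / joint β K (unif A) (b, c)) := by
      unfold kl
      rw [Fintype.sum_prod_type]
    rw [e1, e2, e3, ← Finset.sum_add_distrib, ← Finset.sum_sub_distrib]
    apply Finset.sum_congr rfl
    intro b _
    rw [← Finset.sum_add_distrib, ← Finset.sum_sub_distrib]
    apply Finset.sum_congr rfl
    intro c _
    ring
  -- the right side
  have hR : ∑ a, p a * ∑ b, KL.pm p β b * kap K sh be a b =
      ∑ b, ∑ c, ((if sh b c then KL.pm p β b * push K p c / be else 0) - joint β K p (b, c)) := by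
    have e1 : ∀ a, p a * ∑ b, KL.pm p β b * kap K sh be a b =
        (∑ b, ∑ c, if sh b c then KL.pm p β b * (p a * K a c) / be else 0) - p a := by
      intro a
      have h1 : ∑ b, KL.pm p β b * kap K sh be a b =
          (∑ b, KL.pm p β b * ((∑ c, if sh b c then K a c else 0) / be)) - 1 := by
        unfold kap
        simp only [mul_sub, mul_one, Finset.sum_sub_distrib, hqBsum]
      rw [h1, mul_sub, mul_one, Finset.mul_sum]
      congr 1
      apply Finset.sum_congr rfl
      intro b _
      rw [Finset.sum_div, Finset.mul_sum, Finset.mul_sum]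
      apply Finset.sum_congr rfl
      intro c _
      split_ifs
      · ring
      · simp
    have e2 : ∑ b, ∑ c, joint β K p (b, c) = 1 := by
      simp only [hmB, hqBsum]
    rw [Finset.sum_congr rfl (fun a _ => e1 a), Finset.sum_sub_distrib, hp.2]
    simp only [Finset.sum_sub_distrib]
    rw [e2]
    congr 1
    rw [Finset.sum_comm]
    apply Finset.sum_congr rfl
    intro b _
    rw [Finset.sum_comm]
    apply Finset.sum_congr rfl
    intro c _
    split_ifs
    · unfold push
      rw [Finset.mul_sum, Finset.sum_div]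
    · simp
  rw [hL, hR]
  exact Finset.sum_le_sum (fun b _ => Finset.sum_le_sum (fun c _ => hT b c))

end Vale.Agent.P162.SB
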