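import Vale.Agent.P162.KL.BL
import Vale.Agent.P162.KL.Chan

/-!
# P162 : abstract analytic core of the single block lemma (SB)

* `dv_exp` : Donsker-Varadhan in linear form.
* `exp_le_quad` : `exp t ≤ 1 + t + t ^ 2 * exp |t|`.
* `exp_of_moment` : a centred function with a small weighted second moment is sub-Gaussian on a
  bounded range of parameters.
* `hoeffding_sum` : Hoeffding's lemma on a finite probability space.
* `bilinear_dv` : Donsker-Varadhan twice, a multiplicative bound on a doubly centred bilinear form.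
-/

namespace Vale.Agent.P162.KL

open Finset Real

/-- Donsker-Varadhan, linear form. -/
theorem dv_exp {A : Type*} [Fintype A] (p q t : A → ℝ) (hp : ∀ a, 0 ≤ p a) (hq : ∀ a, 0 ≤ q a)
    (hac : ∀ a, q a = 0 → p a = 0) (hsum : ∑ a, p a = 1) :
    ∑ a, p a * t a ≤ kl p q + Real.log (∑ a, q a * Real.exp (t a)) := by
  have h := dv_ineq p q (fun a => Real.exp (t a)) hp hq hac (fun a => (Real.exp_pos _).le)
    (fun a h => absurd h (Real.exp_pos _).ne') hsum
  simp only [Real.log_exp] at h
  linarith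

theorem log_le_of_le_exp {S c : ℝ} (h0 : 0 ≤ S) (hc : 0 ≤ c) (h : S ≤ Real.exp c) :
    Real.log S ≤ c := by
  rcases h0.eq_or_lt with h1 | h1
  · rw [← h1, Real.log_zero]; exact hc
  · calc Real.log S ≤ Real.log (Real.exp c) := Real.log_le_log h1 h
      _ = c := Real.log_exp c

/-- second order bound for the exponential, all real arguments -/
theorem exp_le_quad (t : ℝ) : Real.exp t ≤ 1 + t + t ^ 2 * Real.exp |t| := by
  have h1 : Real.exp t - 1 ≤ t * Real.exp t := by
    have h := Real.add_one_le_exp (-t)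
    have h2 : Real.exp (-t) * Real.exp t = 1 := by rw [← Real.exp_add]; simp
    have h3 := mul_le_mul_of_nonneg_right h (Real.exp_pos t).le
    rw [h2] at h3
    linarith
  have h0 := Real.add_one_le_exp t
  rcases le_total 0 t with ht | ht
  · rw [abs_of_nonneg ht]
    have := mul_le_mul_of_nonneg_left h1 ht
    nlinarith
  · rw [abs_of_nonpos ht]
    have h4 : 1 ≤ Real.exp (-t) := Real.one_le_exp (by linarith)
    have h5 : t ^ 2 ≤ t ^ 2 * Real.exp (-t) := by nlinarith [sq_nonneg t]
    have h6 : Real.exp t ≤ 1 := Real.exp_le_one_iff.2 ht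
    nlinarith

/-- a centred function with small weighted second moment has sub-Gaussian exponential moments for
all parameters `|g| ≤ g0`. -/
theorem exp_of_moment {X : Type*} [Fintype X] (u k : X → ℝ) (hu : ∀ x, 0 ≤ u x)
    (hus : ∑ x, u x = 1) (hcen : ∑ x, u x * k x = 0) (s g0 : ℝ)
    (hmom : ∑ x, u x * (k x ^ 2 * Real.exp (g0 * |k x|)) ≤ s ^ 2) (g : ℝ) (hg : |g| ≤ g0) :
    ∑ x, u x * Real.exp (g * k x) ≤ Real.exp (s ^ 2 * g ^ 2) := by
  have h1 : ∀ x, u x * Real.exp (g * k x) ≤
      u x + g * (u x * k x) + g ^ 2 * (u x * (k x ^ 2 * Real.exp (g0 * |k x|))) := by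
    intro x
    have h := exp_le_quad (g * k x)
    have h2 : Real.exp |g * k x| ≤ Real.exp (g0 * |k x|) := by
      apply Real.exp_le_exp.2
      rw [abs_mul]
      exact mul_le_mul_of_nonneg_right hg (abs_nonneg _)
    have h3 : (g * k x) ^ 2 * Real.exp |g * k x| ≤ (g * k x) ^ 2 * Real.exp (g0 * |k x|) :=
      mul_le_mul_of_nonneg_left h2 (sq_nonneg _)
    have h4 := mul_le_mul_of_nonneg_left (h.trans (by linarith :
      1 + g * k x + (g * k x) ^ 2 * Real.exp |g * k x| ≤
        1 + g * k x + (g * k x) ^ 2 * Real.exp (g0 * |k x|))) (hu x)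
    calc u x * Real.exp (g * k x) ≤ _ := h4
      _ = _ := by ring
  calc ∑ x, u x * Real.exp (g * k x)
      ≤ ∑ x, (u x + g * (u x * k x) + g ^ 2 * (u x * (k x ^ 2 * Real.exp (g0 * |k x|)))) :=
        Finset.sum_le_sum (fun x _ => h1 x)
    _ = 1 + g ^ 2 * ∑ x, u x * (k x ^ 2 * Real.exp (g0 * |k x|)) := by
        rw [Finset.sum_add_distrib, Finset.sum_add_distrib, ← Finset.mul_sum, ← Finset.mul_sum,
          hus, hcen]
        ring
    _ ≤ 1 + g ^ 2 * s ^ 2 := by
        have := mul_le_mul_of_nonneg_left hmom (sq_nonneg g)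
        linarith
    _ ≤ Real.exp (s ^ 2 * g ^ 2) := by
        have := Real.add_one_le_exp (s ^ 2 * g ^ 2)
        linarith

/-- chord bound for the exponential on `[-c, c]`. -/
theorem exp_le_chord {t c : ℝ} (hc : 0 < c) (ht : |t| ≤ c) :
    Real.exp t ≤ Real.cosh c + t / c * Real.sinh c := by
  have h1 := abs_le.1 ht
  have ha : 0 ≤ (c + t) / (2 * c) := div_nonneg (by linarith) (by linarith)
  have hb : 0 ≤ (c - t) / (2 * c) := div_nonneg (by linarith) (by linarith)
  have hab : (c + t) / (2 * c) + (c - t) / (2 * c) = 1 := by field_simp; ring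
  have h := convexOn_exp.2 (Set.mem_univ c) (Set.mem_univ (-c)) ha hb hab
  simp only [smul_eq_mul] at h
  have h2 : (c + t) / (2 * c) * c + (c - t) / (2 * c) * -c = t := by field_simp; ring
  rw [h2] at h
  rw [Real.cosh_eq, Real.sinh_eq]
  calc Real.exp t ≤ _ := h
    _ = _ := by field_simp; ring

/-- Hoeffding's lemma on a finite probability space. -/
theorem hoeffding_sum {Y : Type*} [Fintype Y] (v a : Y → ℝ) (hv : ∀ y, 0 ≤ v y)
    (hvs : ∑ y, v y = 1) (hcen : ∑ y, v y * a y = 0) (A : ℝ) (hA : ∀ y, |a y| ≤ A) (l : ℝ)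
    (hl : 0 ≤ l) :
    ∑ y, v y * Real.exp (l * a y) ≤ Real.exp ((l * A) ^ 2 / 2) := by
  have hA0 : 0 ≤ A := by
    by_contra h
    rw [not_le] at h
    have : ∀ y, v y = 0 := by
      intro y
      exact absurd ((abs_nonneg (a y)).trans (hA y)) (not_le.2 h)
    simp [this] at hvs
  rcases (mul_nonneg hl hA0).eq_or_lt with h0 | hpos
  · have h1 : ∀ y, l * a y = 0 := by
      intro y
      have h2 : |l * a y| ≤ l * A := by
        rw [abs_mul, abs_of_nonneg hl]
        exact mul_le_mul_of_nonneg_left (hA y) hl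
      rw [← h0] at h2
      exact abs_eq_zero.1 (le_antisymm h2 (abs_nonneg _))
    simp only [h1, Real.exp_zero, mul_one, hvs, ← h0]
    simp
  · have h1 : ∀ y, v y * Real.exp (l * a y) ≤
        v y * Real.cosh (l * A) + (l / (l * A) * Real.sinh (l * A)) * (v y * a y) := by
      intro y
      have h2 : |l * a y| ≤ l * A := by
        rw [abs_mul, abs_of_nonneg hl]
        exact mul_le_mul_of_nonneg_left (hA y) hl
      have h3 := mul_le_mul_of_nonneg_left (exp_le_chord hpos h2) (hv y)
      calc v y * Real.exp (l * a y) ≤ _ := h3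
        _ = _ := by ring
    calc ∑ y, v y * Real.exp (l * a y)
        ≤ ∑ y, (v y * Real.cosh (l * A) + (l / (l * A) * Real.sinh (l * A)) * (v y * a y)) :=
          Finset.sum_le_sum (fun y _ => h1 y)
      _ = Real.cosh (l * A) := by
          rw [Finset.sum_add_distrib, ← Finset.sum_mul, ← Finset.mul_sum, hvs, hcen]
          ring
      _ ≤ Real.exp ((l * A) ^ 2 / 2) := Real.cosh_le_exp_half_sq _

/-- DONSKER-VARADHAN TWICE.  `kap` is centred in `y` for every `x`, and sub-Gaussian in `x` (variance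
proxy `s ^ 2`, parameters `|g| ≤ g0`) for every `y`.  Then the bilinear form of two arbitrary laws is
bounded MULTIPLICATIVELY by their divergences. -/
theorem bilinear_dv {X Y : Type*} [Fintype X] [Fintype Y] (u P : X → ℝ) (v Q : Y → ℝ)
    (kap : X → Y → ℝ) (s g0 : ℝ) (hs : 0 < s) (hg0 : 0 < g0)
    (hu : ∀ x, 0 ≤ u x) (hv : ∀ y, 0 ≤ v y) (hvs : ∑ y, v y = 1)
    (hP : ∀ x, 0 ≤ P x) (hPs : ∑ x, P x = 1) (hPac : ∀ x, u x = 0 → P x = 0)
    (hus : ∑ x, u x = 1)
    (hQ : ∀ y, 0 ≤ Q y) (hQs : ∑ y, Q y = 1) (hQac : ∀ y, v y = 0 → Q y = 0)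
    (hcen : ∀ x, ∑ y, v y * kap x y = 0)
    (hexp : ∀ y g, |g| ≤ g0 → ∑ x, u x * Real.exp (g * kap x y) ≤ Real.exp (s ^ 2 * g ^ 2)) :
    ∑ x, ∑ y, P x * Q y * kap x y ≤ (2 / g0 + 2 * s) * kl P u + s * kl Q v := by
  set D1 := kl P u with hD1
  set D2 := kl Q v with hD2
  have hD1nn : 0 ≤ D1 := kl_nonneg P u hP hu hPac (by rw [hPs, hus])
  have hD2nn : 0 ≤ D2 := kl_nonneg Q v hQ hv hQac (by rw [hQs, hvs])
  set a : Y → ℝ := fun y => ∑ x, P x * kap x y with ha
  have hform : ∑ x, ∑ y, P x * Q y * kap x y = ∑ y, Q y * a y := by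
    rw [Finset.sum_comm]
    apply Finset.sum_congr rfl
    intro y _
    rw [ha]
    simp only [Finset.mul_sum]
    apply Finset.sum_congr rfl
    intro x _
    ring
  rw [hform]
  -- step 1
  have step1 : ∀ y g, |g| ≤ g0 → g * a y ≤ D1 + s ^ 2 * g ^ 2 := by
    intro y g hg
    have h := dv_exp P u (fun x => g * kap x y) hP hu hPac hPs
    have h2 : Real.log (∑ x, u x * Real.exp (g * kap x y)) ≤ s ^ 2 * g ^ 2 :=
      log_le_of_le_exp (Finset.sum_nonneg (fun x _ => mul_nonneg (hu x) (Real.exp_pos _).le))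
        (by positivity) (hexp y g hg)
    have h3 : ∑ x, P x * (g * kap x y) = g * a y := by
      rw [ha]
      simp only [Finset.mul_sum]
      apply Finset.sum_congr rfl
      intro x _
      ring
    rw [h3] at h
    linarith
  have step1' : ∀ y g, 0 < g → g ≤ g0 → |a y| ≤ D1 / g + s ^ 2 * g := by
    intro y g hg hgg
    have h1 := step1 y g (by rw [abs_of_pos hg]; exact hgg)
    have h2 := step1 y (-g) (by rw [abs_neg, abs_of_pos hg]; exact hgg)
    have h3 : D1 / g + s ^ 2 * g = (D1 + s ^ 2 * g ^ 2) / g := by field_simp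
    rw [h3, le_div_iff₀ hg]
    rcases abs_cases (a y) with ⟨h4, _⟩ | ⟨h4, _⟩
    · rw [h4]; linarith
    · rw [h4]; nlinarith
  have hQa : ∀ A : ℝ, (∀ y, |a y| ≤ A) → ∑ y, Q y * a y ≤ A := by
    intro A hA
    calc ∑ y, Q y * a y ≤ ∑ y, Q y * A :=
          Finset.sum_le_sum (fun y _ => mul_le_mul_of_nonneg_left ((le_abs_self _).trans (hA y)) (hQ y))
      _ = A := by rw [← Finset.sum_mul, hQs, one_mul]
  by_cases hcase : s ^ 2 * g0 ^ 2 ≤ D1
  · -- large divergence
    have h1 : ∀ y, |a y| ≤ 2 * D1 / g0 := by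
      intro y
      have h := step1' y g0 hg0 le_rfl
      have h2 : s ^ 2 * g0 ≤ D1 / g0 := by
        rw [le_div_iff₀ hg0]
        calc s ^ 2 * g0 * g0 = s ^ 2 * g0 ^ 2 := by ring
          _ ≤ D1 := hcase
      calc |a y| ≤ D1 / g0 + s ^ 2 * g0 := h
        _ ≤ D1 / g0 + D1 / g0 := by linarith
        _ = 2 * D1 / g0 := by ring
    have h2 := hQa _ h1
    have h3 : (2 / g0 + 2 * s) * D1 + s * D2 = 2 * D1 / g0 + (2 * s * D1 + s * D2) := by ring
    rw [h3]
    have h4 : 0 ≤ 2 * s * D1 + s * D2 := by positivity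
    linarith
  · -- small divergence
    rw [not_le] at hcase
    set r := Real.sqrt D1 with hr
    have hr0 : 0 ≤ r := Real.sqrt_nonneg _
    have hrr : r ^ 2 = D1 := Real.sq_sqrt hD1nn
    have hbound : ∀ y, |a y| ≤ 2 * s * r := by
      intro y
      rcases hr0.eq_or_lt with h0 | hpos
      · -- D1 = 0
        have hD0 : D1 = 0 := by rw [← hrr, ← h0]; ring
        rw [← h0, mul_zero]
        by_contra hne
        rw [not_le] at hne
        set g := min g0 (|a y| / (2 * s ^ 2)) with hgdef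
        have hgpos : 0 < g := lt_min hg0 (by positivity)
        have h := step1' y g hgpos (min_le_left _ _)
        rw [hD0, zero_div, zero_add] at h
        have h2 : g ≤ |a y| / (2 * s ^ 2) := min_le_right _ _
        have h3 : s ^ 2 * g ≤ |a y| / 2 := by
          calc s ^ 2 * g ≤ s ^ 2 * (|a y| / (2 * s ^ 2)) :=
                mul_le_mul_of_nonneg_left h2 (sq_nonneg s)
            _ = |a y| / 2 := by field_simp
        linarith
      · have hrs : r / s ≤ g0 := by
          rw [div_le_iff₀ hs]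
          have : r ^ 2 < (g0 * s) ^ 2 := by rw [hrr]; calc D1 < s ^ 2 * g0 ^ 2 := hcase
            _ = (g0 * s) ^ 2 := by ring
          exact (lt_of_pow_lt_pow_left₀ 2 (by positivity) this).le
        have h := step1' y (r / s) (by positivity) hrs
        have h2 : D1 / (r / s) + s ^ 2 * (r / s) = 2 * s * r := by
          rw [← hrr]; field_simp; ring
        rw [h2] at h
        exact h
    have hcena : ∑ y, v y * a y = 0 := by
      rw [ha]
      simp only [Finset.mul_sum]
      rw [Finset.sum_comm]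
      apply Finset.sum_eq_zero
      intro x _
      have := hcen x
      calc ∑ y, v y * (P x * kap x y) = P x * ∑ y, v y * kap x y := by
            rw [Finset.mul_sum]; apply Finset.sum_congr rfl; intro y _; ring
        _ = 0 := by rw [this, mul_zero]
    have hl : 0 ≤ 1 / s := by positivity
    have hH := hoeffding_sum v a hv hvs hcena (2 * s * r) hbound (1 / s) hl
    have hdv := dv_exp Q v (fun y => 1 / s * a y) hQ hv hQac hQs
    have hlog : Real.log (∑ y, v y * Real.exp (1 / s * a y)) ≤ (1 / s * (2 * s * r)) ^ 2 / 2 :=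
      log_le_of_le_exp (Finset.sum_nonneg (fun y _ => mul_nonneg (hv y) (Real.exp_pos _).le))
        (by positivity) hH
    have h5 : (1 / s * (2 * s * r)) ^ 2 / 2 = 2 * D1 := by
      rw [← hrr]; field_simp
    rw [h5] at hlog
    have h6 : ∑ y, Q y * (1 / s * a y) = 1 / s * ∑ y, Q y * a y := by
      rw [Finset.mul_sum]; apply Finset.sum_congr rfl; intro y _; ring
    rw [h6] at hdv
    have h7 : 1 / s * ∑ y, Q y * a y ≤ D2 + 2 * D1 := by linarith
    have h8 : ∑ y, Q y * a y ≤ s * (D2 + 2 * D1) := by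
      have := mul_le_mul_of_nonneg_left h7 hs.le
      calc ∑ y, Q y * a y = s * (1 / s * ∑ y, Q y * a y) := by field_simp
        _ ≤ _ := this
    have h9 : 0 ≤ 2 / g0 * D1 := by positivity
    nlinarith

end Vale.Agent.P162.KL
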