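import Vale.Agent.P162.SB.Defs
import Vale.Agent.P162.KL.BL
import Vale.Agent.P162.SB.Bilinear

namespace Vale.Agent.P162.SB

open Finset Real Vale.Agent.P162 Vale.Agent.P162.KL

theorem mono_aux (f f' : ℝ → ℝ) (hd : ∀ x, HasDerivAt f (f' x) x) (hn : ∀ x, 0 ≤ x → 0 ≤ f' x)
    (x : ℝ) (hx : 0 ≤ x) : f 0 ≤ f x := by
  have hm : MonotoneOn f (Set.Ici 0) := by
    apply monotoneOn_of_deriv_nonneg (convex_Ici 0)
    · exact fun y _ => (hd y).continuousAt.continuousWithinAt
    · exact fun y _ => (hd y).differentiableAt.differentiableWithinAt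
    · intro y hy
      rw [(hd y).deriv]
      rw [interior_Ici] at hy
      exact hn y (le_of_lt hy)
  exact hm (Set.mem_Ici.2 le_rfl) (Set.mem_Ici.2 hx) hx

theorem exp_aux_pos (x : ℝ) (hx : 0 ≤ x) : 1 ≤ (1 + x) * Real.exp (-x) + x ^ 2 / 2 := by
  have h := mono_aux (fun y => (1 + y) * Real.exp (-y) + y ^ 2 / 2)
    (fun y => y - y * Real.exp (-y)) ?_ ?_ x hx
  · simpa using h
  · intro y
    have h1 : HasDerivAt (fun y : ℝ => 1 + y) 1 y := (hasDerivAt_id y).const_add 1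
    have h2 : HasDerivAt (fun y : ℝ => Real.exp (-y)) (Real.exp (-y) * (-1)) y :=
      (hasDerivAt_neg y).exp
    have h3 : HasDerivAt (fun y : ℝ => y ^ 2 / 2) (2 * y / 2) y := by
      have := (hasDerivAt_pow 2 y).div_const 2
      simpa using this
    have h4 := (h1.mul h2).add h3
    have e : y - y * Real.exp (-y) =
        1 * Real.exp (-y) + (1 + y) * (Real.exp (-y) * (-1)) + 2 * y / 2 := by ring
    rw [e]
    exact h4
  · intro y hy
    have : Real.exp (-y) ≤ 1 := Real.exp_le_one_iff.2 (by linarith)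
    nlinarith

theorem exp_aux_neg (y : ℝ) (hy : 0 ≤ y) : Real.exp (-y) ≤ 1 - y + y ^ 2 / 2 := by
  have h := mono_aux (fun y => 1 - y + y ^ 2 / 2 - Real.exp (-y))
    (fun y => -1 + y + Real.exp (-y)) ?_ ?_ y hy
  · simp at h
    linarith
  · intro y
    have h1 : HasDerivAt (fun y : ℝ => 1 - y) (-1) y := by
      simpa using (hasDerivAt_id y).const_sub 1
    have h2 : HasDerivAt (fun y : ℝ => Real.exp (-y)) (Real.exp (-y) * (-1)) y :=
      (hasDerivAt_neg y).exp
    have h3 : HasDerivAt (fun y : ℝ => y ^ 2 / 2) (2 * y / 2) y := by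
      have := (hasDerivAt_pow 2 y).div_const 2
      simpa using this
    have h4 := (h1.add h3).sub h2
    have e : -1 + y + Real.exp (-y) = -1 + 2 * y / 2 - Real.exp (-y) * (-1) := by ring
    rw [e]
    exact h4
  · intro y _
    have := Real.add_one_le_exp (-y)
    linarith

/-- `e^x ≤ 1 + x + x^2 e^{|x|} / 2` -/
theorem exp_le_quad (x : ℝ) : Real.exp x ≤ 1 + x + x ^ 2 * Real.exp |x| / 2 := by
  rcases le_total 0 x with hx | hx
  · rw [abs_of_nonneg hx]
    have h := exp_aux_pos x hx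
    have h2 : Real.exp (-x) * Real.exp x = 1 := by rw [← Real.exp_add]; simp
    have h3 := mul_le_mul_of_nonneg_right h (Real.exp_pos x).le
    have h4 : ((1 + x) * Real.exp (-x) + x ^ 2 / 2) * Real.exp x =
        (1 + x) * (Real.exp (-x) * Real.exp x) + x ^ 2 * Real.exp x / 2 := by ring
    rw [h4, h2] at h3
    linarith
  · rw [abs_of_nonpos hx]
    have h := exp_aux_neg (-x) (by linarith)
    rw [neg_neg] at h
    have h4 : 1 ≤ Real.exp (-x) := Real.one_le_exp (by linarith)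
    have h5 : x ^ 2 ≤ x ^ 2 * Real.exp (-x) := by nlinarith [sq_nonneg x]
    nlinarith

theorem dv_half {X : Type*} [Fintype X] (u q f : X → ℝ) (hu : IsLaw u) (hq : IsLaw q)
    (hac : ∀ x, u x = 0 → q x = 0) (hc : ∑ x, u x * f x = 0) (g0 V g : ℝ) (hg : 0 < g)
    (hgg : g ≤ g0) (hV : ∑ x, u x * ((f x) ^ 2 * Real.exp (g0 * |f x|)) ≤ 2 * V) :
    ∑ x, q x * f x ≤ kl q u / g + V * g := by
  have h1 := dv_exp q u (fun x => g * f x) hq.1 hu.1 hac hq.2
  have h2 : ∑ x, u x * Real.exp (g * f x) ≤ 1 + V * g ^ 2 := by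
    calc ∑ x, u x * Real.exp (g * f x)
        ≤ ∑ x, u x * (1 + g * f x + (g * f x) ^ 2 * Real.exp |g * f x| / 2) :=
          Finset.sum_le_sum (fun x _ => mul_le_mul_of_nonneg_left (exp_le_quad _) (hu.1 x))
      _ ≤ ∑ x, (u x + g * (u x * f x) +
            g ^ 2 / 2 * (u x * ((f x) ^ 2 * Real.exp (g0 * |f x|)))) := by
          apply Finset.sum_le_sum
          intro x _
          have e1 : |g * f x| = g * |f x| := by rw [abs_mul, abs_of_pos hg]
          have e2 : Real.exp |g * f x| ≤ Real.exp (g0 * |f x|) := by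
            rw [e1]
            exact Real.exp_le_exp.2 (mul_le_mul_of_nonneg_right hgg (abs_nonneg _))
          have e3 : 0 ≤ u x * (g * f x) ^ 2 / 2 := by
            have := hu.1 x
            positivity
          have e4 := mul_le_mul_of_nonneg_left e2 e3
          nlinarith
      _ = 1 + g * 0 + g ^ 2 / 2 * ∑ x, u x * ((f x) ^ 2 * Real.exp (g0 * |f x|)) := by
          rw [Finset.sum_add_distrib, Finset.sum_add_distrib, hu.2, ← Finset.mul_sum, hc,
            ← Finset.mul_sum]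
      _ ≤ 1 + V * g ^ 2 := by
          have : g ^ 2 / 2 * ∑ x, u x * ((f x) ^ 2 * Real.exp (g0 * |f x|)) ≤ g ^ 2 / 2 * (2 * V) :=
            mul_le_mul_of_nonneg_left hV (by positivity)
          linarith
  have hpos : 0 < ∑ x, u x * Real.exp (g * f x) := by
    have hne : ∃ x, u x ≠ 0 := by
      by_contra hcon
      push Not at hcon
      have := hu.2
      simp [hcon] at this
    obtain ⟨x0, hx0⟩ := hne
    apply Finset.sum_pos'
    · intro x _
      exact mul_nonneg (hu.1 x) (Real.exp_pos _).le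
    · exact ⟨x0, Finset.mem_univ _, mul_pos (lt_of_le_of_ne (hu.1 x0) (Ne.symm hx0))
        (Real.exp_pos _)⟩
  have h3 : Real.log (∑ x, u x * Real.exp (g * f x)) ≤ V * g ^ 2 := by
    have := Real.log_le_sub_one_of_pos hpos
    linarith
  have h4 : g * ∑ x, q x * f x ≤ kl q u + V * g ^ 2 := by
    have e : ∑ x, q x * (g * f x) = g * ∑ x, q x * f x := by
      rw [Finset.mul_sum]
      exact Finset.sum_congr rfl (fun x _ => by ring)
    rw [← e]
    linarith
  have h5 : kl q u / g + V * g = (kl q u + V * g ^ 2) / g := by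
    field_simp
  rw [h5, le_div_iff₀ hg]
  linarith

/-- Donsker-Varadhan + second order bound: `u` a law, `f` centred under `u`,
`∑ u f^2 e^{g0 |f|} ≤ 2 V`, `q` a law absolutely continuous w.r.t. `u`, `0 < g ≤ g0`. -/
theorem dv_centred {X : Type*} [Fintype X] (u q f : X → ℝ) (hu : IsLaw u) (hq : IsLaw q)
    (hac : ∀ x, u x = 0 → q x = 0) (hc : ∑ x, u x * f x = 0) (g0 V g : ℝ) (hg : 0 < g)
    (hgg : g ≤ g0) (hV : ∑ x, u x * ((f x) ^ 2 * Real.exp (g0 * |f x|)) ≤ 2 * V) :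
    |∑ x, q x * f x| ≤ kl q u / g + V * g := by
  rw [abs_le]
  constructor
  · have h := dv_half u q (fun x => -f x) hu hq hac (by simp [hc]) g0 V g hg hgg
      (by simpa using hV)
    simp only [mul_neg, Finset.sum_neg_distrib] at h
    linarith
  · exact dv_half u q f hu hq hac hc g0 V g hg hgg hV

/-- optimisation over `g` in `dv_centred` with `V = 1 / g0^2`, small divergence -/
theorem dv_centred_small {X : Type*} [Fintype X] (u q f : X → ℝ) (hu : IsLaw u) (hq : IsLaw q)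
    (hac : ∀ x, u x = 0 → q x = 0) (hc : ∑ x, u x * f x = 0) (g0 : ℝ) (hg0 : 0 < g0)
    (hV : ∑ x, u x * ((f x) ^ 2 * Real.exp (g0 * |f x|)) ≤ 2 / g0 ^ 2) (hD : kl q u ≤ 1) :
    (∑ x, q x * f x) ^ 2 ≤ 4 * kl q u / g0 ^ 2 := by
  have hD0 : 0 ≤ kl q u := kl_nonneg q u hq.1 hu.1 hac (by rw [hq.2, hu.2])
  have hV' : ∑ x, u x * ((f x) ^ 2 * Real.exp (g0 * |f x|)) ≤ 2 * (1 / g0 ^ 2) := by
    rw [mul_one_div]; exact hV
  set D := kl q u with hDdef
  set a := ∑ x, q x * f x with ha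
  rcases hD0.lt_or_eq with hpos | hzero
  · have hs : 0 < Real.sqrt D := Real.sqrt_pos.2 hpos
    have hs1 : Real.sqrt D ≤ 1 := by
      rw [show (1 : ℝ) = Real.sqrt 1 by simp]; exact Real.sqrt_le_sqrt hD
    have h := dv_centred u q f hu hq hac hc g0 (1 / g0 ^ 2) (g0 * Real.sqrt D) (by positivity)
      (by nlinarith) hV'
    have hsq : Real.sqrt D * Real.sqrt D = D := Real.mul_self_sqrt hD0
    have e : D / (g0 * Real.sqrt D) + 1 / g0 ^ 2 * (g0 * Real.sqrt D) = 2 * Real.sqrt D / g0 := by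
      field_simp
      nlinarith
    rw [← hDdef, e] at h
    have h2 : a ^ 2 ≤ (2 * Real.sqrt D / g0) ^ 2 := by
      rw [← sq_abs a]
      exact pow_le_pow_left₀ (abs_nonneg _) h 2
    have e2 : (2 * Real.sqrt D / g0) ^ 2 = 4 * D / g0 ^ 2 := by
      rw [div_pow, mul_pow, Real.sq_sqrt hD0]
      norm_num
    rw [e2] at h2
    exact h2
  · rw [← hzero]
    have hz : |a| ≤ 0 := by
      apply le_of_forall_pos_le_add
      intro ε hε
      have hg : 0 < min g0 (ε * g0 ^ 2) := lt_min hg0 (by positivity)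
      have h := dv_centred u q f hu hq hac hc g0 (1 / g0 ^ 2) (min g0 (ε * g0 ^ 2)) hg
        (min_le_left _ _) hV'
      rw [← hDdef, ← hzero, zero_div, zero_add] at h
      have h3 : 1 / g0 ^ 2 * min g0 (ε * g0 ^ 2) ≤ 1 / g0 ^ 2 * (ε * g0 ^ 2) :=
        mul_le_mul_of_nonneg_left (min_le_right _ _) (by positivity)
      have h4 : 1 / g0 ^ 2 * (ε * g0 ^ 2) = ε := by field_simp
      linarith
    have : a = 0 := abs_eq_zero.1 (le_antisymm hz (abs_nonneg _))
    rw [this]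
    simp

/-- `dv_centred` at `g = g0`, large divergence -/
theorem dv_centred_large {X : Type*} [Fintype X] (u q f : X → ℝ) (hu : IsLaw u) (hq : IsLaw q)
    (hac : ∀ x, u x = 0 → q x = 0) (hc : ∑ x, u x * f x = 0) (g0 : ℝ) (hg0 : 0 < g0)
    (hV : ∑ x, u x * ((f x) ^ 2 * Real.exp (g0 * |f x|)) ≤ 2 / g0 ^ 2) (hD : 1 ≤ kl q u) :
    ∑ x, q x * f x ≤ 2 * kl q u / g0 := by
  have hV' : ∑ x, u x * ((f x) ^ 2 * Real.exp (g0 * |f x|)) ≤ 2 * (1 / g0 ^ 2) := by
    rw [mul_one_div]; exact hV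
  have h := dv_half u q f hu hq hac hc g0 (1 / g0 ^ 2) g0 hg0 le_rfl hV'
  have e : 1 / g0 ^ 2 * g0 = 1 / g0 := by field_simp
  rw [e] at h
  have h2 : 1 / g0 ≤ kl q u / g0 := div_le_div_of_nonneg_right hD hg0.le
  have e2 : 2 * kl q u / g0 = kl q u / g0 + kl q u / g0 := by ring
  rw [e2]
  linarith

/-- second Donsker-Varadhan step: `f` centred under `u`, `f^2 ≤ 4 DB / g0^2`, `DB ≤ 1`. -/
theorem dv_bounded {X : Type*} [Fintype X] (u q f : X → ℝ) (hu : IsLaw u) (hq : IsLaw q)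
    (hac : ∀ x, u x = 0 → q x = 0) (hc : ∑ x, u x * f x = 0) (g0 DB : ℝ) (hg0 : 0 < g0)
    (hDB0 : 0 ≤ DB) (hDB : DB ≤ 1) (hf : ∀ x, (f x) ^ 2 ≤ 4 * DB / g0 ^ 2) :
    ∑ x, q x * f x ≤ kl q u / g0 + 16 * DB / g0 := by
  have hb : ∀ x, g0 * |f x| ≤ 2 := by
    intro x
    have h1 : (g0 * |f x|) ^ 2 ≤ 2 ^ 2 := by
      rw [mul_pow, sq_abs]
      have := hf x
      have h2 : g0 ^ 2 * (f x) ^ 2 ≤ g0 ^ 2 * (4 * DB / g0 ^ 2) :=
        mul_le_mul_of_nonneg_left this (by positivity)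
      have h3 : g0 ^ 2 * (4 * DB / g0 ^ 2) = 4 * DB := by field_simp
      linarith
    exact abs_le_of_sq_le_sq' h1 (by norm_num) |>.2
  have he : Real.exp 2 ≤ 8 := by
    have h1 : Real.exp 1 < 2.7182818286 := Real.exp_one_lt_d9
    have h2 : Real.exp 2 = Real.exp 1 * Real.exp 1 := by rw [← Real.exp_add]; norm_num
    rw [h2]
    have h0 := Real.exp_pos 1
    nlinarith
  have hV : ∑ x, u x * ((f x) ^ 2 * Real.exp (g0 * |f x|)) ≤ 2 * (16 * DB / g0 ^ 2) := by
    calc ∑ x, u x * ((f x) ^ 2 * Real.exp (g0 * |f x|))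
        ≤ ∑ x, u x * (4 * DB / g0 ^ 2 * 8) := by
          apply Finset.sum_le_sum
          intro x _
          apply mul_le_mul_of_nonneg_left _ (hu.1 x)
          apply mul_le_mul (hf x) _ (Real.exp_pos _).le (by positivity)
          exact le_trans (Real.exp_le_exp.2 (hb x)) he
      _ = 4 * DB / g0 ^ 2 * 8 := by rw [← Finset.sum_mul, hu.2, one_mul]
      _ = 2 * (16 * DB / g0 ^ 2) := by ring
  have h := dv_half u q f hu hq hac hc g0 (16 * DB / g0 ^ 2) g0 hg0 le_rfl hV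
  have e : 16 * DB / g0 ^ 2 * g0 = 16 * DB / g0 := by field_simp
  rw [e] at h
  exact h

end Vale.Agent.P162.SB
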