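import Vale.Agent.P162.SB.Abs0
import Vale.Agent.P162.SB.Abs1
import Vale.Agent.P162.KL.DvKl
import Vale.Agent.P162.KL.Mono

namespace Vale.Agent.P162.SB

open Finset Real Vale.Agent.P162 Vale.Agent.P162.KL

/-- ABSTRACT BLOCK THEOREM (board 331 (SB), form of board 365). Proof: `sb_step0`; put
`aa a = ∑ b, KL.pm p β b * kap a b`, `DB = Dv p unif β ≤ D = kl p unif` (`Dv_le_kl`).
If `1 ≤ DB`: `aa a ≤ 2 DB / g0` for all `a` (`dv_centred_large`).
If `DB ≤ 1`: `aa a ^ 2 ≤ 4 DB / g0^2` (`dv_centred_small`), `∑ a, unif a * aa a = 0` by `H5`, so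
`∑ p aa ≤ D / g0 + 16 DB / g0` (`dv_bounded`). -/
theorem sb_abs {A B C : Type*} [Fintype A] [Fintype B] [DecidableEq B] [Fintype C]
    (β : A → B) (K : A → C → ℝ) (hK : IsChan K) (sh : B → C → Prop) [∀ b c, Decidable (sh b c)]
    (be g0 : ℝ) (hbe : 0 < be) (hg0 : 0 < g0)
    (H1 : ∀ a c, K a c ≠ 0 → sh (β a) c)
    (H2 : ∀ b c, joint β K (unif A) (b, c) ≤ KL.pm (unif A) β b * push K (unif A) c / be)
    (H4 : ∀ a, ∑ b, KL.pm (unif A) β b * kap K sh be a b = 0)
    (H5 : ∀ b, KL.pm (unif A) β b ≠ 0 → ∑ a, kap K sh be a b = 0)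
    (H6 : ∀ a, ∑ b, KL.pm (unif A) β b *
      ((kap K sh be a b) ^ 2 * Real.exp (g0 * |kap K sh be a b|)) ≤ 2 / g0 ^ 2) :
    SB β K (17 / g0) := by
  intro p hp
  have hA : Nonempty A := by
    by_contra h
    rw [not_nonempty_iff] at h
    have := hp.2
    simp at this
  have hpair : Pair p (unif A) := pair_unif p hp
  have hunif : IsLaw (unif A) := isLaw_unif A
  have h0 := sb_step0 β K hK sh be hbe H1 H2 p hp
  set qB : B → ℝ := KL.pm p β with hqB
  set uB : B → ℝ := KL.pm (unif A) β with huB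
  set aa : A → ℝ := fun a => ∑ b, qB b * kap K sh be a b with haa
  set D : ℝ := kl p (unif A) with hD
  set DB : ℝ := Dv p (unif A) β with hDB
  have hDBkl : kl qB uB = DB := rfl
  have hDB0 : 0 ≤ DB := Dv_nonneg hpair β
  have hDBD : DB ≤ D := Dv_le_kl hpair β
  have hu : IsLaw uB := ⟨pm_nonneg _ hunif.1 β, by rw [huB, pm_sum]; exact hunif.2⟩
  have hq : IsLaw qB := ⟨pm_nonneg _ hp.1 β, by rw [hqB, pm_sum]; exact hp.2⟩
  have hac : ∀ b, uB b = 0 → qB b = 0 := pm_ac p (unif A) hpair.nnP hpair.nnU hpair.ac β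
  have key : ∑ a, p a * aa a ≤ 17 / g0 * D := by
    rcases le_total 1 DB with h1 | h1
    · have hl : ∀ a, aa a ≤ 2 * DB / g0 := by
        intro a
        have := dv_centred_large uB qB (fun b => kap K sh be a b) hu hq hac (H4 a) g0 hg0 (H6 a)
          (by rw [hDBkl]; exact h1)
        rw [hDBkl] at this
        exact this
      calc ∑ a, p a * aa a ≤ ∑ a, p a * (2 * DB / g0) :=
            Finset.sum_le_sum (fun a _ => mul_le_mul_of_nonneg_left (hl a) (hp.1 a))
        _ = 2 * DB / g0 := by rw [← Finset.sum_mul, hp.2, one_mul]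
        _ ≤ 17 / g0 * D := by
            rw [div_mul_eq_mul_div]
            apply div_le_div_of_nonneg_right _ hg0.le
            linarith
    · have hs : ∀ a, (aa a) ^ 2 ≤ 4 * DB / g0 ^ 2 := by
        intro a
        have := dv_centred_small uB qB (fun b => kap K sh be a b) hu hq hac (H4 a) g0 hg0 (H6 a)
          (by rw [hDBkl]; exact h1)
        rw [hDBkl] at this
        exact this
      have hc : ∑ a, unif A a * aa a = 0 := by
        simp only [haa, Finset.mul_sum]
        rw [Finset.sum_comm]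
        apply Finset.sum_eq_zero
        intro b _
        by_cases hb : uB b = 0
        · apply Finset.sum_eq_zero
          intro a _
          rw [hac b hb]; ring
        · have h5 := H5 b hb
          have : ∀ a, unif A a * (qB b * kap K sh be a b)
              = (1 / (Fintype.card A : ℝ) * qB b) * kap K sh be a b := by
            intro a; unfold unif; ring
          simp only [this]
          rw [← Finset.mul_sum, h5, mul_zero]
      have hb := dv_bounded (unif A) p aa hunif hp hpair.ac hc g0 DB hg0 hDB0 h1 hs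
      calc ∑ a, p a * aa a ≤ kl p (unif A) / g0 + 16 * DB / g0 := hb
        _ ≤ 17 / g0 * D := by
            rw [div_mul_eq_mul_div, ← add_div]
            apply div_le_div_of_nonneg_right _ hg0.le
            linarith
  linarith

end Vale.Agent.P162.SB
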