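import Mathlib

/-!
# P162, route SB : the abstract bilinear bound (Donsker-Varadhan twice)

`dv` : the variational inequality for the relative entropy of a density on a finite probability space.
`bilin` : a kernel `kap` which is centred in its first variable and has Gaussian exponential moments in its
second variable satisfies `E[f(x) g(y) kap(x,y)] ≤ th * (Ent f + Ent g)` for all densities `f`, `g`.
-/

namespace Vale.Agent.P162.SB

open Finset Real

theorem young (g t : ℝ) (hg : 0 ≤ g) : g * t ≤ g * Real.log g - g + Real.exp t := by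
  rcases hg.eq_or_lt with h | h
  · subst h
    simp only [zero_mul, sub_zero, zero_add]
    exact (Real.exp_pos t).le
  · have h1 := Real.add_one_le_exp (t - Real.log g)
    have h2 : Real.exp (t - Real.log g) = Real.exp t / g := by rw [Real.exp_sub, Real.exp_log h]
    rw [h2] at h1
    have h3 : g * (t - Real.log g + 1) ≤ g * (Real.exp t / g) := mul_le_mul_of_nonneg_left h1 h.le
    have h4 : g * (Real.exp t / g) = Real.exp t := by field_simp
    rw [h4] at h3
    linarith

theorem sum_exp_pos {Y : Type*} [Fintype Y] (v φ : Y → ℝ) (hv : ∀ y, 0 ≤ v y)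
    (hv1 : ∑ y, v y = 1) : 0 < ∑ y, v y * Real.exp (φ y) := by
  by_contra hneg
  push Not at hneg
  have hnn : ∀ y ∈ (Finset.univ : Finset Y), 0 ≤ v y * Real.exp (φ y) :=
    fun y _ => mul_nonneg (hv y) (Real.exp_pos _).le
  have hz : ∑ y, v y * Real.exp (φ y) = 0 := le_antisymm hneg (Finset.sum_nonneg hnn)
  have h0 := (Finset.sum_eq_zero_iff_of_nonneg hnn).1 hz
  have hv0 : ∀ y, v y = 0 := fun y => by
    rcases mul_eq_zero.1 (h0 y (Finset.mem_univ y)) with h | h
    · exact h
    · exact absurd h (Real.exp_pos _).ne'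
  simp [hv0] at hv1

/-- Donsker-Varadhan -/
theorem dv {Y : Type*} [Fintype Y] (v g φ : Y → ℝ) (hv : ∀ y, 0 ≤ v y) (hv1 : ∑ y, v y = 1)
    (hg : ∀ y, 0 ≤ g y) (hg1 : ∑ y, v y * g y = 1) :
    ∑ y, v y * g y * φ y ≤
      ∑ y, v y * (g y * Real.log (g y)) + Real.log (∑ y, v y * Real.exp (φ y)) := by
  have hZpos := sum_exp_pos v φ hv hv1
  set Z := ∑ y, v y * Real.exp (φ y) with hZ
  have hy : ∀ y, v y * (g y * (φ y - Real.log Z)) ≤
      v y * (g y * Real.log (g y) - g y + Real.exp (φ y - Real.log Z)) :=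
    fun y => mul_le_mul_of_nonneg_left (young _ _ (hg y)) (hv y)
  have hs := Finset.sum_le_sum (fun y (_ : y ∈ (Finset.univ : Finset Y)) => hy y)
  have e1 : ∑ y, v y * (g y * (φ y - Real.log Z)) = ∑ y, v y * g y * φ y - Real.log Z := by
    have : ∀ y, v y * (g y * (φ y - Real.log Z)) = v y * g y * φ y - Real.log Z * (v y * g y) :=
      fun y => by ring
    rw [Finset.sum_congr rfl (fun y _ => this y), Finset.sum_sub_distrib, ← Finset.mul_sum, hg1,
      mul_one]
  have e2 : ∑ y, v y * (g y * Real.log (g y) - g y + Real.exp (φ y - Real.log Z)) =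
      ∑ y, v y * (g y * Real.log (g y)) - 1 + 1 := by
    have : ∀ y, v y * (g y * Real.log (g y) - g y + Real.exp (φ y - Real.log Z)) =
        v y * (g y * Real.log (g y)) - v y * g y + (v y * Real.exp (φ y)) / Z := fun y => by
      rw [Real.exp_sub, Real.exp_log hZpos]
      ring
    rw [Finset.sum_congr rfl (fun y _ => this y), Finset.sum_add_distrib, Finset.sum_sub_distrib,
      hg1, ← Finset.sum_div, ← hZ, div_self hZpos.ne']
  rw [e1, e2] at hs
  linarith

theorem ent_nonneg {Y : Type*} [Fintype Y] (v g : Y → ℝ) (hv : ∀ y, 0 ≤ v y) (hv1 : ∑ y, v y = 1)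
    (hg : ∀ y, 0 ≤ g y) (hg1 : ∑ y, v y * g y = 1) : 0 ≤ ∑ y, v y * (g y * Real.log (g y)) := by
  have h := dv v g (fun _ => 0) hv hv1 hg hg1
  simp only [mul_zero, Finset.sum_const_zero, Real.exp_zero, mul_one, hv1, Real.log_one,
    add_zero] at h
  exact h

/-- the bilinear bound -/
theorem bilin {X Y : Type*} [Fintype X] [Fintype Y] (u : X → ℝ) (v : Y → ℝ)
    (hu : ∀ x, 0 ≤ u x) (hu1 : ∑ x, u x = 1) (hv : ∀ y, 0 ≤ v y) (hv1 : ∑ y, v y = 1)
    (f : X → ℝ) (g : Y → ℝ) (hf : ∀ x, 0 ≤ f x) (hf1 : ∑ x, u x * f x = 1)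
    (hg : ∀ y, 0 ≤ g y) (hg1 : ∑ y, v y * g y = 1) (kap : X → Y → ℝ)
    (hc : ∀ y, ∑ x, u x * kap x y = 0) (V g0 : ℝ) (hV : 0 < V) (hg0 : 0 < g0)
    (hVg : V * g0 ^ 2 ≤ 1)
    (hexp : ∀ x gam, |gam| ≤ g0 → ∑ y, v y * Real.exp (gam * kap x y) ≤ Real.exp (V * gam ^ 2)) :
    ∑ x, ∑ y, u x * f x * (v y * g y) * kap x y ≤
      max (2 / g0) (2 * Real.sqrt V) *
        (∑ x, u x * (f x * Real.log (f x)) + ∑ y, v y * (g y * Real.log (g y))) := by
  set Df := ∑ x, u x * (f x * Real.log (f x)) with hDf
  set Dg := ∑ y, v y * (g y * Real.log (g y)) with hDg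
  have hDf0 : 0 ≤ Df := ent_nonneg u f hu hu1 hf hf1
  have hDg0 : 0 ≤ Dg := ent_nonneg v g hv hv1 hg hg1
  set a : X → ℝ := fun x => ∑ y, v y * g y * kap x y with ha
  have hLHS : ∑ x, ∑ y, u x * f x * (v y * g y) * kap x y = ∑ x, u x * f x * a x := by
    apply Finset.sum_congr rfl
    intro x _
    rw [ha]
    simp only []
    rw [Finset.mul_sum]
    apply Finset.sum_congr rfl
    intro y _
    ring
  rw [hLHS]
  -- step 1
  have step1 : ∀ x gam, 0 < gam → gam ≤ g0 → |a x| ≤ Dg / gam + V * gam := by
    intro x gam hgam hle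
    have key : ∀ s : ℝ, |s| = gam → s * a x ≤ Dg + V * gam ^ 2 := by
      intro s hs
      have h1 := dv v g (fun y => s * kap x y) hv hv1 hg hg1
      have h2 := hexp x s (by rw [hs]; exact hle)
      have h3 : Real.log (∑ y, v y * Real.exp (s * kap x y)) ≤ V * s ^ 2 := by
        have := Real.log_le_log (sum_exp_pos v (fun y => s * kap x y) hv hv1) h2
        rwa [Real.log_exp] at this
      have h4 : s ^ 2 = gam ^ 2 := by rw [← hs, sq_abs]
      have h5 : ∑ y, v y * g y * (s * kap x y) = s * a x := by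
        rw [ha]
        simp only []
        rw [Finset.mul_sum]
        apply Finset.sum_congr rfl
        intro y _
        ring
      rw [h5] at h1
      rw [h4] at h3
      linarith
    have k1 := key gam (abs_of_pos hgam)
    have k2 := key (-gam) (by rw [abs_neg, abs_of_pos hgam])
    have e : Dg / gam + V * gam = (Dg + V * gam ^ 2) / gam := by
      field_simp
    rw [e, le_div_iff₀ hgam]
    rcases abs_cases (a x) with ⟨h, _⟩ | ⟨h, _⟩
    · rw [h]
      linarith
    · rw [h]
      linarith
  have hmax1 : 2 / g0 ≤ max (2 / g0) (2 * Real.sqrt V) := le_max_left _ _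
  have hmax2 : 2 * Real.sqrt V ≤ max (2 / g0) (2 * Real.sqrt V) := le_max_right _ _
  set th := max (2 / g0) (2 * Real.sqrt V) with hth
  have hsV : 0 < Real.sqrt V := Real.sqrt_pos.mpr hV
  have hsV2 : Real.sqrt V ^ 2 = V := Real.sq_sqrt hV.le
  have hbound : ∀ A : ℝ, (∀ x, |a x| ≤ A) → ∑ x, u x * f x * a x ≤ A := by
    intro A hA
    calc ∑ x, u x * f x * a x ≤ ∑ x, u x * f x * A := by
          apply Finset.sum_le_sum
          intro x _
          exact mul_le_mul_of_nonneg_left (le_trans (le_abs_self _) (hA x))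
            (mul_nonneg (hu x) (hf x))
      _ = A := by rw [← Finset.sum_mul, hf1, one_mul]
  by_cases hcase : V * g0 ^ 2 ≤ Dg
  · -- large divergence of `g`
    have hA : ∀ x, |a x| ≤ 2 / g0 * Dg := by
      intro x
      have h1 := step1 x g0 hg0 le_rfl
      have h2 : V * g0 ≤ Dg / g0 := by
        rw [le_div_iff₀ hg0]
        nlinarith
      have h3 : 2 / g0 * Dg = Dg / g0 + Dg / g0 := by ring
      rw [h3]
      linarith
    have h1 := hbound _ hA
    have h2 : 2 / g0 * Dg ≤ th * Dg := mul_le_mul_of_nonneg_right hmax1 hDg0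
    have h3 : 0 ≤ th * Df := mul_nonneg (le_trans (by positivity) hmax1) hDf0
    nlinarith
  · push Not at hcase
    set A := 2 * Real.sqrt (V * Dg) with hAdef
    have hA0 : 0 ≤ A := by positivity
    have hA2 : A ^ 2 = 4 * (V * Dg) := by
      rw [hAdef, mul_pow, Real.sq_sqrt (mul_nonneg hV.le hDg0)]
      norm_num
    have hA : ∀ x, |a x| ≤ A := by
      intro x
      rcases hDg0.eq_or_lt with h0 | hpos
      · -- `Dg = 0`
        have hz : A = 0 := by rw [hAdef, ← h0]; simp
        rw [hz]
        by_contra hne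
        push Not at hne
        set gam := min g0 (|a x| / (2 * V)) with hgam
        have hgpos : 0 < gam := lt_min hg0 (by positivity)
        have h1 := step1 x gam hgpos (min_le_left _ _)
        rw [← h0, zero_div, zero_add] at h1
        have h2 : V * gam ≤ V * (|a x| / (2 * V)) :=
          mul_le_mul_of_nonneg_left (min_le_right _ _) hV.le
        have h3 : V * (|a x| / (2 * V)) = |a x| / 2 := by field_simp
        rw [h3] at h2
        linarith
      · set gam := Real.sqrt (Dg / V) with hgam
        have hq : 0 < Dg / V := div_pos hpos hV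
        have hgpos : 0 < gam := Real.sqrt_pos.mpr hq
        have hg2 : gam ^ 2 = Dg / V := Real.sq_sqrt hq.le
        have hle : gam ≤ g0 := by
          rw [hgam]
          apply Real.sqrt_le_iff.mpr
          refine ⟨hg0.le, ?_⟩
          rw [div_le_iff₀ hV]
          nlinarith
        have h1 := step1 x gam hgpos hle
        have h2 : (V * gam) ^ 2 = V * Dg := by
          rw [mul_pow, hg2]
          field_simp
        have h3 : V * gam = Real.sqrt (V * Dg) := by
          rw [← h2, Real.sqrt_sq (by positivity)]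
        have h4 : Dg / gam = V * gam := by
          rw [div_eq_iff hgpos.ne']
          have : V * gam * gam = V * gam ^ 2 := by ring
          rw [this, hg2]
          field_simp
        rw [h4, h3] at h1
        rw [hAdef]
        linarith
    -- `A ≤ 2 sqrt V`
    have hAle : A ≤ 2 * Real.sqrt V := by
      rw [hAdef]
      have : Real.sqrt (V * Dg) ≤ Real.sqrt V := by
        apply Real.sqrt_le_sqrt
        have : Dg ≤ 1 := le_trans hcase.le hVg
        nlinarith
      linarith
    -- centred
    have hcen : ∑ x, u x * a x = 0 := by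
      rw [ha]
      simp only []
      have : ∀ x, u x * ∑ y, v y * g y * kap x y = ∑ y, v y * g y * (u x * kap x y) := by
        intro x
        rw [Finset.mul_sum]
        apply Finset.sum_congr rfl
        intro y _
        ring
      rw [Finset.sum_congr rfl (fun x _ => this x), Finset.sum_comm]
      apply Finset.sum_eq_zero
      intro y _
      rw [← Finset.mul_sum, hc y, mul_zero]
    set g1 := 1 / (2 * Real.sqrt V) with hg1def
    have hg1pos : 0 < g1 := by positivity
    have h1 := dv u f (fun x => g1 * a x) hu hu1 hf hf1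
    have hsmall : ∀ x, |g1 * a x| ≤ 1 := by
      intro x
      rw [abs_mul, abs_of_pos hg1pos]
      have : g1 * |a x| ≤ g1 * (2 * Real.sqrt V) :=
        mul_le_mul_of_nonneg_left (le_trans (hA x) hAle) hg1pos.le
      have e : g1 * (2 * Real.sqrt V) = 1 := by
        rw [hg1def]
        field_simp
      linarith
    have hexp2 : ∑ x, u x * Real.exp (g1 * a x) ≤ 1 + g1 ^ 2 * A ^ 2 := by
      have hx : ∀ x, u x * Real.exp (g1 * a x) ≤ u x * (1 + g1 * a x + g1 ^ 2 * A ^ 2) := by
        intro x
        apply mul_le_mul_of_nonneg_left _ (hu x)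
        have h2 := Real.abs_exp_sub_one_sub_id_le (hsmall x)
        have h3 := (abs_le.mp h2).2
        have h4 : (g1 * a x) ^ 2 ≤ g1 ^ 2 * A ^ 2 := by
          rw [mul_pow]
          apply mul_le_mul_of_nonneg_left _ (by positivity)
          rw [← sq_abs (a x)]
          exact pow_le_pow_left₀ (abs_nonneg _) (hA x) 2
        linarith
      calc ∑ x, u x * Real.exp (g1 * a x) ≤ ∑ x, u x * (1 + g1 * a x + g1 ^ 2 * A ^ 2) :=
            Finset.sum_le_sum (fun x _ => hx x)
        _ = 1 + g1 ^ 2 * A ^ 2 := by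
            have : ∀ x, u x * (1 + g1 * a x + g1 ^ 2 * A ^ 2) =
                u x * (1 + g1 ^ 2 * A ^ 2) + g1 * (u x * a x) := fun x => by ring
            rw [Finset.sum_congr rfl (fun x _ => this x), Finset.sum_add_distrib,
              ← Finset.sum_mul, hu1, ← Finset.mul_sum, hcen]
            ring
    have hlog : Real.log (∑ x, u x * Real.exp (g1 * a x)) ≤ g1 ^ 2 * A ^ 2 := by
      have hp := sum_exp_pos u (fun x => g1 * a x) hu hu1
      have h2 := Real.log_le_sub_one_of_pos hp
      linarith
    have h5 : ∑ x, u x * f x * (g1 * a x) = g1 * ∑ x, u x * f x * a x := by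
      rw [Finset.mul_sum]
      apply Finset.sum_congr rfl
      intro x _
      ring
    rw [h5] at h1
    have h6 : g1 * ∑ x, u x * f x * a x ≤ Df + g1 ^ 2 * A ^ 2 := by linarith
    have h7 : ∑ x, u x * f x * a x ≤ 2 * Real.sqrt V * (Df + Dg) := by
      have e1 : g1 ^ 2 * A ^ 2 = Dg := by
        rw [hA2, hg1def, div_pow, mul_pow, hsV2]
        field_simp
        ring
      rw [e1] at h6
      have e2 : ∑ x, u x * f x * a x = 2 * Real.sqrt V * (g1 * ∑ x, u x * f x * a x) := by
        rw [hg1def]
        field_simp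
      rw [e2]
      exact mul_le_mul_of_nonneg_left h6 (by positivity)
    exact le_trans h7 (mul_le_mul_of_nonneg_right hmax2 (add_nonneg hDf0 hDg0))

end Vale.Agent.P162.SB
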