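import Mathlib

/-!
# P162, route SB : Chernoff-Hoeffding tail of the symmetric binomial law, as a finite sum
-/

namespace Vale.Agent.P162.SB

open Finset Real

/-- moment generating function of the centred symmetric binomial weights -/
theorem sum_choose_exp (n : ℕ) (u : ℝ) :
    ∑ k ∈ range (n + 1), (n.choose k : ℝ) * exp (u * ((k : ℝ) - n / 2)) =
      (2 * cosh (u / 2)) ^ n := by
  have h : 2 * cosh (u / 2) = exp (u / 2) + exp (-(u / 2)) := by
    rw [cosh_eq]; ring
  rw [h, add_pow]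
  apply Finset.sum_congr rfl
  intro k hk
  have hk' : k ≤ n := Nat.lt_succ_iff.mp (Finset.mem_range.mp hk)
  rw [← exp_nat_mul, ← exp_nat_mul, ← exp_add, mul_comm]
  congr 2
  rw [Nat.cast_sub hk']
  ring

/-- the same, bounded by the Gaussian one -/
theorem sum_choose_exp_le (n : ℕ) (u : ℝ) :
    ∑ k ∈ range (n + 1), (n.choose k : ℝ) * exp (u * ((k : ℝ) - n / 2)) ≤
      2 ^ n * exp (n * u ^ 2 / 8) := by
  rw [sum_choose_exp, mul_pow]
  apply mul_le_mul_of_nonneg_left _ (by positivity)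
  calc cosh (u / 2) ^ n ≤ (exp ((u / 2) ^ 2 / 2)) ^ n :=
        pow_le_pow_left₀ (le_trans zero_le_one (one_le_cosh _)) (cosh_le_exp_half_sq _) n
    _ = exp (n * u ^ 2 / 8) := by
        rw [← exp_nat_mul]; congr 1; ring

/-- two-sided Hoeffding bound: `#{k : |k - n/2| > s}` weighted by `C(n,k)` -/
theorem binom_tail (n : ℕ) (hn : 0 < n) (s : ℝ) (hs : 0 ≤ s) :
    ∑ k ∈ (range (n + 1)).filter (fun k : ℕ => s < |(k : ℝ) - n / 2|), (n.choose k : ℝ) ≤
      2 ^ n * (2 * exp (-(2 * s ^ 2 / n))) := by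
  have hn' : (0 : ℝ) < n := by exact_mod_cast hn
  set u : ℝ := 4 * s / n with hu
  have hu0 : 0 ≤ u := by positivity
  have key : ∀ k ∈ (range (n + 1)).filter (fun k : ℕ => s < |(k : ℝ) - n / 2|),
      (n.choose k : ℝ) ≤ exp (-(u * s)) * ((n.choose k : ℝ) * exp (u * ((k : ℝ) - n / 2)) +
        (n.choose k : ℝ) * exp (-u * ((k : ℝ) - n / 2))) := by
    intro k hk
    have hk2 := (Finset.mem_filter.mp hk).2
    have hc : (0 : ℝ) ≤ n.choose k := Nat.cast_nonneg _
    have h1 : 1 ≤ exp (-(u * s)) * (exp (u * ((k : ℝ) - n / 2)) +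
        exp (-u * ((k : ℝ) - n / 2))) := by
      rw [mul_add, ← exp_add, ← exp_add]
      rcases le_total 0 ((k : ℝ) - n / 2) with h0 | h0
      · rw [abs_of_nonneg h0] at hk2
        have : 1 ≤ exp (-(u * s) + u * ((k : ℝ) - n / 2)) := by
          apply one_le_exp
          nlinarith
        have h2 := exp_pos (-(u * s) + -u * ((k : ℝ) - n / 2))
        linarith
      · rw [abs_of_nonpos h0] at hk2
        have : 1 ≤ exp (-(u * s) + -u * ((k : ℝ) - n / 2)) := by
          apply one_le_exp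
          nlinarith
        have h2 := exp_pos (-(u * s) + u * ((k : ℝ) - n / 2))
        linarith
    calc (n.choose k : ℝ) = (n.choose k : ℝ) * 1 := (mul_one _).symm
      _ ≤ (n.choose k : ℝ) * (exp (-(u * s)) * (exp (u * ((k : ℝ) - n / 2)) +
          exp (-u * ((k : ℝ) - n / 2)))) := mul_le_mul_of_nonneg_left h1 hc
      _ = _ := by ring
  calc ∑ k ∈ (range (n + 1)).filter (fun k : ℕ => s < |(k : ℝ) - n / 2|), (n.choose k : ℝ)
      ≤ ∑ k ∈ (range (n + 1)).filter (fun k : ℕ => s < |(k : ℝ) - n / 2|),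
          exp (-(u * s)) * ((n.choose k : ℝ) * exp (u * ((k : ℝ) - n / 2)) +
            (n.choose k : ℝ) * exp (-u * ((k : ℝ) - n / 2))) := Finset.sum_le_sum key
    _ ≤ ∑ k ∈ range (n + 1),
          exp (-(u * s)) * ((n.choose k : ℝ) * exp (u * ((k : ℝ) - n / 2)) +
            (n.choose k : ℝ) * exp (-u * ((k : ℝ) - n / 2))) := by
        apply Finset.sum_le_sum_of_subset_of_nonneg (Finset.filter_subset _ _)
        intro k _ _
        positivity
    _ = exp (-(u * s)) * (∑ k ∈ range (n + 1), (n.choose k : ℝ) * exp (u * ((k : ℝ) - n / 2)) +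
          ∑ k ∈ range (n + 1), (n.choose k : ℝ) * exp (-u * ((k : ℝ) - n / 2))) := by
        rw [← Finset.mul_sum, Finset.sum_add_distrib]
    _ ≤ exp (-(u * s)) * (2 ^ n * exp (n * u ^ 2 / 8) + 2 ^ n * exp (n * (-u) ^ 2 / 8)) := by
        apply mul_le_mul_of_nonneg_left _ (exp_pos _).le
        exact add_le_add (sum_choose_exp_le n u) (sum_choose_exp_le n (-u))
    _ = 2 ^ n * (2 * (exp (-(u * s)) * exp (n * u ^ 2 / 8))) := by
        rw [neg_sq]; ring
    _ = 2 ^ n * (2 * exp (-(2 * s ^ 2 / n))) := by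
        rw [← exp_add]
        congr 3
        rw [hu]
        field_simp
        ring

end Vale.Agent.P162.SB
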