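import Vale.Agent.P162.SB.Count

namespace Vale.Agent.P162.SB

open Finset Real Vale.Agent.P162 Vale.Agent.P162.KL

/-- the total mass of the uniform law on the permutations -/
theorem sum_unif_perm (M : ℕ) :
    ∑ h : Equiv.Perm (Fin (2 * M)), unif (Equiv.Perm (Fin (2 * M))) h = 1 := by
  unfold unif
  rw [Finset.sum_const, Finset.card_univ, nsmul_eq_mul]
  have : (Fintype.card (Equiv.Perm (Fin (2 * M))) : ℝ) ≠ 0 := by
    exact_mod_cast Fintype.card_ne_zero
  field_simp

theorem choose_two_pos (M : ℕ) : (0 : ℝ) < ((2 * M).choose M : ℝ) := by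
  exact_mod_cast Nat.choose_pos (by omega)

/-- the number of balanced columns in shell position, as a sum of indicators -/
theorem sum_bal_shell (M : ℕ) (hM : Even M) (c : Fin (2 * M) → Bool) (hc : Bal M c) :
    ∑ b : Fin (2 * M) → Bool, (if Bal M b then (if shell M b c then (1 : ℝ) else 0) else 0) =
      ((M.choose (M / 2) : ℝ)) ^ 2 := by
  have h := card_shell M hM c hc
  have h2 : ∑ b : Fin (2 * M) → Bool, (if Bal M b then (if shell M b c then (1 : ℝ) else 0) else 0)
      = ∑ b : Fin (2 * M) → Bool, (if Bal M b ∧ shell M b c then (1 : ℝ) else 0) := by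
    apply Finset.sum_congr rfl
    intro b _
    by_cases h1 : Bal M b <;> by_cases h2 : shell M b c <;> simp [h1, h2]
  rw [h2, Finset.sum_boole, h]
  push_cast
  ring

/-- (H4) centring in the column (from `pm_unif_lowCol`, `card_shell`, `bal_of_bitChan`,
`isChan_bitChan`) -/
theorem kap_centre_col (M : ℕ) (hM : Even M) (h : Equiv.Perm (Fin (2 * M))) :
    ∑ b, KL.pm (unif (Equiv.Perm (Fin (2 * M)))) (lowCol M) b *
      kap (bitChan M) (shell M) (beC M) h b = 0 := by
  have hbe := beC_pos M
  have hC := choose_two_pos M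
  have hsum1 : ∑ b, KL.pm (unif (Equiv.Perm (Fin (2 * M)))) (lowCol M) b = 1 := by
    rw [KL.pm_sum, sum_unif_perm]
  have hmain : ∑ b, KL.pm (unif (Equiv.Perm (Fin (2 * M)))) (lowCol M) b *
      (∑ c, if shell M b c then bitChan M h c else 0) = beC M := by
    have e1 : ∀ b : Fin (2 * M) → Bool,
        KL.pm (unif (Equiv.Perm (Fin (2 * M)))) (lowCol M) b *
          (∑ c, if shell M b c then bitChan M h c else 0) =
        ∑ c, bitChan M h c * (1 / ((2 * M).choose M : ℝ)) *
          (if Bal M b then (if shell M b c then (1 : ℝ) else 0) else 0) := by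
      intro b
      rw [pm_unif_lowCol, Finset.mul_sum]
      apply Finset.sum_congr rfl
      intro c _
      by_cases h1 : Bal M b <;> by_cases h2 : shell M b c <;> simp [h1, h2]
      ring
    rw [Finset.sum_congr rfl (fun b _ => e1 b), Finset.sum_comm]
    have e2 : ∀ c : Fin (2 * M) → Bool,
        ∑ b : Fin (2 * M) → Bool, bitChan M h c * (1 / ((2 * M).choose M : ℝ)) *
          (if Bal M b then (if shell M b c then (1 : ℝ) else 0) else 0) =
        bitChan M h c * beC M := by
      intro c
      rw [← Finset.mul_sum]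
      by_cases hc : bitChan M h c = 0
      · rw [hc]; ring
      · rw [sum_bal_shell M hM c (bal_of_bitChan M h c hc)]
        unfold beC
        ring
    rw [Finset.sum_congr rfl (fun c _ => e2 c), ← Finset.sum_mul, (isChan_bitChan M h).2, one_mul]
  unfold kap
  have e3 : ∀ b : Fin (2 * M) → Bool,
      KL.pm (unif (Equiv.Perm (Fin (2 * M)))) (lowCol M) b *
        ((∑ c, if shell M b c then bitChan M h c else 0) / beC M - 1) =
      (KL.pm (unif (Equiv.Perm (Fin (2 * M)))) (lowCol M) b *
        (∑ c, if shell M b c then bitChan M h c else 0)) / beC M -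
        KL.pm (unif (Equiv.Perm (Fin (2 * M)))) (lowCol M) b := by
    intro b; ring
  rw [Finset.sum_congr rfl (fun b _ => e3 b), Finset.sum_sub_distrib, ← Finset.sum_div, hmain,
    hsum1, div_self hbe.ne', sub_self]

/-- (H5) centring in the permutation (from `push_unif_bitChan`, `card_shell`, `shell_comm`) -/
theorem kap_centre_perm (M : ℕ) (hM : Even M) (b : Fin (2 * M) → Bool)
    (hb : KL.pm (unif (Equiv.Perm (Fin (2 * M)))) (lowCol M) b ≠ 0) :
    ∑ h, kap (bitChan M) (shell M) (beC M) h b = 0 := by
  have hbe := beC_pos M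
  have hC := choose_two_pos M
  have hbal : Bal M b := by
    by_contra hn
    apply hb
    rw [pm_unif_lowCol, if_neg hn]
  obtain ⟨N, hN⟩ : ∃ N : ℝ, N = (Fintype.card (Equiv.Perm (Fin (2 * M))) : ℝ) := ⟨_, rfl⟩
  have hN0 : N ≠ 0 := by
    rw [hN]; exact_mod_cast Fintype.card_ne_zero
  have hcol : ∀ c : Fin (2 * M) → Bool,
      ∑ h, bitChan M h c = N * (if Bal M c then 1 / ((2 * M).choose M : ℝ) else 0) := by
    intro c
    rw [← push_unif_bitChan M c]
    unfold push unif
    rw [← hN, Finset.mul_sum]
    apply Finset.sum_congr rfl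
    intro h _
    field_simp
  have hmain : ∑ h, (∑ c, if shell M b c then bitChan M h c else 0) = N * beC M := by
    rw [Finset.sum_comm]
    have e1 : ∀ c : Fin (2 * M) → Bool,
        ∑ h, (if shell M b c then bitChan M h c else 0) =
          N * (1 / ((2 * M).choose M : ℝ)) *
            (if Bal M c then (if shell M c b then (1 : ℝ) else 0) else 0) := by
      intro c
      by_cases h2 : shell M b c
      · have h3 : shell M c b := (shell_comm M b c).1 h2
        simp only [h2, h3, if_true]
        rw [hcol c]
        by_cases h1 : Bal M c <;> simp [h1]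
      · have h3 : ¬ shell M c b := fun h => h2 ((shell_comm M b c).2 h)
        simp [h2, h3]
    rw [Finset.sum_congr rfl (fun c _ => e1 c), ← Finset.mul_sum, sum_bal_shell M hM b hbal]
    unfold beC
    ring
  unfold kap
  rw [Finset.sum_sub_distrib, ← Finset.sum_div, hmain, Finset.sum_const, Finset.card_univ,
    nsmul_eq_mul, ← hN]
  field_simp
  ring

/-- counting along a relabelling of the cards -/
theorem card_filter_relabel (M : ℕ) (h : Equiv.Perm (Fin (2 * M))) (P : Fin (2 * M) → Prop)
    [DecidablePred P] :
    (Finset.univ.filter (fun x => P (h.symm x))).card = (Finset.univ.filter (fun x => P x)).card := by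
  apply Finset.card_bij (fun x _ => h.symm x)
  · intro x hx
    simpa using hx
  · intro x _ y _ hxy
    exact h.symm.injective hxy
  · intro y hy
    exact ⟨h y, by simpa using hy, by simp⟩

theorem shell_relabel (M : ℕ) (h : Equiv.Perm (Fin (2 * M))) (b c : Fin (2 * M) → Bool) :
    shell M (b ∘ h.symm) (c ∘ h.symm) ↔ shell M b c := by
  unfold shell
  have := card_filter_relabel M h (fun x => b x = true ∧ c x = true)
  simp only [Function.comp_apply]
  rw [this]

theorem newBit_comp (M : ℕ) (h : Equiv.Perm (Fin (2 * M))) (β : Fin M → Bool) :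
    newBit M h β = newBit M 1 β ∘ h := rfl

theorem bitChan_relabel (M : ℕ) (h : Equiv.Perm (Fin (2 * M))) (c : Fin (2 * M) → Bool) :
    bitChan M h c = bitChan M 1 (c ∘ h.symm) := by
  unfold bitChan
  congr 3
  apply Finset.filter_congr
  intro β _
  rw [newBit_comp M h β]
  constructor
  · intro e
    rw [← e]
    funext x
    simp only [Function.comp_apply, Equiv.apply_symm_apply]
  · intro e
    rw [e]
    funext x
    simp only [Function.comp_apply, Equiv.symm_apply_apply]

/-- relabelling of the cards reduces everything to the identity permutation -/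
theorem kap_relabel (M : ℕ) (h : Equiv.Perm (Fin (2 * M))) (b : Fin (2 * M) → Bool) :
    kap (bitChan M) (shell M) (beC M) h b =
      kap (bitChan M) (shell M) (beC M) 1 (b ∘ h.symm) := by
  unfold kap
  congr 2
  apply Fintype.sum_equiv (Equiv.arrowCongr h (Equiv.refl Bool))
  intro c
  have e : (Equiv.arrowCongr h (Equiv.refl Bool)) c = c ∘ h.symm := by
    funext x
    simp [Equiv.arrowCongr]
  rw [e, ← bitChan_relabel]
  by_cases h2 : shell M b c
  · rw [if_pos h2, if_pos ((shell_relabel M h b c).2 h2)]
  · rw [if_neg h2, if_neg (fun hh => h2 ((shell_relabel M h b c).1 hh))]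

theorem bal_relabel (M : ℕ) (h : Equiv.Perm (Fin (2 * M))) (b : Fin (2 * M) → Bool) :
    Bal M (b ∘ h.symm) ↔ Bal M b := by
  unfold Bal
  have := card_filter_relabel M h (fun x => b x = true)
  simp only [Function.comp_apply]
  rw [this]

end Vale.Agent.P162.SB
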