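import Vale.Agent.P162.SB.Count
import Vale.Agent.P162.KL.BitChan

namespace Vale.Agent.P162.SB

open Finset Real Vale.Agent.P162 Vale.Agent.P162.KL

/-- number of coin vectors with exactly `k` heads inside a given set `s` of coins -/
theorem card_coins (M k : ℕ) (s : Finset (Fin M)) :
    (Finset.univ.filter (fun e : Fin M → Bool => (s.filter (fun i => e i = true)).card = k)).card =
      s.card.choose k * 2 ^ (M - s.card) := by
  classical
  have h : (Finset.univ.filter
      (fun e : Fin M → Bool => (s.filter (fun i => e i = true)).card = k)).card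
      = ((s.powersetCard k) ×ˢ (sᶜ.powerset)).card := by
    refine Finset.card_nbij'
      (fun e => (s.filter (fun i => e i = true), sᶜ.filter (fun i => e i = true)))
      (fun t => fun i => decide (i ∈ t.1 ∨ i ∈ t.2)) ?_ ?_ ?_ ?_
    · intro e he
      simp only [Finset.coe_filter, Finset.mem_univ, true_and, Set.mem_ofPred_eq] at he
      simp only [Finset.coe_product, Set.mem_prod, Finset.mem_coe, Finset.mem_powersetCard,
        Finset.mem_powerset]
      exact ⟨⟨Finset.filter_subset _ _, he⟩, Finset.filter_subset _ _⟩
    · intro t ht
      simp only [Finset.coe_product, Set.mem_prod, Finset.mem_coe, Finset.mem_powersetCard,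
        Finset.mem_powerset] at ht
      obtain ⟨⟨h1, h2⟩, h3⟩ := ht
      simp only [Finset.coe_filter, Finset.mem_univ, true_and, Set.mem_ofPred_eq]
      rw [← h2]
      congr 1
      ext i
      simp only [Finset.mem_filter, decide_eq_true_eq]
      constructor
      · rintro ⟨hi, h4 | h4⟩
        · exact h4
        · exact absurd hi (Finset.mem_compl.1 (h3 h4))
      · intro hi
        exact ⟨h1 hi, Or.inl hi⟩
    · intro e _
      funext i
      simp only [Finset.mem_filter, Finset.mem_compl]
      by_cases hi : i ∈ s
      · cases he : e i <;> simp [hi]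
      · cases he : e i <;> simp [hi]
    · intro t ht
      simp only [Finset.coe_product, Set.mem_prod, Finset.mem_coe, Finset.mem_powersetCard,
        Finset.mem_powerset] at ht
      obtain ⟨⟨h1, _⟩, h3⟩ := ht
      apply Prod.ext
      · ext i
        simp only [Finset.mem_filter, decide_eq_true_eq]
        constructor
        · rintro ⟨hi, h4 | h4⟩
          · exact h4
          · exact absurd hi (Finset.mem_compl.1 (h3 h4))
        · intro hi
          exact ⟨h1 hi, Or.inl hi⟩
      · ext i
        simp only [Finset.mem_filter, decide_eq_true_eq]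
        constructor
        · rintro ⟨hi, h4 | h4⟩
          · exact absurd (h1 h4) (Finset.mem_compl.1 hi)
          · exact h4
        · intro hi
          exact ⟨h3 hi, Or.inr hi⟩
  rw [h, Finset.card_product, Finset.card_powersetCard, Finset.card_powerset, Finset.card_compl,
    Fintype.card_fin]

/-- a sum over the `2 M` positions, pair by pair -/
theorem sum_pairs (M : ℕ) (F : Fin (2 * M) → ℕ) :
    ∑ x, F x = ∑ i : Fin M, (F (loP M i) + F (hiP M i)) := by
  have h1 : ∑ x, F x = ∑ y : Fin (M + M), F (finCongr (two_mul M).symm y) :=
    ((finCongr (two_mul M).symm).sum_comp F).symm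
  rw [h1, Fin.sum_univ_add, Finset.sum_add_distrib]
  congr 1

/-- number of pairs inside `b` -/
def inP (M : ℕ) (b : Fin (2 * M) → Bool) : ℕ :=
  (Finset.univ.filter (fun i : Fin M => b (loP M i) = true ∧ b (hiP M i) = true)).card

theorem bal_decomp (M : ℕ) (b : Fin (2 * M) → Bool) (hb : Bal M b) :
    M = 2 * inP M b + cr M b := by
  unfold Bal at hb
  unfold inP cr
  rw [Finset.card_filter] at hb
  rw [Finset.card_filter, Finset.card_filter, Finset.mul_sum, ← Finset.sum_add_distrib]
  rw [sum_pairs] at hb
  refine hb.symm.trans ?_
  refine Finset.sum_congr rfl fun i _ => ?_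
  cases b (loP M i) <;> cases b (hiP M i) <;> simp

/-- a balanced column has an even number of crossing pairs (`M` even), at most `M` -/
theorem cr_even (M : ℕ) (hM : Even M) (b : Fin (2 * M) → Bool) (hb : Bal M b) : Even (cr M b) := by
  obtain ⟨r, hr⟩ := hM
  have h := bal_decomp M b hb
  exact ⟨r - inP M b, by omega⟩

theorem cr_le (M : ℕ) (b : Fin (2 * M) → Bool) : cr M b ≤ M := by
  unfold cr
  exact (Finset.card_filter_le _ _).trans (by simp)

theorem newBit_one_lo (M : ℕ) (e : Fin M → Bool) (i : Fin M) :
    newBit M 1 e (loP M i) = e i := by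
  rw [newBit_eq]
  have h1 : ((1 : Equiv.Perm (Fin (2 * M))) (loP M i)).val < M := i.2
  rw [dif_pos h1]
  rfl

theorem newBit_one_hi (M : ℕ) (e : Fin M → Bool) (i : Fin M) :
    newBit M 1 e (hiP M i) = !e i := by
  rw [newBit_eq]
  have h1 : ¬ ((1 : Equiv.Perm (Fin (2 * M))) (hiP M i)).val < M := by
    show ¬ (M + i.val < M)
    omega
  rw [dif_neg h1]
  congr 2
  apply Fin.ext
  show M + i.val - M = i.val
  omega

/-- the crossing pairs -/
def crS (M : ℕ) (b : Fin (2 * M) → Bool) : Finset (Fin M) :=
  Finset.univ.filter (fun i : Fin M => b (loP M i) ≠ b (hiP M i))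

theorem common_card (M : ℕ) (b : Fin (2 * M) → Bool) (e : Fin M → Bool) :
    (Finset.univ.filter (fun x => b x = true ∧ newBit M 1 e x = true)).card =
      inP M b + ((crS M b).filter (fun i => e i = b (loP M i))).card := by
  unfold inP crS
  rw [Finset.filter_filter, Finset.card_filter, Finset.card_filter, Finset.card_filter,
    sum_pairs, ← Finset.sum_add_distrib]
  refine Finset.sum_congr rfl fun i _ => ?_
  rw [newBit_one_lo, newBit_one_hi]
  cases b (loP M i) <;> cases b (hiP M i) <;> cases e i <;> simp

/-- flipping the coins by a fixed vector -/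
def flipE (M : ℕ) (v : Fin M → Bool) : (Fin M → Bool) ≃ (Fin M → Bool) where
  toFun e := fun i => decide (e i = v i)
  invFun e := fun i => decide (e i = v i)
  left_inv e := by
    funext i
    show decide (decide (e i = v i) = v i) = e i
    cases e i <;> cases v i <;> rfl
  right_inv e := by
    funext i
    show decide (decide (e i = v i) = v i) = e i
    cases e i <;> cases v i <;> rfl

theorem card_coins_flip (M k : ℕ) (s : Finset (Fin M)) (v : Fin M → Bool) :
    (Finset.univ.filter (fun e : Fin M → Bool => (s.filter (fun i => e i = v i)).card = k)).card =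
      s.card.choose k * 2 ^ (M - s.card) := by
  rw [← card_coins M k s]
  refine Finset.card_equiv (flipE M v) ?_
  intro e
  simp only [Finset.mem_filter, Finset.mem_univ, true_and]
  have : (s.filter (fun i => flipE M v e i = true)) = s.filter (fun i => e i = v i) := by
    ext i
    simp [flipE]
  rw [this]

/-- (E1) for the identity permutation and a balanced column `b`: the probability over the coins
that the new-bit column is in shell position w.r.t. `b` is `bcf (cr M b)`.
(`|b ∩ T| = #(pairs inside b) + #(crossing pairs whose endpoint in b gets the new bit 1)`,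
`2 #(pairs inside b) + cr = M`.) -/
theorem sum_shell_bitChan_one (M : ℕ) (hM : Even M) (b : Fin (2 * M) → Bool) (hb : Bal M b) :
    (∑ c, if shell M b c then bitChan M 1 c else 0) = bcf (cr M b) := by
  classical
  have hdec := bal_decomp M b hb
  obtain ⟨q, hq⟩ := cr_even M hM b hb
  have hle := cr_le M b
  -- step 1 : the sum is a count of coin vectors
  have h1 : (∑ c, if shell M b c then bitChan M 1 c else 0) =
      ((Finset.univ.filter (fun e : Fin M → Bool => shell M b (newBit M 1 e))).card : ℝ)
        / 2 ^ M := by
    unfold bitChan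
    rw [Finset.card_filter, Nat.cast_sum, Finset.sum_div]
    have h2 : ∀ c : Fin (2 * M) → Bool,
        (if shell M b c then
          ((Finset.univ.filter (fun e : Fin M → Bool => newBit M 1 e = c)).card : ℝ) / 2 ^ M
          else 0) =
        ∑ e : Fin M → Bool, (if newBit M 1 e = c then
          (((if shell M b (newBit M 1 e) then 1 else 0 : ℕ) : ℝ) / 2 ^ M) else 0) := by
      intro c
      by_cases hc : shell M b c
      · rw [if_pos hc, Finset.card_filter, Nat.cast_sum, Finset.sum_div]
        refine Finset.sum_congr rfl fun e _ => ?_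
        by_cases he : newBit M 1 e = c
        · rw [if_pos he, if_pos he, he, if_pos hc]
        · rw [if_neg he, if_neg he]
          simp
      · rw [if_neg hc]
        symm
        refine Finset.sum_eq_zero fun e _ => ?_
        by_cases he : newBit M 1 e = c
        · rw [if_pos he, he, if_neg hc]
          simp
        · rw [if_neg he]
    rw [Finset.sum_congr rfl fun c _ => h2 c, Finset.sum_comm]
    refine Finset.sum_congr rfl fun e _ => ?_
    rw [Finset.sum_ite_eq]
    simp
  -- step 2 : the count
  have h3 : (Finset.univ.filter (fun e : Fin M → Bool => shell M b (newBit M 1 e))) =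
      Finset.univ.filter (fun e : Fin M → Bool =>
        ((crS M b).filter (fun i => e i = b (loP M i))).card = q) := by
    ext e
    simp only [Finset.mem_filter, Finset.mem_univ, true_and]
    unfold shell
    rw [common_card]
    constructor
    · intro h
      omega
    · intro h
      omega
  have hcr : (crS M b).card = cr M b := rfl
  rw [h1, h3, card_coins_flip M q (crS M b) (fun i => b (loP M i)), hcr]
  unfold bcf
  have hq2 : cr M b / 2 = q := by omega
  rw [hq2]
  have hpow : (2 : ℝ) ^ M = 2 ^ (cr M b) * 2 ^ (M - cr M b) := by
    rw [← pow_add]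
    congr 1
    omega
  rw [hpow]
  push_cast
  field_simp

theorem kap_one_eq (M : ℕ) (hM : Even M) (b : Fin (2 * M) → Bool) (hb : Bal M b) :
    kap (bitChan M) (shell M) (beC M) 1 b = bcf (cr M b) / beC M - 1 := by
  unfold kap
  rw [sum_shell_bitChan_one M hM b hb]

end Vale.Agent.P162.SB
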