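import Vale.Agent.P162.SB.Defs

namespace Vale.Agent.P162.SB

open Finset Real

theorem gz_ge (i : ℕ) (hi : 72 ≤ i) : 512 ≤ gz i := by
  unfold gz
  have h : 9 ≤ i / 8 := by omega
  calc (512 : ℝ) = 2 ^ 9 := by norm_num
    _ ≤ 2 ^ (i / 8) := pow_le_pow_right₀ (by norm_num) h

theorem gz_pow_le (i : ℕ) : (gz i) ^ 8 ≤ (2 : ℝ) ^ i := by
  unfold gz
  rw [← pow_mul]
  exact pow_le_pow_right₀ (by norm_num) (by omega)

/-- `16 t ^ 3 ≤ exp t` for `t ≥ 384` -/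
theorem numB_exp_ge (t : ℝ) (ht : 384 ≤ t) : 16 * t ^ 3 ≤ Real.exp t := by
  have h0 : 0 ≤ t := by linarith
  have h1 := Real.pow_div_factorial_le_exp t h0 4
  have h2 : ((Nat.factorial 4 : ℕ) : ℝ) = 24 := by norm_num [Nat.factorial]
  rw [h2] at h1
  have h3 : 16 * t ^ 3 ≤ t ^ 4 / 24 := by
    have : 0 ≤ t ^ 3 := by positivity
    nlinarith
  linarith

/-- pure numerics. With `y = sqrt M ≥ g^4`, `g = gz i ≥ 512`: `M/(200 g^2) ≥ y g^2/200`,
`g sqrt(2M) ≤ 1.5 g y`, so the exponent is `≤ - y g`, and `16 y^3 g^2 ≤ e^{y g}`. -/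
theorem eps_small (i : ℕ) (hi : 72 ≤ i) :
    2 * Real.sqrt (2 ^ i) * (2 * Real.exp (-(2 * (1 / (20 * gz i)) ^ 2 * 2 ^ i))) *
      (2 * 2 ^ i * Real.exp (gz i * Real.sqrt (2 * 2 ^ i))) ≤ 1 / (2 * (gz i) ^ 2) := by
  have hg := gz_ge i hi
  have hg8 := gz_pow_le i
  generalize gz i = g at hg hg8 ⊢
  have hMpos : (0 : ℝ) < 2 ^ i := by positivity
  generalize (2 : ℝ) ^ i = M at hg8 hMpos ⊢
  have hg0 : 0 < g := by linarith
  have hy0 : 0 ≤ Real.sqrt M := Real.sqrt_nonneg _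
  have hy2 : Real.sqrt M ^ 2 = M := Real.sq_sqrt hMpos.le
  have hyg : g ^ 4 ≤ Real.sqrt M := by
    apply Real.le_sqrt_of_sq_le
    calc (g ^ 4) ^ 2 = g ^ 8 := by ring
      _ ≤ M := hg8
  have hs2 : Real.sqrt (2 * M) ≤ 3 / 2 * Real.sqrt M := by
    rw [Real.sqrt_mul (by norm_num)]
    have h : Real.sqrt 2 ≤ 3 / 2 := by
      rw [Real.sqrt_le_left (by norm_num)]
      norm_num
    exact mul_le_mul_of_nonneg_right h hy0
  generalize Real.sqrt (2 * M) = s at hs2 ⊢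
  generalize Real.sqrt M = y at hy0 hy2 hyg hs2 ⊢
  subst hy2
  have hg3 : 0 < g ^ 3 := by positivity
  have hy500 : 512 * g ^ 3 ≤ y := by
    have : 512 * g ^ 3 ≤ g ^ 4 := by nlinarith
    linarith
  have hypos : 0 < y := by nlinarith
  -- the exponent
  have hexp : -(2 * (1 / (20 * g)) ^ 2 * y ^ 2) + g * s ≤ -(g * y) := by
    have e : 2 * (1 / (20 * g)) ^ 2 * y ^ 2 = y ^ 2 / (200 * g ^ 2) := by
      field_simp
      ring
    rw [e]
    have h1 : 5 / 2 * (g * y) ≤ y ^ 2 / (200 * g ^ 2) := by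
      rw [le_div_iff₀ (by positivity)]
      have : 500 * g ^ 3 * y ≤ y * y := by
        apply mul_le_mul_of_nonneg_right _ hypos.le
        linarith
      nlinarith
    have h2 : g * s ≤ 3 / 2 * (g * y) := by
      have := mul_le_mul_of_nonneg_left hs2 hg0.le
      linarith
    linarith
  have e1 : 2 * y * (2 * Real.exp (-(2 * (1 / (20 * g)) ^ 2 * y ^ 2))) *
      (2 * y ^ 2 * Real.exp (g * s))
      = 8 * y ^ 3 * Real.exp (-(2 * (1 / (20 * g)) ^ 2 * y ^ 2) + g * s) := by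
    rw [Real.exp_add]
    ring
  rw [e1]
  have h3 : Real.exp (-(2 * (1 / (20 * g)) ^ 2 * y ^ 2) + g * s) ≤ Real.exp (-(g * y)) :=
    Real.exp_le_exp.2 hexp
  have ht : 384 ≤ g * y := by
    have hg31 : 1 ≤ g ^ 3 := one_le_pow₀ (by linarith)
    have hy1 : 512 ≤ y := by linarith
    have h := mul_le_mul hg hy1 (by norm_num) hg0.le
    linarith
  have h4 := numB_exp_ge (g * y) ht
  have h5 : 8 * y ^ 3 * Real.exp (-(g * y)) ≤ 1 / (2 * g ^ 2) := by
    rw [Real.exp_neg, le_div_iff₀ (by positivity)]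
    have hE : 0 < Real.exp (g * y) := Real.exp_pos _
    rw [show 8 * y ^ 3 * (Real.exp (g * y))⁻¹ * (2 * g ^ 2)
      = (16 * y ^ 3 * g ^ 2) / Real.exp (g * y) by field_simp; ring]
    rw [div_le_one hE]
    have h6 : 16 * y ^ 3 * g ^ 2 ≤ 16 * (g * y) ^ 3 := by
      have : 0 ≤ y ^ 3 * g ^ 2 := by positivity
      have e : 16 * (g * y) ^ 3 = 16 * (y ^ 3 * g ^ 2) * g := by ring
      rw [e]
      nlinarith
    linarith
  calc 8 * y ^ 3 * Real.exp (-(2 * (1 / (20 * g)) ^ 2 * y ^ 2) + g * s)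
      ≤ 8 * y ^ 3 * Real.exp (-(g * y)) := by
        apply mul_le_mul_of_nonneg_left h3
        positivity
    _ ≤ 1 / (2 * g ^ 2) := h5

end Vale.Agent.P162.SB
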