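import Vale.Agent.P162.SB.NumA
import Vale.Agent.P162.SB.NumB

namespace Vale.Agent.P162.SB

open Finset Real

/-- scalar algebra for the window estimate -/
theorem window_alg (t u b be ε0 : ℝ) (ht0 : 0 < t) (ht : t ≤ 1 / 512) (hb : 0 < b) (hbe : 0 < be)
    (hu : u * (1 - t / 9) ≤ 1) (hε0 : 0 ≤ ε0) (hε1 : ε0 ≤ t ^ 2 / 2) (hε2 : ε0 ≤ b * (t ^ 2 / 2))
    (hup : be ≤ u * b + ε0) (hlo : b * (1 - ε0) ≤ u * be) :
    |b / be - 1| ≤ t / 2 := by
  have h9 : 0 < 1 - t / 9 := by linarith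
  have h1 : b * ((1 - ε0) * (1 - t / 9)) ≤ be := by
    calc b * ((1 - ε0) * (1 - t / 9)) = (b * (1 - ε0)) * (1 - t / 9) := by ring
      _ ≤ (u * be) * (1 - t / 9) := mul_le_mul_of_nonneg_right hlo h9.le
      _ = (u * (1 - t / 9)) * be := by ring
      _ ≤ 1 * be := mul_le_mul_of_nonneg_right hu hbe.le
      _ = be := one_mul _
  have hq : 0 < (1 - t / 9) * (1 + t / 2) := by
    apply mul_pos h9; linarith
  have h2a : 1 ≤ (1 - t ^ 2 / 2) * ((1 - t / 9) * (1 + t / 2)) := by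
    have ht2 : t ^ 2 ≤ t / 512 := by nlinarith
    have ht3 : 0 ≤ t ^ 3 := by positivity
    have ht3' : t ^ 3 ≤ t / 512 := by nlinarith
    have ht4 : 0 ≤ t ^ 4 := by positivity
    nlinarith
  have h2 : 1 ≤ (1 - ε0) * (1 - t / 9) * (1 + t / 2) := by
    calc 1 ≤ (1 - t ^ 2 / 2) * ((1 - t / 9) * (1 + t / 2)) := h2a
      _ ≤ (1 - ε0) * ((1 - t / 9) * (1 + t / 2)) :=
          mul_le_mul_of_nonneg_right (by linarith) hq.le
      _ = _ := by ring
  have h3 : b ≤ be * (1 + t / 2) := by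
    calc b = b * 1 := (mul_one b).symm
      _ ≤ b * ((1 - ε0) * (1 - t / 9) * (1 + t / 2)) := mul_le_mul_of_nonneg_left h2 hb.le
      _ = (b * ((1 - ε0) * (1 - t / 9))) * (1 + t / 2) := by ring
      _ ≤ be * (1 + t / 2) := mul_le_mul_of_nonneg_right h1 (by linarith)
  have h4 : be * (1 - t / 9) ≤ b * (1 + t ^ 2 / 2) := by
    calc be * (1 - t / 9) ≤ (u * b + ε0) * (1 - t / 9) := mul_le_mul_of_nonneg_right hup h9.le
      _ = (u * (1 - t / 9)) * b + ε0 * (1 - t / 9) := by ring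
      _ ≤ 1 * b + b * (t ^ 2 / 2) * 1 := by
          apply add_le_add (mul_le_mul_of_nonneg_right hu hb.le)
          exact mul_le_mul hε2 (by linarith) h9.le (by positivity)
      _ = b * (1 + t ^ 2 / 2) := by ring
  have h5 : (1 - t / 2) * (1 + t ^ 2 / 2) ≤ 1 - t / 9 := by
    have ht2 : t ^ 2 ≤ t / 512 := by nlinarith
    have ht3 : 0 ≤ t ^ 3 := by positivity
    nlinarith
  have h6 : be * (1 - t / 2) ≤ b := by
    have h7 : (be * (1 - t / 2)) * (1 + t ^ 2 / 2) ≤ b * (1 + t ^ 2 / 2) := by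
      calc (be * (1 - t / 2)) * (1 + t ^ 2 / 2) = be * ((1 - t / 2) * (1 + t ^ 2 / 2)) := by ring
        _ ≤ be * (1 - t / 9) := mul_le_mul_of_nonneg_left h5 hbe.le
        _ ≤ _ := h4
    exact le_of_mul_le_mul_right h7 (by positivity)
  rw [abs_le]
  constructor
  · rw [le_sub_iff_add_le, le_div_iff₀ hbe]
    linarith
  · rw [sub_le_iff_le_add, div_le_iff₀ hbe]
    linarith

/-- abstract window / tail split -/
theorem num_core {ι : Type*} [Fintype ι] (P β : ι → ℝ) (O : Finset ι) (be g s u : ℝ)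
    (hP0 : ∀ x, 0 ≤ P x) (hP1 : ∑ x, P x = 1) (hbe : be = ∑ x, P x * β x)
    (hβlo : ∀ x, P x ≠ 0 → 1 / s ≤ β x) (hβhi : ∀ x, β x ≤ 1) (hs1 : 1 ≤ s) (hg : 512 ≤ g)
    (hu1 : 1 ≤ u) (hu : u * (1 - 1 / g / 9) ≤ 1)
    (hW : ∀ x, x ∉ O → ∀ y, y ∉ O → P x ≠ 0 → P y ≠ 0 → β x ≤ u * β y)
    (hO : (∑ x ∈ O, P x) * (s ^ 2 * Real.exp (g * s)) ≤ 1 / (2 * g ^ 2)) :
    ∑ x, P x * ((β x / be - 1) ^ 2 * Real.exp (g * |β x / be - 1|)) ≤ 2 / g ^ 2 := by
  classical
  have hgpos : 0 < g := by linarith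
  have hspos : 0 < s := by linarith
  have hupos : 0 < u := by linarith
  set ε0 := ∑ x ∈ O, P x with hε0
  have hε0nn : 0 ≤ ε0 := Finset.sum_nonneg (fun x _ => hP0 x)
  have hsplit : ∀ f : ι → ℝ, ∑ x, f x = ∑ x ∈ O, f x + ∑ x ∈ Oᶜ, f x :=
    fun f => (Finset.sum_add_sum_compl O f).symm
  have hWmass : ∑ x ∈ Oᶜ, P x = 1 - ε0 := by
    have := hsplit P
    linarith
  have hβnn : ∀ x, 0 ≤ P x * β x := by
    intro x
    by_cases h : P x = 0
    · simp [h]
    · exact mul_nonneg (hP0 x) (le_trans (by positivity) (hβlo x h))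
  have hbelo : 1 / s ≤ be := by
    rw [hbe]
    calc 1 / s = ∑ x, P x * (1 / s) := by rw [← Finset.sum_mul, hP1, one_mul]
      _ ≤ ∑ x, P x * β x := Finset.sum_le_sum (fun x _ => by
          by_cases h : P x = 0
          · simp [h]
          · exact mul_le_mul_of_nonneg_left (hβlo x h) (hP0 x))
  have hbepos : 0 < be := lt_of_lt_of_le (by positivity) hbelo
  have hsbe : 1 ≤ s * be := by
    have := mul_le_mul_of_nonneg_left hbelo hspos.le
    rwa [mul_one_div_cancel hspos.ne'] at this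
  have hcrude : ∀ x, P x ≠ 0 → |β x / be - 1| ≤ s := by
    intro x hx
    have h1 : 0 ≤ β x / be := div_nonneg (le_trans (by positivity) (hβlo x hx)) hbepos.le
    have h2 : β x / be ≤ s := by
      rw [div_le_iff₀ hbepos]
      linarith [hβhi x]
    rw [abs_le]
    constructor <;> linarith
  have hexp1 : 1 ≤ Real.exp (g * s) := Real.one_le_exp (by positivity)
  have hbig : s ≤ s ^ 2 * Real.exp (g * s) := by
    have h1 : s ≤ s ^ 2 := by nlinarith
    have h2 : s ^ 2 * 1 ≤ s ^ 2 * Real.exp (g * s) :=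
      mul_le_mul_of_nonneg_left hexp1 (by positivity)
    linarith
  have hεs : ε0 * s ≤ 1 / (2 * g ^ 2) := le_trans (mul_le_mul_of_nonneg_left hbig hε0nn) hO
  have hε1 : ε0 ≤ 1 / (2 * g ^ 2) := by
    have : ε0 * 1 ≤ ε0 * s := mul_le_mul_of_nonneg_left hs1 hε0nn
    linarith
  have hgg : 1 / (2 * g ^ 2) = (1 / g) ^ 2 / 2 := by
    field_simp
  have hout : ∑ x ∈ O, P x * ((β x / be - 1) ^ 2 * Real.exp (g * |β x / be - 1|))
      ≤ 1 / (2 * g ^ 2) := by
    calc ∑ x ∈ O, P x * ((β x / be - 1) ^ 2 * Real.exp (g * |β x / be - 1|))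
        ≤ ∑ x ∈ O, P x * (s ^ 2 * Real.exp (g * s)) := by
          apply Finset.sum_le_sum
          intro x _
          by_cases h : P x = 0
          · simp [h]
          · apply mul_le_mul_of_nonneg_left _ (hP0 x)
            have hk := hcrude x h
            apply mul_le_mul
            · exact sq_le_sq' (abs_le.1 hk).1 (abs_le.1 hk).2
            · exact Real.exp_le_exp.2 (mul_le_mul_of_nonneg_left hk hgpos.le)
            · positivity
            · positivity
      _ = ε0 * (s ^ 2 * Real.exp (g * s)) := by rw [← Finset.sum_mul]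
      _ ≤ _ := hO
  have hwin : ∀ x, x ∉ O → P x ≠ 0 → |β x / be - 1| ≤ 1 / g / 2 := by
    intro x hxO hx
    have hb : 0 < β x := lt_of_lt_of_le (by positivity) (hβlo x hx)
    have hsb : 1 ≤ s * β x := by
      have := mul_le_mul_of_nonneg_left (hβlo x hx) hspos.le
      rwa [mul_one_div_cancel hspos.ne'] at this
    have ht : 1 / g ≤ 1 / 512 := one_div_le_one_div_of_le (by norm_num) hg
    have hε2 : ε0 ≤ β x * ((1 / g) ^ 2 / 2) := by
      rw [← hgg]
      calc ε0 = ε0 * 1 := (mul_one _).symm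
        _ ≤ ε0 * (s * β x) := mul_le_mul_of_nonneg_left hsb hε0nn
        _ = β x * (ε0 * s) := by ring
        _ ≤ β x * (1 / (2 * g ^ 2)) := mul_le_mul_of_nonneg_left hεs hb.le
    have hup : be ≤ u * β x + ε0 := by
      rw [hbe, hsplit]
      have h1 : ∑ y ∈ O, P y * β y ≤ ε0 := by
        rw [hε0]
        apply Finset.sum_le_sum
        intro y _
        calc P y * β y ≤ P y * 1 := mul_le_mul_of_nonneg_left (hβhi y) (hP0 y)
          _ = P y := mul_one _
      have h2 : ∑ y ∈ Oᶜ, P y * β y ≤ u * β x := by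
        calc ∑ y ∈ Oᶜ, P y * β y ≤ ∑ y ∈ Oᶜ, P y * (u * β x) := by
              apply Finset.sum_le_sum
              intro y hy
              by_cases h : P y = 0
              · simp [h]
              · exact mul_le_mul_of_nonneg_left
                  (hW y (Finset.mem_compl.1 hy) x hxO h hx) (hP0 y)
          _ = (1 - ε0) * (u * β x) := by rw [← Finset.sum_mul, hWmass]
          _ ≤ 1 * (u * β x) := mul_le_mul_of_nonneg_right (by linarith) (by positivity)
          _ = u * β x := one_mul _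
      linarith
    have hlo : β x * (1 - ε0) ≤ u * be := by
      calc β x * (1 - ε0) = ∑ y ∈ Oᶜ, P y * β x := by rw [← Finset.sum_mul, hWmass]; ring
        _ ≤ ∑ y ∈ Oᶜ, P y * (u * β y) := by
              apply Finset.sum_le_sum
              intro y hy
              by_cases h : P y = 0
              · simp [h]
              · exact mul_le_mul_of_nonneg_left
                  (hW x hxO y (Finset.mem_compl.1 hy) hx h) (hP0 y)
        _ = u * ∑ y ∈ Oᶜ, P y * β y := by
              rw [Finset.mul_sum]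
              exact Finset.sum_congr rfl (fun y _ => by ring)
        _ ≤ u * be := by
              apply mul_le_mul_of_nonneg_left _ hupos.le
              rw [hbe, hsplit]
              have : 0 ≤ ∑ y ∈ O, P y * β y := Finset.sum_nonneg (fun y _ => hβnn y)
              linarith
    exact window_alg (1 / g) u (β x) be ε0 (by positivity) ht hb hbepos hu hε0nn
      (by rw [← hgg]; exact hε1) hε2 hup hlo
  have he3 : Real.exp (1 / 2) ≤ 3 := by
    have h1 : Real.exp (1 / 2) ≤ Real.exp 1 := Real.exp_le_exp.2 (by norm_num)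
    have h2 := Real.exp_one_lt_d9
    linarith
  have hin : ∑ x ∈ Oᶜ, P x * ((β x / be - 1) ^ 2 * Real.exp (g * |β x / be - 1|))
      ≤ 3 / (4 * g ^ 2) := by
    calc ∑ x ∈ Oᶜ, P x * ((β x / be - 1) ^ 2 * Real.exp (g * |β x / be - 1|))
        ≤ ∑ x ∈ Oᶜ, P x * ((1 / g / 2) ^ 2 * 3) := by
          apply Finset.sum_le_sum
          intro x hxO
          by_cases h : P x = 0
          · simp [h]
          · apply mul_le_mul_of_nonneg_left _ (hP0 x)
            have hk := hwin x (Finset.mem_compl.1 hxO) h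
            apply mul_le_mul
            · exact sq_le_sq' (abs_le.1 hk).1 (abs_le.1 hk).2
            · refine le_trans (Real.exp_le_exp.2 ?_) he3
              calc g * |β x / be - 1| ≤ g * (1 / g / 2) :=
                    mul_le_mul_of_nonneg_left hk hgpos.le
                _ = 1 / 2 := by field_simp
            · positivity
            · positivity
      _ = (1 - ε0) * ((1 / g / 2) ^ 2 * 3) := by rw [← Finset.sum_mul, hWmass]
      _ ≤ 1 * ((1 / g / 2) ^ 2 * 3) := mul_le_mul_of_nonneg_right (by linarith) (by positivity)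
      _ = 3 / (4 * g ^ 2) := by field_simp; ring
  rw [hsplit]
  calc _ ≤ 1 / (2 * g ^ 2) + 3 / (4 * g ^ 2) := add_le_add hout hin
    _ ≤ 2 / g ^ 2 := by
        have h1 : 1 / (2 * g ^ 2) + 3 / (4 * g ^ 2) = (5 / 4) / g ^ 2 := by field_simp; ring
        rw [h1]
        exact div_le_div_of_nonneg_right (by norm_num) (by positivity)

/-- two even numbers in the window have comparable `bcf` -/
theorem bcf_window (g M : ℝ) (hg : 1 ≤ g) (hM : 0 < M) (a b : ℕ) (ha : Even a) (hb : Even b)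
    (hwa : |(a : ℝ) - M / 2| ≤ 1 / (20 * g) * M) (hwb : |(b : ℝ) - M / 2| ≤ 1 / (20 * g) * M) :
    bcf a ≤ Real.exp (1 / g / 9) * bcf b := by
  have hgpos : 0 < g := by linarith
  rcases le_total a b with h | h
  · have h1 := bcf_ratio ha hb h
    have h2 : ((b : ℝ) - a) / (2 * ((a : ℝ) + 1)) ≤ 1 / g / 9 := by
      rw [div_le_iff₀ (by positivity)]
      have e1 : 1 / (20 * g) = (1 / g) / 20 := by field_simp
      rw [e1] at hwa hwb
      have ht0 : 0 < 1 / g := by positivity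
      have ht1 : 1 / g ≤ 1 := by
        rw [div_le_one hgpos]; exact hg
      generalize 1 / g = t at *
      have ha' := (abs_le.1 hwa).1
      have hb' := (abs_le.1 hwb).2
      have k1 : 0 ≤ t * ((a : ℝ) - (M / 2 - t / 20 * M)) := mul_nonneg ht0.le (by linarith)
      have k2 : 0 ≤ t * M * (1 - t) := mul_nonneg (mul_nonneg ht0.le hM.le) (by linarith)
      nlinarith
    calc bcf a ≤ bcf b * Real.exp (((b : ℝ) - a) / (2 * ((a : ℝ) + 1))) := h1
      _ ≤ bcf b * Real.exp (1 / g / 9) :=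
          mul_le_mul_of_nonneg_left (Real.exp_le_exp.2 h2) (bcf_pos b).le
      _ = _ := mul_comm _ _
  · have h1 := bcf_anti hb ha h
    have h2 : 1 ≤ Real.exp (1 / g / 9) := Real.one_le_exp (by positivity)
    have h3 := bcf_pos b
    calc bcf a ≤ 1 * bcf b := by linarith
      _ ≤ _ := mul_le_mul_of_nonneg_right h2 h3.le

/-- (EXP), numerical core. `M = 2^i`, `g = gz i`, `δ = 1/(20 g)`, `ε0` = mass outside the window
`|c - M/2| ≤ δ M`. On the window, for `r = 2δ/(1-2δ)`: `bcf c e^{-r} (1-ε0) ≤ be ≤ bcf c e^{r} + ε0`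
(`bcf_ratio`, `bcf_anti`), `bcf c ≥ 1/sqrt(2M)`, hence `|bcf c / be - 1| ≤ 1/(2g)`; window part
`≤ e^{1/2}/(4 g^2)`. Outside: `be ≥ 1/sqrt(2M)`, `|bcf c/be - 1| ≤ sqrt(2M)`, mass `≤ ε0`, use
`eps_small` and `four_pow_div_choose`. -/
theorem num_main (i : ℕ) (hi : 72 ≤ i) {ι : Type*} [Fintype ι] (P : ι → ℝ) (c : ι → ℕ) (be : ℝ)
    (hP0 : ∀ x, 0 ≤ P x) (hP1 : ∑ x, P x = 1) (hev : ∀ x, P x ≠ 0 → Even (c x))
    (hle : ∀ x, c x ≤ 2 ^ i) (hbe : be = ∑ x, P x * bcf (c x))
    (htail : ∀ δ : ℝ, 0 ≤ δ →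
      ∑ x ∈ Finset.univ.filter (fun x => δ * (2 : ℝ) ^ i < |(c x : ℝ) - (2 : ℝ) ^ i / 2|), P x ≤
        (4 : ℝ) ^ (2 ^ i) / ((2 * 2 ^ i).choose (2 ^ i) : ℝ) *
          (2 * Real.exp (-(2 * δ ^ 2 * (2 : ℝ) ^ i)))) :
    ∑ x, P x * ((bcf (c x) / be - 1) ^ 2 * Real.exp (gz i * |bcf (c x) / be - 1|)) ≤
      2 / (gz i) ^ 2 := by
  classical
  have hg : 512 ≤ gz i := gz_ge i hi
  have hgpos : 0 < gz i := by linarith
  have hMpos : (0 : ℝ) < (2 : ℝ) ^ i := by positivity
  have hM1 : (1 : ℝ) ≤ (2 : ℝ) ^ i := one_le_pow₀ (by norm_num)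
  have hcast : (((2 ^ i : ℕ) : ℕ) : ℝ) = (2 : ℝ) ^ i := by push_cast; rfl
  have hs1 : 1 ≤ Real.sqrt (2 * (2 : ℝ) ^ i) := by
    rw [show (1 : ℝ) = Real.sqrt 1 from Real.sqrt_one.symm]
    exact Real.sqrt_le_sqrt (by linarith)
  have hs2 : Real.sqrt (2 * (2 : ℝ) ^ i) ^ 2 = 2 * (2 : ℝ) ^ i := Real.sq_sqrt (by positivity)
  refine num_core P (fun x => bcf (c x))
    (Finset.univ.filter (fun x => 1 / (20 * gz i) * (2 : ℝ) ^ i < |(c x : ℝ) - (2 : ℝ) ^ i / 2|))
    be (gz i) (Real.sqrt (2 * (2 : ℝ) ^ i)) (Real.exp (1 / gz i / 9)) hP0 hP1 hbe ?_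
    (fun x => bcf_le_one _) hs1 hg (Real.one_le_exp (by positivity)) ?_ ?_ ?_
  · intro x hx
    have h := bcf_lower' (2 ^ i) (c x) Nat.one_le_two_pow (hev x hx) (hle x)
    rw [hcast] at h
    exact h
  · have h1 := Real.add_one_le_exp (-(1 / gz i / 9))
    have h2 : Real.exp (1 / gz i / 9) * Real.exp (-(1 / gz i / 9)) = 1 := by
      rw [← Real.exp_add]; simp
    calc Real.exp (1 / gz i / 9) * (1 - 1 / gz i / 9)
        ≤ Real.exp (1 / gz i / 9) * Real.exp (-(1 / gz i / 9)) :=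
          mul_le_mul_of_nonneg_left (by linarith) (Real.exp_pos _).le
      _ = 1 := h2
  · intro x hx y hy hPx hPy
    simp only [Finset.mem_filter, Finset.mem_univ, true_and, not_lt] at hx hy
    exact bcf_window (gz i) ((2 : ℝ) ^ i) (by linarith) hMpos (c x) (c y) (hev x hPx) (hev y hPy)
      hx hy
  · have h1 := htail (1 / (20 * gz i)) (by positivity)
    have h2 := four_pow_div_choose (2 ^ i) Nat.one_le_two_pow
    rw [hcast] at h2
    have h3 := eps_small i hi
    rw [hs2]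
    have hE : 0 ≤ 2 * Real.exp (-(2 * (1 / (20 * gz i)) ^ 2 * (2 : ℝ) ^ i)) := by positivity
    have hF : 0 ≤ 2 * (2 : ℝ) ^ i * Real.exp (gz i * Real.sqrt (2 * (2 : ℝ) ^ i)) := by positivity
    refine le_trans (mul_le_mul_of_nonneg_right (le_trans h1 ?_) hF) h3
    exact mul_le_mul_of_nonneg_right h2 hE

end Vale.Agent.P162.SB
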