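import Vale.Agent.P162.SB.Defs

namespace Vale.Agent.P162.SB

open Finset Real Vale.Agent.P162 Vale.Agent.P162.KL

/-- a Boolean column as the family of its values on the pairs `{i, M + i}` -/
def pairEquiv (M : ℕ) : (Fin (2 * M) → Bool) ≃ (Fin M → Bool × Bool) where
  toFun b := fun i => (b (loP M i), b (hiP M i))
  invFun c := fun x => if h : x.val < M then (c ⟨x.val, h⟩).1
    else (c ⟨x.val - M, by have := x.2; omega⟩).2
  left_inv := by
    intro b
    funext x
    by_cases h : x.val < M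
    · simp only [h, dif_pos]
      congr 1
    · simp only [h, dif_neg, not_false_eq_true]
      congr 1
      apply Fin.ext
      simp only [hiP]
      omega
  right_inv := by
    intro c
    funext i
    have h1 : (loP M i).val < M := i.2
    have h2 : ¬ (hiP M i).val < M := by simp only [hiP]; omega
    apply Prod.ext
    · simp only [h1, dif_pos]
      congr 1
    · simp only [h2, dif_neg, not_false_eq_true]
      congr 2
      apply Fin.ext
      simp only [hiP]
      omega

theorem exp_cr_eq_prod (M : ℕ) (u : ℝ) (b : Fin (2 * M) → Bool) :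
    Real.exp (u * (cr M b : ℝ)) =
      ∏ i : Fin M, (if (pairEquiv M b i).1 ≠ (pairEquiv M b i).2 then Real.exp u else 1) := by
  rw [Finset.prod_ite, Finset.prod_const, Finset.prod_const_one, mul_one, mul_comm,
    Real.exp_nat_mul]
  rfl

/-- moment generating function of the number of crossing pairs over ALL Boolean columns:
the pairs are independent, each contributes `2 + 2 e^u` -/
theorem mgf_cr (M : ℕ) (u : ℝ) :
    ∑ b : Fin (2 * M) → Bool, Real.exp (u * (cr M b : ℝ)) = (2 + 2 * Real.exp u) ^ M := by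
  have h1 : ∑ b : Fin (2 * M) → Bool, Real.exp (u * (cr M b : ℝ)) =
      ∑ c : Fin M → Bool × Bool,
        ∏ i : Fin M, (if (c i).1 ≠ (c i).2 then Real.exp u else 1) := by
    rw [← (pairEquiv M).sum_comp]
    exact Finset.sum_congr rfl (fun b _ => exp_cr_eq_prod M u b)
  have h2 : ∑ z : Bool × Bool, (if z.1 ≠ z.2 then Real.exp u else 1) = 2 + 2 * Real.exp u := by
    rw [Fintype.sum_prod_type]
    simp
    ring
  have h3 := Finset.prod_univ_sum (fun _ : Fin M => (Finset.univ : Finset (Bool × Bool)))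
    (fun (_ : Fin M) (z : Bool × Bool) => if z.1 ≠ z.2 then Real.exp u else (1 : ℝ))
  rw [Fintype.piFinset_univ] at h3
  rw [h1, ← h3]
  simp only [h2, Finset.prod_const, Finset.card_univ, Fintype.card_fin]

theorem two_add_exp_le (u : ℝ) :
    2 + 2 * Real.exp u ≤ 4 * (Real.exp (u / 2) * Real.exp (u ^ 2 / 8)) := by
  have h1 : 2 + 2 * Real.exp u = 4 * (Real.exp (u / 2) * Real.cosh (u / 2)) := by
    rw [Real.cosh_eq]
    have e1 : Real.exp (u / 2) * Real.exp (u / 2) = Real.exp u := by
      rw [← Real.exp_add]; congr 1; ring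
    have e2 : Real.exp (u / 2) * Real.exp (-(u / 2)) = 1 := by
      rw [← Real.exp_add]; simp
    have : Real.exp (u / 2) * ((Real.exp (u / 2) + Real.exp (-(u / 2))) / 2) =
        (Real.exp (u / 2) * Real.exp (u / 2) + Real.exp (u / 2) * Real.exp (-(u / 2))) / 2 := by
      ring
    rw [this, e1, e2]
    ring
  have h2 := Real.cosh_le_exp_half_sq (u / 2)
  have e3 : (u / 2) ^ 2 / 2 = u ^ 2 / 8 := by ring
  rw [e3] at h2
  rw [h1]
  have hpos := Real.exp_pos (u / 2)
  have := mul_le_mul_of_nonneg_left h2 hpos.le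
  linarith

theorem half_tail (M : ℕ) (δ : ℝ) (hδ : 0 ≤ δ) (s : ℝ) (hs : s ^ 2 = 1) :
    ((Finset.univ.filter (fun b : Fin (2 * M) → Bool =>
        δ * M < s * ((cr M b : ℝ) - M / 2))).card : ℝ) ≤
      4 ^ M * Real.exp (-(2 * δ ^ 2 * M)) := by
  have h1 : ((Finset.univ.filter (fun b : Fin (2 * M) → Bool =>
        δ * M < s * ((cr M b : ℝ) - M / 2))).card : ℝ) ≤
      ∑ b : Fin (2 * M) → Bool,
        Real.exp (-(2 * δ * s * M) - 4 * δ ^ 2 * M) * Real.exp ((4 * δ * s) * (cr M b : ℝ)) := by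
    rw [Finset.card_eq_sum_ones, Nat.cast_sum, Finset.sum_filter]
    apply Finset.sum_le_sum
    intro b _
    rw [← Real.exp_add]
    split_ifs with hb
    · have : (0 : ℝ) ≤ -(2 * δ * s * M) - 4 * δ ^ 2 * M + (4 * δ * s) * (cr M b : ℝ) := by
        have h := mul_nonneg hδ (sub_nonneg.mpr hb.le)
        nlinarith
      have h2 := Real.one_le_exp this
      simpa using h2
    · simpa using (Real.exp_pos _).le
  rw [← Finset.mul_sum, mgf_cr] at h1
  refine le_trans h1 ?_
  have h3 : (2 + 2 * Real.exp (4 * δ * s)) ^ M ≤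
      (4 * (Real.exp ((4 * δ * s) / 2) * Real.exp ((4 * δ * s) ^ 2 / 8))) ^ M :=
    pow_le_pow_left₀ (by positivity) (two_add_exp_le _) M
  have h4 : (4 * (Real.exp ((4 * δ * s) / 2) * Real.exp ((4 * δ * s) ^ 2 / 8))) ^ M =
      4 ^ M * Real.exp (2 * δ * s * M + 2 * δ ^ 2 * M) := by
    rw [mul_pow, ← Real.exp_add, ← Real.exp_nat_mul]
    congr 2
    have : (4 * δ * s) ^ 2 = 16 * δ ^ 2 * s ^ 2 := by ring
    rw [this, hs]
    ring
  rw [h4] at h3
  have h5 := mul_le_mul_of_nonneg_left h3 (Real.exp_pos (-(2 * δ * s * M) - 4 * δ ^ 2 * M)).le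
  refine le_trans h5 (le_of_eq ?_)
  rw [mul_left_comm, ← Real.exp_add]
  congr 2
  ring

/-- (E2) Hoeffding tail for the number of crossing pairs over all Boolean columns
(Markov with `u = ± 4 δ`, `Real.cosh_le_exp_half_sq`) -/
theorem tail_cr (M : ℕ) (δ : ℝ) (hδ : 0 ≤ δ) :
    ((Finset.univ.filter (fun b : Fin (2 * M) → Bool =>
        δ * M < |(cr M b : ℝ) - M / 2|)).card : ℝ) ≤
      4 ^ M * (2 * Real.exp (-(2 * δ ^ 2 * M))) := by
  have hsub : Finset.univ.filter (fun b : Fin (2 * M) → Bool =>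
        δ * M < |(cr M b : ℝ) - M / 2|) ⊆
      Finset.univ.filter (fun b : Fin (2 * M) → Bool => δ * M < 1 * ((cr M b : ℝ) - M / 2)) ∪
      Finset.univ.filter (fun b : Fin (2 * M) → Bool =>
        δ * M < (-1) * ((cr M b : ℝ) - M / 2)) := by
    intro b hb
    rw [Finset.mem_filter] at hb
    rw [Finset.mem_union, Finset.mem_filter, Finset.mem_filter]
    rcases lt_abs.1 hb.2 with h | h
    · left
      exact ⟨Finset.mem_univ _, by linarith⟩
    · right
      exact ⟨Finset.mem_univ _, by linarith⟩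
  have h1 := Finset.card_le_card hsub
  have h2 := Finset.card_union_le
    (Finset.univ.filter (fun b : Fin (2 * M) → Bool => δ * M < 1 * ((cr M b : ℝ) - M / 2)))
    (Finset.univ.filter (fun b : Fin (2 * M) → Bool => δ * M < (-1) * ((cr M b : ℝ) - M / 2)))
  have h3 := half_tail M δ hδ 1 (by norm_num)
  have h4 := half_tail M δ hδ (-1) (by norm_num)
  have h5 : ((Finset.univ.filter (fun b : Fin (2 * M) → Bool =>
        δ * M < |(cr M b : ℝ) - M / 2|)).card : ℝ) ≤
      ((Finset.univ.filter (fun b : Fin (2 * M) → Bool =>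
        δ * M < 1 * ((cr M b : ℝ) - M / 2))).card : ℝ) +
      ((Finset.univ.filter (fun b : Fin (2 * M) → Bool =>
        δ * M < (-1) * ((cr M b : ℝ) - M / 2))).card : ℝ) := by
    exact_mod_cast le_trans h1 h2
  linarith

end Vale.Agent.P162.SB
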