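import Vale.Agent.P162.SB.Abs2
import Vale.Agent.P162.SB.Center
import Vale.Agent.P162.SB.Kap
import Vale.Agent.P162.SB.Tail
import Vale.Agent.P162.SB.NumC

namespace Vale.Agent.P162.SB

open Finset Real Vale.Agent.P162 Vale.Agent.P162.KL

theorem even_two_pow (i : ℕ) (hi : 1 ≤ i) : Even (2 ^ i) :=
  (Nat.even_pow.mpr ⟨even_two, by omega⟩)

theorem gz_pos (i : ℕ) : 0 < gz i := by
  unfold gz; positivity

/-- the law of the lowest-bit column is a probability law -/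
theorem sum_pm_lowCol (M : ℕ) :
    ∑ b, KL.pm (unif (Equiv.Perm (Fin (2 * M)))) (lowCol M) b = 1 := by
  rw [KL.pm_sum]
  unfold unif
  rw [Finset.sum_const, Finset.card_univ, nsmul_eq_mul]
  have : (Fintype.card (Equiv.Perm (Fin (2 * M))) : ℝ) ≠ 0 := by
    have := Fintype.card_pos (α := Equiv.Perm (Fin (2 * M)))
    positivity
  field_simp

theorem pm_lowCol_nonneg (M : ℕ) (b : Fin (2 * M) → Bool) :
    0 ≤ KL.pm (unif (Equiv.Perm (Fin (2 * M)))) (lowCol M) b := by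
  rw [pm_unif_lowCol]
  split_ifs
  · positivity
  · exact le_rfl

theorem bal_of_pm_ne (M : ℕ) (b : Fin (2 * M) → Bool)
    (h : KL.pm (unif (Equiv.Perm (Fin (2 * M)))) (lowCol M) b ≠ 0) : Bal M b := by
  rw [pm_unif_lowCol] at h
  by_contra hb
  exact h (if_neg hb)

theorem pm_lowCol_le (M : ℕ) (b : Fin (2 * M) → Bool) :
    KL.pm (unif (Equiv.Perm (Fin (2 * M)))) (lowCol M) b ≤ 1 / ((2 * M).choose M : ℝ) := by
  rw [pm_unif_lowCol]
  split_ifs
  · exact le_rfl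
  · positivity

/-- the constant `beC M` is the mean of `bcf (cr M b)` -/
theorem beC_eq_mean (M : ℕ) (hM : Even M) :
    beC M = ∑ b, KL.pm (unif (Equiv.Perm (Fin (2 * M)))) (lowCol M) b * bcf (cr M b) := by
  have h0 := kap_centre_col M hM 1
  have hpos := beC_pos M
  have h1 : ∑ b, KL.pm (unif (Equiv.Perm (Fin (2 * M)))) (lowCol M) b *
      kap (bitChan M) (shell M) (beC M) 1 b =
      (∑ b, KL.pm (unif (Equiv.Perm (Fin (2 * M)))) (lowCol M) b * bcf (cr M b)) / beC M -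
        ∑ b, KL.pm (unif (Equiv.Perm (Fin (2 * M)))) (lowCol M) b := by
    rw [Finset.sum_div, ← Finset.sum_sub_distrib]
    apply Finset.sum_congr rfl
    intro b _
    by_cases hb : KL.pm (unif (Equiv.Perm (Fin (2 * M)))) (lowCol M) b = 0
    · rw [hb]; simp
    · rw [kap_one_eq M hM b (bal_of_pm_ne M b hb)]
      ring
  rw [h1, sum_pm_lowCol] at h0
  have h2 : (∑ b, KL.pm (unif (Equiv.Perm (Fin (2 * M)))) (lowCol M) b * bcf (cr M b)) / beC M
      = 1 := by linarith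
  rw [div_eq_one_iff_eq hpos.ne'] at h2
  exact h2.symm

/-- (H6) for the identity permutation: `num_main` with `ι` = columns, `P` = law of the lowest-bit
column (`pm_unif_lowCol`), `c = cr M`; `hbe` from `kap_centre_col` at `h = 1` and `kap_one_eq`;
`htail` from `tail_cr`. -/
theorem block_H6_one (i : ℕ) (hi : 72 ≤ i) :
    ∑ b, KL.pm (unif (Equiv.Perm (Fin (2 * 2 ^ i)))) (lowCol (2 ^ i)) b *
      ((kap (bitChan (2 ^ i)) (shell (2 ^ i)) (beC (2 ^ i)) 1 b) ^ 2 *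
        Real.exp (gz i * |kap (bitChan (2 ^ i)) (shell (2 ^ i)) (beC (2 ^ i)) 1 b|)) ≤
      2 / (gz i) ^ 2 := by
  have hM : Even (2 ^ i) := even_two_pow i (by omega)
  have key := num_main i hi
    (KL.pm (unif (Equiv.Perm (Fin (2 * 2 ^ i)))) (lowCol (2 ^ i))) (cr (2 ^ i)) (beC (2 ^ i))
    (pm_lowCol_nonneg _) (sum_pm_lowCol _)
    (fun b hb => cr_even _ hM b (bal_of_pm_ne _ b hb))
    (fun b => cr_le _ b) (beC_eq_mean _ hM)
    (by
      intro δ hδ
      have ht := tail_cr (2 ^ i) δ hδ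
      push_cast at ht
      have hC : (0 : ℝ) < ((2 * 2 ^ i).choose (2 ^ i) : ℝ) := by
        have : 0 < (2 * 2 ^ i).choose (2 ^ i) := Nat.choose_pos (by omega)
        exact_mod_cast this
      calc ∑ x ∈ Finset.univ.filter (fun x : Fin (2 * 2 ^ i) → Bool =>
              δ * (2 : ℝ) ^ i < |(cr (2 ^ i) x : ℝ) - (2 : ℝ) ^ i / 2|),
            KL.pm (unif (Equiv.Perm (Fin (2 * 2 ^ i)))) (lowCol (2 ^ i)) x
          ≤ ∑ x ∈ Finset.univ.filter (fun x : Fin (2 * 2 ^ i) → Bool =>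
              δ * (2 : ℝ) ^ i < |(cr (2 ^ i) x : ℝ) - (2 : ℝ) ^ i / 2|),
            1 / ((2 * 2 ^ i).choose (2 ^ i) : ℝ) :=
            Finset.sum_le_sum (fun x _ => pm_lowCol_le _ x)
        _ = ((Finset.univ.filter (fun x : Fin (2 * 2 ^ i) → Bool =>
              δ * (2 : ℝ) ^ i < |(cr (2 ^ i) x : ℝ) - (2 : ℝ) ^ i / 2|)).card : ℝ) *
              (1 / ((2 * 2 ^ i).choose (2 ^ i) : ℝ)) := by
            rw [Finset.sum_const, nsmul_eq_mul]
        _ ≤ ((4 : ℝ) ^ (2 ^ i) * (2 * Real.exp (-(2 * δ ^ 2 * (2 : ℝ) ^ i)))) *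
              (1 / ((2 * 2 ^ i).choose (2 ^ i) : ℝ)) :=
            mul_le_mul_of_nonneg_right ht (by positivity)
        _ = _ := by ring)
  refine le_trans (le_of_eq ?_) key
  apply Finset.sum_congr rfl
  intro b _
  by_cases hb : KL.pm (unif (Equiv.Perm (Fin (2 * 2 ^ i)))) (lowCol (2 ^ i)) b = 0
  · rw [hb]; simp
  · rw [kap_one_eq _ hM b (bal_of_pm_ne _ b hb)]

/-- (H6) for every permutation: reindex the sum by `b ↦ b ∘ h.symm` (`kap_relabel`,
`bal_relabel`, `pm_unif_lowCol`) -/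
theorem block_H6 (i : ℕ) (hi : 72 ≤ i) (h : Equiv.Perm (Fin (2 * 2 ^ i))) :
    ∑ b, KL.pm (unif (Equiv.Perm (Fin (2 * 2 ^ i)))) (lowCol (2 ^ i)) b *
      ((kap (bitChan (2 ^ i)) (shell (2 ^ i)) (beC (2 ^ i)) h b) ^ 2 *
        Real.exp (gz i * |kap (bitChan (2 ^ i)) (shell (2 ^ i)) (beC (2 ^ i)) h b|)) ≤
      2 / (gz i) ^ 2 := by
  refine le_trans (le_of_eq ?_) (block_H6_one i hi)
  rw [← Equiv.sum_comp (Equiv.arrowCongr h (Equiv.refl Bool))
    (fun b => KL.pm (unif (Equiv.Perm (Fin (2 * 2 ^ i)))) (lowCol (2 ^ i)) b *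
      ((kap (bitChan (2 ^ i)) (shell (2 ^ i)) (beC (2 ^ i)) 1 b) ^ 2 *
        Real.exp (gz i * |kap (bitChan (2 ^ i)) (shell (2 ^ i)) (beC (2 ^ i)) 1 b|)))]
  apply Finset.sum_congr rfl
  intro b _
  have he : (Equiv.arrowCongr h (Equiv.refl Bool)) b = b ∘ h.symm := by
    ext x; simp [Equiv.arrowCongr]
  rw [he, ← kap_relabel]
  congr 1
  rw [pm_unif_lowCol, pm_unif_lowCol]
  simp only [bal_relabel]

/-- THE BLOCK INEQUALITY -/
theorem block_sb (i : ℕ) (hi : 72 ≤ i) : SB (lowCol (2 ^ i)) (bitChan (2 ^ i)) (17 / gz i) :=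
  sb_abs (lowCol (2 ^ i)) (bitChan (2 ^ i)) (isChan_bitChan _) (shell (2 ^ i)) (beC (2 ^ i)) (gz i)
    (beC_pos _) (gz_pos i)
    (fun h c hc => shell_of_bitChan _ (even_two_pow i (by omega)) h c hc)
    (fun b c => joint_unif_le _ (even_two_pow i (by omega)) (by positivity) b c)
    (fun h => kap_centre_col _ (even_two_pow i (by omega)) h)
    (fun b hb => kap_centre_perm _ (even_two_pow i (by omega)) b hb)
    (fun h => block_H6 i hi h)

end Vale.Agent.P162.SB
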