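import Mathlib

/-!
# The return probabilities `wb k = C(2k,k) / 4^k`
-/

namespace Vale.Agent.P162.SB

open Finset Real

/-- probability that a fair `±1` walk of length `2k` ends at `0` -/
noncomputable def wb (k : ℕ) : ℝ := (Nat.centralBinom k : ℝ) / 4 ^ k

theorem wb_zero : wb 0 = 1 := by simp [wb]

theorem wb_pos (k : ℕ) : 0 < wb k := by
  unfold wb
  have : 0 < Nat.centralBinom k := Nat.centralBinom_pos k
  positivity

theorem wb_succ (k : ℕ) : wb (k + 1) = wb k * ((2 * (k : ℝ) + 1) / (2 * (k : ℝ) + 2)) := by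
  unfold wb
  have h := Nat.succ_mul_centralBinom_succ k
  have h' : ((k : ℝ) + 1) * (Nat.centralBinom (k + 1) : ℝ)
      = 2 * (2 * (k : ℝ) + 1) * (Nat.centralBinom k : ℝ) := by exact_mod_cast h
  have hk : (0 : ℝ) < (k : ℝ) + 1 := by positivity
  have e : (Nat.centralBinom (k + 1) : ℝ)
      = 2 * (2 * (k : ℝ) + 1) * (Nat.centralBinom k : ℝ) / ((k : ℝ) + 1) := by
    rw [eq_div_iff hk.ne']
    linarith
  rw [e, pow_succ]
  field_simp
  ring

theorem wb_succ_le (k : ℕ) : wb (k + 1) ≤ wb k := by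
  rw [wb_succ]
  have h := wb_pos k
  have h1 : (2 * (k : ℝ) + 1) / (2 * (k : ℝ) + 2) ≤ 1 := by
    rw [div_le_one (by positivity)]
    linarith
  nlinarith

theorem wb_antitone : Antitone wb := antitone_nat_of_succ_le wb_succ_le

theorem wb_le_one (k : ℕ) : wb k ≤ 1 := by
  have := wb_antitone (Nat.zero_le k)
  rwa [wb_zero] at this

/-- slow variation -/
theorem wb_ratio (k l : ℕ) (h : k ≤ l) :
    wb k ≤ wb l * Real.exp (((l : ℝ) - k) / (2 * (k : ℝ) + 1)) := by
  induction l, h using Nat.le_induction with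
  | base => simp
  | succ l hl ih =>
    have hkl : (k : ℝ) ≤ l := by exact_mod_cast hl
    have h1 : wb l = wb (l + 1) * ((2 * (l : ℝ) + 2) / (2 * (l : ℝ) + 1)) := by
      rw [wb_succ]
      field_simp
    have h2 : (2 * (l : ℝ) + 2) / (2 * (l : ℝ) + 1) ≤ Real.exp (1 / (2 * (k : ℝ) + 1)) := by
      have e : (2 * (l : ℝ) + 2) / (2 * (l : ℝ) + 1) = 1 / (2 * (l : ℝ) + 1) + 1 := by
        field_simp
        ring
      rw [e]
      refine le_trans ?_ (Real.add_one_le_exp _)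
      have : 1 / (2 * (l : ℝ) + 1) ≤ 1 / (2 * (k : ℝ) + 1) :=
        one_div_le_one_div_of_le (by positivity) (by linarith)
      linarith
    have h3 : Real.exp ((((l + 1 : ℕ) : ℝ) - k) / (2 * (k : ℝ) + 1))
        = Real.exp (1 / (2 * (k : ℝ) + 1)) * Real.exp (((l : ℝ) - k) / (2 * (k : ℝ) + 1)) := by
      rw [← Real.exp_add]
      congr 1
      push_cast
      ring
    rw [h3]
    have hp := wb_pos (l + 1)
    have he := Real.exp_pos (((l : ℝ) - k) / (2 * (k : ℝ) + 1))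
    calc wb k ≤ wb l * Real.exp (((l : ℝ) - k) / (2 * (k : ℝ) + 1)) := ih
      _ = wb (l + 1) * ((2 * (l : ℝ) + 2) / (2 * (l : ℝ) + 1))
            * Real.exp (((l : ℝ) - k) / (2 * (k : ℝ) + 1)) := by rw [← h1]
      _ ≤ wb (l + 1) * Real.exp (1 / (2 * (k : ℝ) + 1))
            * Real.exp (((l : ℝ) - k) / (2 * (k : ℝ) + 1)) := by
          apply mul_le_mul_of_nonneg_right _ he.le
          exact mul_le_mul_of_nonneg_left h2 hp.le
      _ = _ := by ring

theorem quarter_le_mul_wb_sq (k : ℕ) (hk : 1 ≤ k) : 1 / 4 ≤ (k : ℝ) * wb k ^ 2 := by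
  induction k, hk using Nat.le_induction with
  | base =>
    have : wb 1 = 1 / 2 := by
      rw [wb_succ, wb_zero]
      norm_num
    rw [this]
    norm_num
  | succ k hk ih =>
    have hk' : (1 : ℝ) ≤ k := by exact_mod_cast hk
    rw [wb_succ]
    have e : ((k + 1 : ℕ) : ℝ) * (wb k * ((2 * (k : ℝ) + 1) / (2 * (k : ℝ) + 2))) ^ 2
        = ((k : ℝ) * wb k ^ 2) * ((2 * (k : ℝ) + 1) ^ 2 / (4 * (k : ℝ) * ((k : ℝ) + 1))) := by
      push_cast
      field_simp
      ring
    rw [e]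
    have h1 : 1 ≤ (2 * (k : ℝ) + 1) ^ 2 / (4 * (k : ℝ) * ((k : ℝ) + 1)) := by
      rw [le_div_iff₀ (by positivity)]
      nlinarith
    nlinarith

/-- lower bound of the right order -/
theorem wb_lower (k : ℕ) (hk : 1 ≤ k) : 1 / (2 * Real.sqrt k) ≤ wb k := by
  have h := quarter_le_mul_wb_sq k hk
  have hk' : (0 : ℝ) < k := by exact_mod_cast hk
  have hs : 0 < Real.sqrt k := Real.sqrt_pos.2 hk'
  have hw := wb_pos k
  rw [div_le_iff₀ (by positivity)]
  have h2 : (1 : ℝ) ^ 2 ≤ (wb k * (2 * Real.sqrt k)) ^ 2 := by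
    rw [mul_pow, mul_pow, Real.sq_sqrt hk'.le]
    nlinarith
  exact (pow_le_pow_iff_left₀ (by norm_num) (by positivity) (by norm_num)).1 h2

end Vale.Agent.P162.SB
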