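import Vale.Agent.P162.KL.HalfA1

/-!
# P162 : the smoothing identity of the level-by-level route

For a balanced colouring `c` of the cards and the deck order `h`, the probability (over the coins
of one Thorp shuffle) that the column of new bits meets the colour class of `c` in exactly `M / 2`
cards is `C(r, r/2) / 2 ^ r`, where `r` is the number of pairs of the shuffle on which `c` takes
both values.
-/

namespace Vale.Agent.P162.SB.Coin

open Finset Vale.Agent.P162 Vale.Agent.P162.KL

/-- counting coin vectors with a prescribed number of agreements on a set of coordinates -/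
theorem card_agree {ι : Type*} [Fintype ι] [DecidableEq ι] (X : Finset ι) (t : ι → Bool) (k : ℕ) :
    (univ.filter (fun b : ι → Bool => (X.filter (fun e => b e = t e)).card = k)).card =
      X.card.choose k * 2 ^ (Fintype.card ι - X.card) := by
  have hcard : ((powersetCard k X) ×ˢ (powerset Xᶜ)).card =
      X.card.choose k * 2 ^ (Fintype.card ι - X.card) := by
    rw [card_product, card_powersetCard, card_powerset, card_compl]
  rw [← hcard]
  refine Finset.card_nbij'
    (fun b => (X.filter (fun e => b e = t e), Xᶜ.filter (fun e => b e = true)))
    (fun p => fun e => if e ∈ X then (if e ∈ p.1 then t e else !t e) else decide (e ∈ p.2))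
    ?_ ?_ ?_ ?_
  · intro b hb
    simp only [coe_filter, mem_univ, true_and, Set.mem_ofPred_eq] at hb
    simp only [coe_product, Set.mem_prod, mem_coe, mem_powersetCard, mem_powerset]
    exact ⟨⟨filter_subset _ _, hb⟩, filter_subset _ _⟩
  · intro p hp
    simp only [coe_product, Set.mem_prod, mem_coe, mem_powersetCard, mem_powerset] at hp
    obtain ⟨⟨hA, hk⟩, _⟩ := hp
    simp only [coe_filter, mem_univ, true_and, Set.mem_ofPred_eq]
    have : X.filter (fun e => (if e ∈ X then (if e ∈ p.1 then t e else !t e)
        else decide (e ∈ p.2)) = t e) = p.1 := by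
      ext e
      simp only [mem_filter]
      constructor
      · rintro ⟨hX, h⟩
        rw [if_pos hX] at h
        by_contra hne
        rw [if_neg hne] at h
        cases hh : t e <;> simp [hh] at h
      · intro he
        refine ⟨hA he, ?_⟩
        rw [if_pos (hA he), if_pos he]
    rw [this, hk]
  · intro b _
    funext e
    by_cases hX : e ∈ X
    · simp only [hX, if_true, mem_filter, true_and]
      by_cases hb : b e = t e
      · rw [if_pos hb, hb]
      · rw [if_neg hb]
        cases h1 : b e <;> cases h2 : t e <;> simp_all
    · simp only [hX, if_false, mem_filter, mem_compl, not_false_eq_true, true_and]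
      cases h1 : b e <;> simp
  · intro p hp
    simp only [coe_product, Set.mem_prod, mem_coe, mem_powersetCard, mem_powerset] at hp
    obtain ⟨⟨hA, _⟩, hB⟩ := hp
    apply Prod.ext
    · ext e
      simp only [mem_filter]
      constructor
      · rintro ⟨hX, h⟩
        rw [if_pos hX] at h
        by_contra hne
        rw [if_neg hne] at h
        cases hh : t e <;> simp [hh] at h
      · intro he
        refine ⟨hA he, ?_⟩
        rw [if_pos (hA he), if_pos he]
    · ext e
      simp only [mem_filter, mem_compl]
      constructor
      · rintro ⟨hX, h⟩
        rw [if_neg hX] at h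
        simpa using h
      · intro he
        have hX : e ∉ X := by simpa using hB he
        refine ⟨hX, ?_⟩
        rw [if_neg hX]
        simpa using he

/-- positions = pairs of the shuffle times halves of the deck -/
def posE (M : ℕ) : Fin M × Bool ≃ Fin (2 * M) where
  toFun p := pos M p.1 p.2
  invFun y := (edge M y, decide (M ≤ y.val))
  left_inv p := Prod.ext (edge_pos M p.1 p.2) (half_pos M p.1 p.2)
  right_inv y := pos_edge M y

theorem card_filter_pos (M : ℕ) (P : Fin (2 * M) → Prop) [DecidablePred P] :
    (univ.filter P).card = ∑ e : Fin M,
      ((if P (pos M e false) then 1 else 0) + (if P (pos M e true) then 1 else 0)) := by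
  rw [Finset.card_filter, ← (posE M).sum_comp, Fintype.sum_prod_type]
  apply Finset.sum_congr rfl
  intro e _
  rw [Fintype.sum_bool, add_comm]
  rfl

/-- the pairs on which the colouring `c` of the positions takes both values -/
def crs (M : ℕ) (c : Fin (2 * M) → Bool) : Finset (Fin M) :=
  univ.filter (fun e => c (pos M e false) ≠ c (pos M e true))

/-- the pairs on which `c` is `true` twice -/
def dbl (M : ℕ) (c : Fin (2 * M) → Bool) : Finset (Fin M) :=
  univ.filter (fun e => c (pos M e false) = true ∧ c (pos M e true) = true)

theorem card_true (M : ℕ) (c : Fin (2 * M) → Bool) :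
    (univ.filter (fun y => c y = true)).card = 2 * (dbl M c).card + (crs M c).card := by
  unfold dbl crs
  rw [card_filter_pos, Finset.card_filter, Finset.card_filter, Finset.mul_sum,
    ← Finset.sum_add_distrib]
  apply Finset.sum_congr rfl
  intro e _
  cases c (pos M e false) <;> cases c (pos M e true) <;> simp

theorem card_true_pbit (M : ℕ) (c : Fin (2 * M) → Bool) (b : Fin M → Bool) :
    (univ.filter (fun y => c y = true ∧ pbit M b y = true)).card =
      (dbl M c).card + ((crs M c).filter (fun e => b e = c (pos M e false))).card := by
  unfold dbl crs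
  rw [card_filter_pos, Finset.filter_filter, Finset.card_filter, Finset.card_filter,
    ← Finset.sum_add_distrib]
  apply Finset.sum_congr rfl
  intro e _
  rw [pbit_pos, pbit_pos]
  cases c (pos M e false) <;> cases c (pos M e true) <;> cases b e <;> simp

/-- the number of coin vectors for which the new column meets a balanced colour class in exactly
half of its points -/
theorem coin_count (M : ℕ) (hM : Even M) (c : Fin (2 * M) → Bool)
    (hc : (univ.filter (fun y => c y = true)).card = M) :
    (univ.filter (fun b : Fin M → Bool =>
      2 * (univ.filter (fun y => c y = true ∧ pbit M b y = true)).card = M)).card =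
      (crs M c).card.choose ((crs M c).card / 2) * 2 ^ (M - (crs M c).card) := by
  have h1 := card_true M c
  rw [hc] at h1
  have hev : Even (crs M c).card := by
    have : Even (2 * (dbl M c).card + (crs M c).card) := h1 ▸ hM
    exact (Nat.even_add.1 this).1 (even_two_mul _)
  obtain ⟨q, hq⟩ := hev
  have h2 := card_agree (crs M c) (fun e => c (pos M e false)) ((crs M c).card / 2)
  rw [Fintype.card_fin] at h2
  rw [← h2]
  congr 1
  apply Finset.filter_congr
  intro b _
  rw [card_true_pbit]
  constructor
  · intro h
    omega
  · intro h
    omega

theorem sum_bitChan (M : ℕ) (h : Equiv.Perm (Fin (2 * M))) (F : (Fin (2 * M) → Bool) → ℝ) :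
    ∑ τ, bitChan M h τ * F τ = (∑ b : Fin M → Bool, F (newBit M h b)) / 2 ^ M := by
  unfold bitChan
  simp only [Finset.card_filter, Nat.cast_sum, Nat.cast_ite, Nat.cast_one, Nat.cast_zero,
    div_mul_eq_mul_div, Finset.sum_mul]
  rw [← Finset.sum_div, Finset.sum_comm]
  congr 1
  apply Finset.sum_congr rfl
  intro b _
  simp [ite_mul]

/-- number of pairs of the shuffle (positions `e`, `e + M`) whose two cards have different colours,
when card `x` sits at position `h x` -/
def crossH (M : ℕ) (h : Equiv.Perm (Fin (2 * M))) (c : Fin (2 * M) → Bool) : ℕ :=
  (univ.filter (fun e : Fin M => c (h.symm (pos M e false)) ≠ c (h.symm (pos M e true)))).card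

theorem crossH_le (M : ℕ) (h : Equiv.Perm (Fin (2 * M))) (c : Fin (2 * M) → Bool) :
    crossH M h c ≤ M := by
  unfold crossH
  calc _ ≤ (univ : Finset (Fin M)).card := Finset.card_le_card (Finset.filter_subset _ _)
    _ = M := by simp

/-- THE SMOOTHING IDENTITY. -/
theorem coin (M : ℕ) (hM : Even M) (h : Equiv.Perm (Fin (2 * M))) (c : Fin (2 * M) → Bool)
    (hc : (univ.filter (fun x => c x = true)).card = M) :
    ∑ τ : Fin (2 * M) → Bool, bitChan M h τ *
        (if 2 * (univ.filter (fun x => c x = true ∧ τ x = true)).card = M then 1 else 0) =
      ((crossH M h c).choose (crossH M h c / 2) : ℝ) / 2 ^ (crossH M h c) := by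
  rw [sum_bitChan]
  have hre : ∀ P : Fin (2 * M) → Prop, ∀ [DecidablePred P],
      (univ.filter (fun x => P (h x))).card = (univ.filter P).card := by
    intro P _
    rw [Finset.card_filter, Finset.card_filter]
    exact Equiv.sum_comp h (fun y => if P y then 1 else 0)
  have hc' : (univ.filter (fun y => (c ∘ h.symm) y = true)).card = M := by
    rw [← hre (fun y => (c ∘ h.symm) y = true)]
    simpa using hc
  have hcount := coin_count M hM (c ∘ h.symm) hc'
  have hX : (crs M (c ∘ h.symm)).card = crossH M h c := rfl
  rw [hX] at hcount
  have hsum : (∑ b : Fin M → Bool,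
      (if 2 * (univ.filter (fun x => c x = true ∧ newBit M h b x = true)).card = M
        then (1 : ℝ) else 0)) =
      ((crossH M h c).choose (crossH M h c / 2) * 2 ^ (M - crossH M h c) : ℕ) := by
    rw [← hcount, Finset.card_filter]
    push_cast
    apply Finset.sum_congr rfl
    intro b _
    have : (univ.filter (fun x => c x = true ∧ newBit M h b x = true)).card =
        (univ.filter (fun y => (c ∘ h.symm) y = true ∧ pbit M b y = true)).card := by
      rw [← hre (fun y => (c ∘ h.symm) y = true ∧ pbit M b y = true)]
      apply congrArg Finset.card
      ext x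
      simp only [Finset.mem_filter, Finset.mem_univ, true_and]
      simp [newBit_eq_pbit]
    rw [this]
  rw [hsum]
  have hle := crossH_le M h c
  have h2 : (2 : ℝ) ^ M = 2 ^ (crossH M h c) * 2 ^ (M - crossH M h c) := by
    rw [← pow_add]
    congr 1
    omega
  rw [h2]
  push_cast
  field_simp

end Vale.Agent.P162.SB.Coin
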