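import Vale.Agent.P162.SB.Defs
import Vale.Agent.P162.KL.Cond

namespace Vale.Agent.P162.SB

open Finset Real Vale.Agent.P162 Vale.Agent.P162.KL

section fib

variable {Om A X : Type*} [Fintype Om] [Fintype A] [DecidableEq A] [Fintype X]

/-- the law `μ` conditioned on the fibre `f = a` -/
noncomputable def rs (f : Om → A) (μ : Om → ℝ) (a : A) : {w : Om // f w = a} → ℝ :=
  fun w => μ w.1 / KL.pm μ f a

theorem rs_zero_of (f : Om → A) (μ : Om → ℝ) (hμ : IsLaw μ) (a : A) (h0 : KL.pm μ f a = 0)
    (w : {w : Om // f w = a}) : μ w.1 = 0 := by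
  have hmsum : ∑ w : {w : Om // f w = a}, μ w.1 = KL.pm μ f a := sum_fibre f μ a
  have := (Finset.sum_eq_zero_iff_of_nonneg
    (fun (w : {w : Om // f w = a}) _ => hμ.1 w.1)).1 (hmsum.trans h0)
  exact this w (Finset.mem_univ _)

theorem fib_zero (f : Om → A) (W : Om → X → ℝ) (μ : Om → ℝ) (hμ : IsLaw μ) (a : A)
    (h0 : KL.pm μ f a = 0) (x : X) : joint f W μ (a, x) = 0 := by
  rw [joint_eq_sum_fibre]
  exact Finset.sum_eq_zero fun w _ => by rw [rs_zero_of f μ hμ a h0 w, zero_mul]

theorem rs_isLaw (f : Om → A) (μ : Om → ℝ) (hμ : IsLaw μ) (a : A) (hpos : 0 < KL.pm μ f a) :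
    IsLaw (rs f μ a) := by
  have hmsum : ∑ w : {w : Om // f w = a}, μ w.1 = KL.pm μ f a := sum_fibre f μ a
  refine ⟨fun w => div_nonneg (hμ.1 w.1) hpos.le, ?_⟩
  show ∑ w : {w : Om // f w = a}, μ w.1 / KL.pm μ f a = 1
  rw [← Finset.sum_div, hmsum, div_self hpos.ne']

theorem fib_nonempty (f : Om → A) (μ : Om → ℝ) (a : A) (hpos : 0 < KL.pm μ f a) :
    Nonempty {w : Om // f w = a} := by
  have hmsum : ∑ w : {w : Om // f w = a}, μ w.1 = KL.pm μ f a := sum_fibre f μ a
  by_contra hcon
  rw [not_nonempty_iff] at hcon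
  rw [Finset.sum_of_isEmpty] at hmsum
  exact hpos.ne hmsum

theorem pm_unif_val (f : Om → A) (a : A) :
    KL.pm (unif Om) f a = (Fintype.card {w : Om // f w = a} : ℝ) / (Fintype.card Om : ℝ) := by
  unfold KL.pm
  rw [← sum_fibre f (unif Om) a]
  simp only [unif, Finset.sum_const, Finset.card_univ, nsmul_eq_mul]
  ring

/-- one fibre of a joint law: scaling -/
theorem fib_scale (f : Om → A) (W : Om → X → ℝ) (hW : IsChan W) (μ : Om → ℝ) (hμ : IsLaw μ)
    (a : A) (hpos : 0 < KL.pm μ f a) :
    ∑ x, joint f W μ (a, x) * Real.log (joint f W μ (a, x) / joint f W (unif Om) (a, x))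
      = KL.pm μ f a * Real.log (KL.pm μ f a / KL.pm (unif Om) f a)
        + KL.pm μ f a * kl (push (fun (w : {w : Om // f w = a}) (x : X) => W w.1 x) (rs f μ a))
            (push (fun (w : {w : Om // f w = a}) (x : X) => W w.1 x)
              (unif {w : Om // f w = a})) := by
  set m : ℝ := KL.pm μ f a with hm
  have hne : Nonempty {w : Om // f w = a} := fib_nonempty f μ a hpos
  have hneO : Nonempty Om := ⟨(Classical.choice hne).1⟩
  set c : ℝ := (Fintype.card {w : Om // f w = a} : ℝ) with hc
  set N : ℝ := (Fintype.card Om : ℝ) with hN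
  have hcpos : 0 < c := by
    rw [hc]; exact_mod_cast Fintype.card_pos
  have hNpos : 0 < N := by
    rw [hN]; exact_mod_cast Fintype.card_pos
  set n : ℝ := KL.pm (unif Om) f a with hn
  have hnval : n = c / N := pm_unif_val f a
  have hnpos : 0 < n := by rw [hnval]; positivity
  set Ka : {w : Om // f w = a} → X → ℝ := fun w b => W w.1 b with hKadef
  have hKa : IsChan Ka := fun w => hW w.1
  set p : {w : Om // f w = a} → ℝ := rs f μ a with hpdef
  have hp : IsLaw p := rs_isLaw f μ hμ a hpos
  have hu1 : ∀ w : {w : Om // f w = a}, 0 < unif {w : Om // f w = a} w := by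
    intro w
    simp only [unif]
    rw [← hc]
    positivity
  have hP : IsLaw (push Ka p) := push_isLaw Ka hKa p hp
  have e1 : ∀ b, joint f W μ (a, b) = m * push Ka p b := by
    intro b
    rw [joint_eq_sum_fibre]
    unfold push
    rw [Finset.mul_sum]
    refine Finset.sum_congr rfl fun w _ => ?_
    show μ w.1 * W w.1 b = m * (μ w.1 / m * W w.1 b)
    field_simp
  have e2 : ∀ b, joint f W (unif Om) (a, b) = n * push Ka (unif {w : Om // f w = a}) b := by
    intro b
    rw [joint_eq_sum_fibre]
    unfold push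
    rw [Finset.mul_sum]
    refine Finset.sum_congr rfl fun w _ => ?_
    show unif Om w.1 * W w.1 b = n * (unif {w : Om // f w = a} w * W w.1 b)
    simp only [unif]
    rw [hnval, ← hc, ← hN]
    field_simp
  have hac1 : ∀ b, push Ka (unif {w : Om // f w = a}) b = 0 → push Ka p b = 0 := by
    intro b hb
    unfold push at hb ⊢
    have hz := (Finset.sum_eq_zero_iff_of_nonneg
      (fun (w : {w : Om // f w = a}) _ => mul_nonneg (hu1 w).le ((hKa w).1 b))).1 hb
    refine Finset.sum_eq_zero fun w hw => ?_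
    have h1 := hz w hw
    rw [(mul_eq_zero.1 h1).resolve_left (hu1 w).ne', mul_zero]
  have := sum_scale (push Ka p) (push Ka (unif {w : Om // f w = a})) m n hpos hnpos hac1
  rw [hP.2, mul_one] at this
  rw [← kl.eq_1 (push Ka p)] at this
  rw [← this]
  refine Finset.sum_congr rfl fun b _ => ?_
  rw [e1 b, e2 b]

/-- one fibre of the input law: scaling -/
theorem fib_scale_in (f : Om → A) (μ : Om → ℝ) (hμ : IsLaw μ) (a : A) (hpos : 0 < KL.pm μ f a) :
    ∑ w ∈ Finset.univ.filter (fun w => f w = a), μ w * Real.log (μ w / unif Om w)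
      = KL.pm μ f a * Real.log (KL.pm μ f a / KL.pm (unif Om) f a)
        + KL.pm μ f a * kl (rs f μ a) (unif {w : Om // f w = a}) := by
  set m : ℝ := KL.pm μ f a with hm
  have hne : Nonempty {w : Om // f w = a} := fib_nonempty f μ a hpos
  have hneO : Nonempty Om := ⟨(Classical.choice hne).1⟩
  set c : ℝ := (Fintype.card {w : Om // f w = a} : ℝ) with hc
  set N : ℝ := (Fintype.card Om : ℝ) with hN
  have hcpos : 0 < c := by
    rw [hc]; exact_mod_cast Fintype.card_pos
  have hNpos : 0 < N := by
    rw [hN]; exact_mod_cast Fintype.card_pos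
  set n : ℝ := KL.pm (unif Om) f a with hn
  have hnval : n = c / N := pm_unif_val f a
  have hnpos : 0 < n := by rw [hnval]; positivity
  set p : {w : Om // f w = a} → ℝ := rs f μ a with hpdef
  have hp : IsLaw p := rs_isLaw f μ hμ a hpos
  have hac2 : ∀ w, unif {w : Om // f w = a} w = 0 → p w = 0 := by
    intro w hw
    exfalso
    simp only [unif] at hw
    rw [← hc] at hw
    have : (1 : ℝ) / c ≠ 0 := by positivity
    exact this hw
  have := sum_scale p (unif {w : Om // f w = a}) m n hpos hnpos hac2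
  rw [hp.2, mul_one] at this
  rw [← kl.eq_1 p] at this
  rw [← this, ← sum_fibre f (fun w => μ w * Real.log (μ w / unif Om w)) a]
  refine Finset.sum_congr rfl fun w _ => ?_
  have h1 : m * p w = μ w.1 := by
    show m * (μ w.1 / m) = μ w.1
    field_simp
  have h2 : n * unif {w : Om // f w = a} w = unif Om w.1 := by
    simp only [unif]
    rw [hnval, ← hc, ← hN]
    field_simp
  rw [h1, h2]

end fib

section kernels

variable {Om B C : Type*} [Fintype Om] [Fintype B] [DecidableEq B] [Fintype C]

/-- the deterministic channel of a function -/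
def detK (β : Om → B) : Om → B → ℝ := fun w b => if β w = b then 1 else 0

/-- the channel `(β, K)` -/
def pairK (β : Om → B) (K : Om → C → ℝ) : Om → B × C → ℝ :=
  fun w bc => if β w = bc.1 then K w bc.2 else 0

omit [Fintype Om] in
theorem isChan_detK (β : Om → B) : IsChan (detK β) := by
  intro w
  refine ⟨fun b => ?_, ?_⟩
  · unfold detK
    split_ifs <;> norm_num
  · unfold detK
    simp

omit [Fintype Om] in
theorem isChan_pairK (β : Om → B) (K : Om → C → ℝ) (hK : IsChan K) : IsChan (pairK β K) := by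
  intro w
  refine ⟨fun b => ?_, ?_⟩
  · unfold pairK
    split_ifs
    · exact (hK w).1 _
    · exact le_rfl
  · unfold pairK
    rw [Fintype.sum_prod_type]
    simp only
    rw [Finset.sum_eq_single (β w)]
    · simp [(hK w).2]
    · intro b _ hb
      simp [Ne.symm hb]
    · simp

theorem pm_eq_push (β : Om → B) (p : Om → ℝ) : KL.pm p β = push (detK β) p := by
  funext b
  unfold KL.pm push detK
  rw [Finset.sum_filter]
  refine Finset.sum_congr rfl fun w _ => ?_
  split_ifs <;> simp

theorem joint_eq_push (β : Om → B) (K : Om → C → ℝ) (p : Om → ℝ) :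
    joint β K p = push (pairK β K) p := by
  funext bc
  unfold joint push pairK
  refine Finset.sum_congr rfl fun w _ => ?_
  split_ifs <;> simp

end kernels

section main

variable {Om A B C : Type*} [Fintype Om] [Fintype A] [DecidableEq A] [Fintype B]
    [DecidableEq B] [Fintype C]

theorem pm_pair_eq (f : Om → A) (β : Om → B) (μ : Om → ℝ) (a : A) (b : B) :
    KL.pm μ (fun ω => (f ω, β ω)) (a, b) = joint f (detK β) μ (a, b) := by
  unfold KL.pm joint detK
  rw [Finset.sum_filter]
  refine Finset.sum_congr rfl fun w _ => ?_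
  by_cases h1 : f w = a <;> by_cases h2 : β w = b <;> simp [h1, h2]

theorem joint_pair_eq (f : Om → A) (β : Om → B) (K : Om → C → ℝ) (μ : Om → ℝ) (a : A) (b : B)
    (c : C) :
    joint (fun ω => (f ω, β ω)) K μ ((a, b), c) = joint f (pairK β K) μ (a, (b, c)) := by
  unfold joint pairK
  refine Finset.sum_congr rfl fun w _ => ?_
  by_cases h1 : f w = a <;> by_cases h2 : β w = b <;> simp [h1, h2]

/-- the contribution of one fibre -/
theorem cond_sb_fibre (f : Om → A) (β : Om → B) (K : Om → C → ℝ) (hK : IsChan K) (θ : ℝ) (a : A)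
    (hfib : SB (fun ω : {ω : Om // f ω = a} => β ω.1) (fun ω : {ω : Om // f ω = a} => K ω.1) θ)
    (μ : Om → ℝ) (hμ : IsLaw μ) :
    ∑ b, joint f (detK β) μ (a, b)
        * Real.log (joint f (detK β) μ (a, b) / joint f (detK β) (unif Om) (a, b))
      + ∑ c, joint f K μ (a, c) * Real.log (joint f K μ (a, c) / joint f K (unif Om) (a, c))
      ≤ KL.pm μ f a * Real.log (KL.pm μ f a / KL.pm (unif Om) f a)
        + ∑ x, joint f (pairK β K) μ (a, x)
          * Real.log (joint f (pairK β K) μ (a, x) / joint f (pairK β K) (unif Om) (a, x))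
        + θ * (∑ w ∈ Finset.univ.filter (fun w => f w = a), μ w * Real.log (μ w / unif Om w)
          - KL.pm μ f a * Real.log (KL.pm μ f a / KL.pm (unif Om) f a)) := by
  have hm0 : 0 ≤ KL.pm μ f a := pm_nonneg μ hμ.1 f a
  rcases hm0.eq_or_lt with h0 | hpos
  · have h0' : KL.pm μ f a = 0 := h0.symm
    have h2 : ∑ w ∈ Finset.univ.filter (fun w => f w = a), μ w * Real.log (μ w / unif Om w)
        = 0 := by
      rw [← sum_fibre f (fun w => μ w * Real.log (μ w / unif Om w)) a]
      exact Finset.sum_eq_zero fun w _ => by rw [rs_zero_of f μ hμ a h0' w, zero_mul]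
    rw [h2, h0']
    simp [fib_zero f _ μ hμ a h0']
  · rw [fib_scale f (detK β) (isChan_detK β) μ hμ a hpos, fib_scale f K hK μ hμ a hpos,
      fib_scale f (pairK β K) (isChan_pairK β K hK) μ hμ a hpos, fib_scale_in f μ hμ a hpos]
    have hS := hfib (rs f μ a) (rs_isLaw f μ hμ a hpos)
    unfold Dv at hS
    rw [pm_eq_push, pm_eq_push, joint_eq_push, joint_eq_push] at hS
    have h3 := mul_le_mul_of_nonneg_left hS hm0
    have e1 : (fun (w : {w : Om // f w = a}) (x : B) => detK β w.1 x)
        = detK (fun ω : {ω : Om // f ω = a} => β ω.1) := rfl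
    have e2 : (fun (w : {w : Om // f w = a}) (x : B × C) => pairK β K w.1 x)
        = pairK (fun ω : {ω : Om // f ω = a} => β ω.1) (fun ω : {ω : Om // f ω = a} => K ω.1) :=
      rfl
    rw [e1, e2]
    nlinarith [h3]

/-- chain rule + SB on every fibre of `f` (same pattern as `KL.cond_sdpi`): each of the four
divergences is `Dv μ unif f + ∑_a P(f = a) * (divergence on the fibre)`. -/
theorem cond_sb {Om A B C : Type*} [Fintype Om] [Fintype A] [DecidableEq A] [Fintype B]
    [DecidableEq B] [Fintype C]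
    (f : Om → A) (β : Om → B) (K : Om → C → ℝ) (hK : IsChan K) (θ : ℝ)
    (hfib : ∀ a : A, SB (fun ω : {ω : Om // f ω = a} => β ω.1)
      (fun ω : {ω : Om // f ω = a} => K ω.1) θ)
    (μ : Om → ℝ) (hμ : IsLaw μ) :
    Dv μ (unif Om) (fun ω => (f ω, β ω)) + kl (joint f K μ) (joint f K (unif Om)) ≤
      Dv μ (unif Om) f +
        kl (joint (fun ω => (f ω, β ω)) K μ) (joint (fun ω => (f ω, β ω)) K (unif Om)) +
        θ * (kl μ (unif Om) - Dv μ (unif Om) f) := by
  have h0 : Dv μ (unif Om) (fun ω => (f ω, β ω))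
      = ∑ a, ∑ b, joint f (detK β) μ (a, b)
        * Real.log (joint f (detK β) μ (a, b) / joint f (detK β) (unif Om) (a, b)) := by
    unfold Dv kl
    rw [Fintype.sum_prod_type]
    refine Finset.sum_congr rfl fun a _ => Finset.sum_congr rfl fun b _ => ?_
    rw [pm_pair_eq, pm_pair_eq]
  have h1 : kl (joint f K μ) (joint f K (unif Om))
      = ∑ a, ∑ b, joint f K μ (a, b)
          * Real.log (joint f K μ (a, b) / joint f K (unif Om) (a, b)) := by
    unfold kl
    rw [Fintype.sum_prod_type]
  have h2 : kl μ (unif Om)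
      = ∑ a, ∑ w ∈ Finset.univ.filter (fun w => f w = a), μ w * Real.log (μ w / unif Om w) := by
    unfold kl
    exact (Finset.sum_fiberwise Finset.univ f _).symm
  have h3 : kl (joint (fun ω => (f ω, β ω)) K μ) (joint (fun ω => (f ω, β ω)) K (unif Om))
      = ∑ a, ∑ x, joint f (pairK β K) μ (a, x)
          * Real.log (joint f (pairK β K) μ (a, x) / joint f (pairK β K) (unif Om) (a, x)) := by
    unfold kl
    rw [Fintype.sum_prod_type, Fintype.sum_prod_type]
    refine Finset.sum_congr rfl fun a _ => ?_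
    rw [Fintype.sum_prod_type]
    refine Finset.sum_congr rfl fun b _ => Finset.sum_congr rfl fun c _ => ?_
    rw [joint_pair_eq, joint_pair_eq]
  have h4 : Dv μ (unif Om) f = ∑ a, KL.pm μ f a * Real.log (KL.pm μ f a / KL.pm (unif Om) f a) := rfl
  rw [h0, h1, h2, h3, h4, ← Finset.sum_sub_distrib, Finset.mul_sum, ← Finset.sum_add_distrib,
    ← Finset.sum_add_distrib, ← Finset.sum_add_distrib]
  exact Finset.sum_le_sum fun a _ => cond_sb_fibre f β K hK θ a (hfib a) μ hμ

end main

end Vale.Agent.P162.SB
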