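import Vale.Agent.P162.SB.Defs

namespace Vale.Agent.P162.SB

open Finset Real

/-- a permutation transporting the colouring `f` to `g` when all fibre cards agree -/
lemma exists_perm_colour {X Cc : Type*} [Fintype X] [DecidableEq X] [Fintype Cc] [DecidableEq Cc]
    (f g : X → Cc)
    (hc : ∀ c, (Finset.univ.filter (fun x => f x = c)).card =
          (Finset.univ.filter (fun x => g x = c)).card) :
    ∃ h0 : Equiv.Perm X, g ∘ h0 = f := by
  have he : ∀ c, Nonempty ({x // f x = c} ≃ {x // g x = c}) := by
    intro c
    apply Fintype.card_eq.mp
    rw [Fintype.card_subtype, Fintype.card_subtype]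
    exact hc c
  choose e _ using fun c => (⟨(he c).some, trivial⟩ : ∃ _ : {x // f x = c} ≃ {x // g x = c}, True)
  refine ⟨((Equiv.sigmaFiberEquiv f).symm.trans (Equiv.sigmaCongrRight e)).trans
    (Equiv.sigmaFiberEquiv g), ?_⟩
  funext x
  simp only [Function.comp_apply, Equiv.trans_apply, Equiv.sigmaCongrRight_apply,
    Equiv.sigmaFiberEquiv_apply]
  exact ((e (f x)) ⟨x, rfl⟩).2

/-- number of permutations with a prescribed colouring (e.g. via `DomMulAct.stabilizer_card`; if the
fibre cards agree pick one `h0` with `g ∘ h0 = f`, then `h ↦ h0⁻¹ * h` maps the set onto the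
stabiliser of `f`) -/
theorem card_perm_colour {X Cc : Type*} [Fintype X] [DecidableEq X] [Fintype Cc] [DecidableEq Cc]
    (f g : X → Cc) :
    (Finset.univ.filter (fun h : Equiv.Perm X => g ∘ h = f)).card =
      if (∀ c, (Finset.univ.filter (fun x => f x = c)).card =
          (Finset.univ.filter (fun x => g x = c)).card)
      then ∏ c, ((Finset.univ.filter (fun x => f x = c)).card).factorial else 0 := by
  split_ifs with hc
  · obtain ⟨h0, hh0⟩ := exists_perm_colour f g hc
    have h1 : (Finset.univ.filter (fun h : Equiv.Perm X => g ∘ h = f)).card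
        = (Finset.univ.filter (fun k : Equiv.Perm X => f ∘ k = f)).card := by
      apply Finset.card_bij (fun h _ => h0⁻¹ * h)
      · intro h hh
        simp only [Finset.mem_filter, Finset.mem_univ, true_and] at hh ⊢
        funext x
        have e1 : f ((h0⁻¹ * h) x) = g (h0 ((h0⁻¹ * h) x)) := by
          rw [← hh0]
          rfl
        rw [Function.comp_apply, e1]
        have e2 : h0 ((h0⁻¹ * h) x) = h x := by
          rw [Equiv.Perm.mul_apply, Equiv.Perm.inv_def, Equiv.apply_symm_apply]
        rw [e2]
        exact congrFun hh x
      · intro a _ b _ hab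
        exact mul_left_cancel hab
      · intro k hk
        simp only [Finset.mem_filter, Finset.mem_univ, true_and] at hk
        refine ⟨h0 * k, ?_, by simp⟩
        simp only [Finset.mem_filter, Finset.mem_univ, true_and]
        funext x
        have e1 : g ((h0 * k) x) = (g ∘ h0) (k x) := rfl
        rw [Function.comp_apply, e1, hh0]
        exact congrFun hk x
    rw [h1, ← Fintype.card_subtype, DomMulAct.stabilizer_card f]
    apply Finset.prod_congr rfl
    intro c _
    rw [Fintype.card_subtype]
  · rw [Finset.card_eq_zero, Finset.filter_eq_empty_iff]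
    intro h _ hh
    apply hc
    intro c
    apply Finset.card_bij (fun x _ => h x)
    · intro x hx
      simp only [Finset.mem_filter, Finset.mem_univ, true_and] at hx ⊢
      rw [← hx, ← hh]
      rfl
    · intro a _ b _ hab
      exact h.injective hab
    · intro y hy
      simp only [Finset.mem_filter, Finset.mem_univ, true_and] at hy
      refine ⟨h.symm y, ?_, by simp⟩
      simp only [Finset.mem_filter, Finset.mem_univ, true_and]
      rw [← hh, Function.comp_apply, Equiv.apply_symm_apply]
      exact hy

end Vale.Agent.P162.SB
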