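import Vale.Agent.P162.SB.Defs
import Vale.Agent.P162.KL.BitChan
import Vale.Agent.P162.Thorp

namespace Vale.Agent.P162.SB

open Finset Real Vale.Agent.P162 Vale.Agent.P162.KL

/-- number of elements of `Fin (q * K)` in a given residue class modulo `q` -/
theorem card_fin_mod (n q K r : ℕ) (hn : n = q * K) (hr : r < q) :
    (Finset.univ.filter (fun y : Fin n => y.val % q = r)).card = K := by
  subst hn
  have hb : ∀ i : Fin K, q * i.val + r < q * K := fun i => by
    have := i.2
    calc q * i.val + r < q * i.val + q := by omega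
      _ = q * (i.val + 1) := by ring
      _ ≤ q * K := Nat.mul_le_mul_left q (by omega)
  have hset : Finset.univ.filter (fun y : Fin (q * K) => y.val % q = r) =
      (Finset.univ : Finset (Fin K)).image (fun i => (⟨q * i.val + r, hb i⟩ : Fin (q * K))) := by
    ext y
    simp only [Finset.mem_filter, Finset.mem_univ, true_and, Finset.mem_image]
    constructor
    · intro hy
      refine ⟨⟨y.val / q, Nat.div_lt_of_lt_mul y.2⟩, ?_⟩
      apply Fin.ext
      simp only
      rw [← hy]
      exact Nat.div_add_mod y.val q
    · rintro ⟨i, rfl⟩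
      simp only
      rw [Nat.mul_add_mod, Nat.mod_eq_of_lt hr]
  rw [hset, Finset.card_image_of_injective, Finset.card_univ, Fintype.card_fin]
  intro i j hij
  have h1 : q * i.val + r = q * j.val + r := congrArg Fin.val hij
  have hq : 0 < q := by omega
  apply Fin.ext
  exact Nat.eq_of_mul_eq_mul_left hq (by omega)

/-- a permutation does not change the number of points with a given property of the image -/
theorem card_filter_perm {n : ℕ} (h : Equiv.Perm (Fin n)) (p : Fin n → Prop) [DecidablePred p] :
    (Finset.univ.filter (fun x => p (h x))).card = (Finset.univ.filter p).card :=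
  Finset.card_equiv h (fun x => by simp)

/-- the new bit is the lowest bit of the new position -/
theorem newBit_eq_lowCol (M : ℕ) (h : Equiv.Perm (Fin (2 * M))) (b : Fin M → Bool) :
    newBit M h b = lowCol M (thorpPerm M b * h) := by
  rfl

/-- for even `M` the old lowest bit is bit number one of the new position -/
theorem lowCol_eq_bit_one (M : ℕ) (hM : Even M) (h : Equiv.Perm (Fin (2 * M))) (b : Fin M → Bool)
    (x : Fin (2 * M)) :
    lowCol M h x = decide (((thorpPerm M b * h) x).val / 2 % 2 = 1) := by
  obtain ⟨c, hc, hv⟩ := Vale.Agent.P162.thorpMap_val M b (h x)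
  have e : ((thorpPerm M b * h) x).val = 2 * ((h x).val % M) + c := hv
  have h2 : (2 * ((h x).val % M) + c) / 2 = (h x).val % M := by omega
  have h3 : (h x).val % M % 2 = (h x).val % 2 := Nat.mod_mod_of_dvd _ hM.two_dvd
  unfold lowCol
  rw [e, h2, h3]

/-- the lowest-bit column of a permutation is balanced -/
theorem bal_lowCol (M : ℕ) (h : Equiv.Perm (Fin (2 * M))) : Bal M (lowCol M h) := by
  unfold Bal lowCol
  have h1 : (Finset.univ.filter (fun x : Fin (2 * M) => decide ((h x).val % 2 = 1) = true)) =
      Finset.univ.filter (fun x : Fin (2 * M) => (h x).val % 2 = 1) := by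
    ext x
    simp
  rw [h1, card_filter_perm h (fun y => y.val % 2 = 1)]
  exact card_fin_mod (2 * M) 2 M 1 rfl (by norm_num)

/-- a column of positive probability is a column of new bits -/
theorem exists_coins_of_bitChan (M : ℕ) (h : Equiv.Perm (Fin (2 * M)))
    (c : Fin (2 * M) → Bool) (hc : bitChan M h c ≠ 0) : ∃ b, newBit M h b = c := by
  unfold bitChan at hc
  have h1 : (Finset.univ.filter (fun b : Fin M → Bool => newBit M h b = c)).card ≠ 0 := by
    intro h0
    rw [h0] at hc
    simp at hc
  obtain ⟨b, hb⟩ := Finset.card_pos.mp (Nat.pos_of_ne_zero h1)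
  exact ⟨b, (Finset.mem_filter.1 hb).2⟩

/-- (H1) the new-bit column is in shell position w.r.t. the lowest-bit column: with
`h' = thorpPerm M b * h` the common `true` entries are the `x` with `(h' x) % 4 = 3` -/
theorem shell_of_bitChan (M : ℕ) (hM : Even M) (h : Equiv.Perm (Fin (2 * M)))
    (c : Fin (2 * M) → Bool) (hc : bitChan M h c ≠ 0) : shell M (lowCol M h) c := by
  obtain ⟨b, rfl⟩ := exists_coins_of_bitChan M h c hc
  unfold shell
  have h1 : (Finset.univ.filter (fun x : Fin (2 * M) =>
      lowCol M h x = true ∧ newBit M h b x = true)) =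
      Finset.univ.filter (fun x : Fin (2 * M) => ((thorpPerm M b * h) x).val % 4 = 3) := by
    ext x
    simp only [Finset.mem_filter, Finset.mem_univ, true_and]
    rw [newBit_eq_lowCol, lowCol_eq_bit_one M hM h b x]
    unfold lowCol
    simp only [decide_eq_true_eq]
    omega
  rw [h1, card_filter_perm (thorpPerm M b * h) (fun y => y.val % 4 = 3)]
  obtain ⟨k, hk⟩ := hM
  have h2 : M / 2 = k := by omega
  rw [h2]
  exact card_fin_mod (2 * M) 4 k 3 (by omega) (by norm_num)

/-- the new-bit column is balanced -/
theorem bal_of_bitChan (M : ℕ) (h : Equiv.Perm (Fin (2 * M)))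
    (c : Fin (2 * M) → Bool) (hc : bitChan M h c ≠ 0) : Bal M c := by
  obtain ⟨b, rfl⟩ := exists_coins_of_bitChan M h c hc
  rw [newBit_eq_lowCol]
  exact bal_lowCol M _

end Vale.Agent.P162.SB
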