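import Vale.Agent.P162.SB.Rho

/-!
# P162 : the three reference laws (lowest bit column, new bit column, both)
-/

namespace Vale.Agent.P162.SBR

open Finset Nat Vale.Agent.P162.KL

theorem card_G (M : ℕ) : (Fintype.card (Equiv.Perm (Fin (2 * M))) : ℝ) = ((2 * M)! : ℝ) := by
  rw [Fintype.card_perm, Fintype.card_fin]

/-- law of the column of lowest bits -/
theorem pm_lowB (M : ℕ) (b : Fin (2 * M) → Bool) :
    pm (unif (Equiv.Perm (Fin (2 * M)))) (lowB M) b =
      if KL.Bal M b then ((M ! : ℝ)) ^ 2 / ((2 * M)! : ℝ) else 0 := by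
  unfold pm unif
  rw [Finset.sum_const, card_low, card_G, nsmul_eq_mul]
  split_ifs
  · push_cast
    ring
  · simp

/-- law of the column of new bits -/
theorem push_bitChan (M : ℕ) (c : Fin (2 * M) → Bool) :
    push (bitChan M) (unif (Equiv.Perm (Fin (2 * M)))) c =
      if KL.Bal M c then ((M ! : ℝ)) ^ 2 / ((2 * M)! : ℝ) else 0 := by
  unfold push unif
  simp only [bitChan_eq_sum, Finset.mul_sum]
  rw [Finset.sum_comm]
  have hb : ∀ e : Fin M → Bool, ∑ h : Equiv.Perm (Fin (2 * M)),
      1 / (Fintype.card (Equiv.Perm (Fin (2 * M))) : ℝ) *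
        (1 / 2 ^ M * (if newBit M h e = c then (1 : ℝ) else 0)) =
      (1 / 2 ^ M) * (if KL.Bal M c then ((M ! : ℝ)) ^ 2 / ((2 * M)! : ℝ) else 0) := by
    intro e
    simp only [← Finset.mul_sum]
    rw [Finset.sum_boole, card_new, card_G]
    split_ifs
    · push_cast
      ring
    · simp
  simp only [hb]
  rw [Finset.sum_const, Finset.card_univ, Fintype.card_fun, Fintype.card_bool, Fintype.card_fin,
    nsmul_eq_mul]
  push_cast
  field_simp

/-- joint law of the two columns -/
theorem joint_lowB (M : ℕ) (hM : Even M) (b c : Fin (2 * M) → Bool) :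
    joint (lowB M) (bitChan M) (unif (Equiv.Perm (Fin (2 * M)))) (b, c) =
      if Q4 M b c then (((M / 2)! : ℝ)) ^ 4 / ((2 * M)! : ℝ) else 0 := by
  unfold joint unif
  have h0 : ∀ h : Equiv.Perm (Fin (2 * M)),
      (if lowB M h = b then 1 / (Fintype.card (Equiv.Perm (Fin (2 * M))) : ℝ) * bitChan M h c
        else 0) =
      ∑ e : Fin M → Bool, 1 / (Fintype.card (Equiv.Perm (Fin (2 * M))) : ℝ) *
        (1 / 2 ^ M * (if lowB M h = b ∧ newBit M h e = c then (1 : ℝ) else 0)) := by
    intro h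
    by_cases hb : lowB M h = b
    · simp only [hb, if_true, true_and, bitChan_eq_sum, Finset.mul_sum]
    · simp [hb]
  simp only [h0]
  rw [Finset.sum_comm]
  have hb : ∀ e : Fin M → Bool, ∑ h : Equiv.Perm (Fin (2 * M)),
      1 / (Fintype.card (Equiv.Perm (Fin (2 * M))) : ℝ) *
        (1 / 2 ^ M * (if lowB M h = b ∧ newBit M h e = c then (1 : ℝ) else 0)) =
      (1 / 2 ^ M) * (if Q4 M b c then (((M / 2)! : ℝ)) ^ 4 / ((2 * M)! : ℝ) else 0) := by
    intro e
    simp only [← Finset.mul_sum]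
    rw [Finset.sum_boole, card_joint M hM, card_G]
    split_ifs
    · push_cast
      ring
    · simp
  simp only [hb]
  rw [Finset.sum_const, Finset.card_univ, Fintype.card_fun, Fintype.card_bool, Fintype.card_fin,
    nsmul_eq_mul]
  push_cast
  field_simp

/-- `Q4` in terms of balance and the size of the intersection -/
theorem Q4_iff (M : ℕ) (hM : Even M) (b c : Fin (2 * M) → Bool) :
    Q4 M b c ↔ (KL.Bal M b ∧ KL.Bal M c ∧
      Fintype.card {x // (b x, c x) = (true, true)} = M / 2) := by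
  obtain ⟨k, hk⟩ := hM
  have e1 := cnt_first b c
  have e2 := cnt_second b c
  have e3 := cnt_total b c
  rw [Fintype.card_fin] at e3
  unfold Q4 KL.Bal
  constructor
  · intro h
    have h1 := h (true, true)
    have h2 := h (true, false)
    have h3 := h (false, true)
    simp only [] at h1 h2 h3
    omega
  · rintro ⟨h1, h2, h3⟩ cl
    obtain ⟨u, v⟩ := cl
    cases u <;> cases v <;> simp only [] <;> omega

/-- the constant `beta` -/
noncomputable def bet (M : ℕ) : ℝ :=
  ((M ! : ℝ)) ^ 4 / ((((M / 2)! : ℝ)) ^ 4 * ((2 * M)! : ℝ))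

theorem bet_pos (M : ℕ) : 0 < bet M := by
  unfold bet
  positivity

theorem bet_eq (M : ℕ) (hM : Even M) :
    bet M = ((M.choose (M / 2) : ℝ)) ^ 2 / ((2 * M).choose M : ℝ) := by
  obtain ⟨k, hk⟩ := hM
  have h2 : M / 2 = k := by omega
  have hk2 : M - k = k := by omega
  have hf := Nat.choose_mul_factorial_mul_factorial (show M / 2 ≤ M by omega)
  have hg := Nat.choose_mul_factorial_mul_factorial (show M ≤ 2 * M by omega)
  rw [h2, hk2] at hf
  rw [show 2 * M - M = M by omega] at hg
  have hf' : ((M.choose k : ℝ)) * (k ! : ℝ) * (k ! : ℝ) = (M ! : ℝ) := by exact_mod_cast hf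
  have hg' : (((2 * M).choose M : ℝ)) * (M ! : ℝ) * (M ! : ℝ) = ((2 * M)! : ℝ) := by
    exact_mod_cast hg
  have hk0 : (k ! : ℝ) ≠ 0 := by exact_mod_cast (Nat.factorial_pos _).ne'
  have hM0 : (M ! : ℝ) ≠ 0 := by exact_mod_cast (Nat.factorial_pos _).ne'
  have hc : (((2 * M).choose M : ℝ)) ≠ 0 := by
    exact_mod_cast (Nat.choose_pos (by omega : M ≤ 2 * M)).ne'
  unfold bet
  rw [h2, ← hg', ← hf']
  field_simp

/-- the joint reference law is `1/beta` times the product of its marginals on `Q4`, else `0` -/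
theorem joint_eq_prod (M : ℕ) (hM : Even M) (b c : Fin (2 * M) → Bool) :
    joint (lowB M) (bitChan M) (unif (Equiv.Perm (Fin (2 * M)))) (b, c) =
      (if Q4 M b c then 1 else 0) *
      (pm (unif (Equiv.Perm (Fin (2 * M)))) (lowB M) b *
        push (bitChan M) (unif (Equiv.Perm (Fin (2 * M)))) c / bet M) := by
  rw [joint_lowB M hM, pm_lowB, push_bitChan]
  by_cases hq : Q4 M b c
  · obtain ⟨h1, h2, _⟩ := (Q4_iff M hM b c).1 hq
    rw [if_pos hq, if_pos hq, if_pos h1, if_pos h2]
    have hk0 : (((M / 2)! : ℝ)) ≠ 0 := by exact_mod_cast (Nat.factorial_pos _).ne'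
    have hM0 : (M ! : ℝ) ≠ 0 := by exact_mod_cast (Nat.factorial_pos _).ne'
    have hF : ((2 * M)! : ℝ) ≠ 0 := by exact_mod_cast (Nat.factorial_pos _).ne'
    unfold bet
    field_simp
  · rw [if_neg hq, if_neg hq, zero_mul]

end Vale.Agent.P162.SBR
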