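import Vale.Agent.P162.SB.CountA
import Vale.Agent.P162.SB.CountB
import Vale.Agent.P162.SB.RhoLaw

namespace Vale.Agent.P162.SB

open Finset Real Vale.Agent.P162 Vale.Agent.P162.KL

theorem bal_iff (M : ℕ) (b : Fin (2 * M) → Bool) : Bal M b ↔ KL.Bal M b := by
  unfold Bal KL.Bal
  rw [Fintype.card_subtype]

theorem fact_choose (M : ℕ) :
    ((M.factorial : ℝ)) ^ 2 / ((2 * M).factorial : ℝ) = 1 / ((2 * M).choose M : ℝ) := by
  have hg := Nat.choose_mul_factorial_mul_factorial (show M ≤ 2 * M by omega)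
  rw [show 2 * M - M = M by omega] at hg
  have hg' : (((2 * M).choose M : ℝ)) * (M.factorial : ℝ) * (M.factorial : ℝ) =
      ((2 * M).factorial : ℝ) := by exact_mod_cast hg
  have hM0 : (M.factorial : ℝ) ≠ 0 := by exact_mod_cast (Nat.factorial_pos _).ne'
  have hc : (((2 * M).choose M : ℝ)) ≠ 0 := by
    exact_mod_cast (Nat.choose_pos (by omega : M ≤ 2 * M)).ne'
  rw [← hg']
  field_simp

/-- (C1) law of the lowest-bit column under the uniform permutation
(`card_perm_colour` with `g` = parity: `(M!)^2 / (2M)!`) -/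
theorem pm_unif_lowCol (M : ℕ) (b : Fin (2 * M) → Bool) :
    KL.pm (unif (Equiv.Perm (Fin (2 * M)))) (lowCol M) b =
      if Bal M b then 1 / ((2 * M).choose M : ℝ) else 0 := by
  have h := SBR.pm_lowB M b
  have e : lowCol M = SBR.lowB M := rfl
  rw [e, h, fact_choose]
  by_cases hb : Bal M b
  · rw [if_pos hb, if_pos ((bal_iff M b).1 hb)]
  · rw [if_neg hb, if_neg (fun hh => hb ((bal_iff M b).2 hh))]

/-- (C2) law of the new-bit column under the uniform permutation
(for fixed coins `h ↦ thorpPerm M b * h` is a bijection, `newBit_eq_lowCol`, then (C1)) -/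
theorem push_unif_bitChan (M : ℕ) (c : Fin (2 * M) → Bool) :
    push (bitChan M) (unif (Equiv.Perm (Fin (2 * M)))) c =
      if Bal M c then 1 / ((2 * M).choose M : ℝ) else 0 := by
  have h := SBR.push_bitChan M c
  rw [h, fact_choose]
  by_cases hb : Bal M c
  · rw [if_pos hb, if_pos ((bal_iff M c).1 hb)]
  · rw [if_neg hb, if_neg (fun hh => hb ((bal_iff M c).2 hh))]

/-- (C3) joint law of the two columns under the uniform permutation, upper bound.
Exact value: `((M/2)!)^4 / (2M)!` if the four classes `(b x, c x)` have `M/2` elements each, else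
`0` (for fixed coins substitute `h' = thorpPerm M b * h`; `(b x, c x)` = (bit 1, bit 0) of `h' x`;
`card_perm_colour` with `g y = (bit 1 of y, bit 0 of y)`), and
`((M/2)!)^4 / (2M)! = (1 / choose (2M) M)^2 / beC M`. -/
theorem joint_unif_le (M : ℕ) (hM : Even M) (hM0 : 0 < M) (b c : Fin (2 * M) → Bool) :
    joint (lowCol M) (bitChan M) (unif (Equiv.Perm (Fin (2 * M)))) (b, c) ≤
      KL.pm (unif (Equiv.Perm (Fin (2 * M)))) (lowCol M) b *
        push (bitChan M) (unif (Equiv.Perm (Fin (2 * M)))) c / beC M := by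
  have e : lowCol M = SBR.lowB M := rfl
  have hbe : beC M = SBR.bet M := (SBR.bet_eq M hM).symm
  rw [e, hbe, SBR.joint_eq_prod M hM]
  have hnn : 0 ≤ KL.pm (unif (Equiv.Perm (Fin (2 * M)))) (SBR.lowB M) b *
        push (bitChan M) (unif (Equiv.Perm (Fin (2 * M)))) c / SBR.bet M := by
    rw [SBR.pm_lowB, SBR.push_bitChan]
    have := SBR.bet_pos M
    split_ifs <;> positivity
  split_ifs
  · rw [one_mul]
  · rw [zero_mul]; exact hnn

end Vale.Agent.P162.SB
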