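import Vale.Agent.P162.SB.Defs

namespace Vale.Agent.P162.SB

open Finset Real

/-- (C4) number of balanced columns in shell position w.r.t. a balanced column:
choose `M/2` elements inside `c` and `M/2` outside -/
theorem card_shell (M : ℕ) (hM : Even M) (c : Fin (2 * M) → Bool) (hc : Bal M c) :
    (Finset.univ.filter (fun b : Fin (2 * M) → Bool => Bal M b ∧ shell M b c)).card =
      (M.choose (M / 2)) ^ 2 := by
  classical
  obtain ⟨C, hC⟩ : ∃ C : Finset (Fin (2 * M)), C = univ.filter (fun x => c x = true) := ⟨_, rfl⟩
  have hmemC : ∀ x, x ∈ C ↔ c x = true := by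
    intro x; rw [hC]; simp
  have hCcard : C.card = M := by rw [hC]; exact hc
  have hCc : Cᶜ.card = M := by
    rw [card_compl, hCcard, Fintype.card_fin]; omega
  have hhalf : M / 2 + M / 2 = M := by
    obtain ⟨k, hk⟩ := hM
    omega
  have hcnt : (powersetCard (M / 2) C ×ˢ powersetCard (M / 2) Cᶜ).card
      = (M.choose (M / 2)) ^ 2 := by
    rw [card_product, card_powersetCard, card_powersetCard, hCcard, hCc, sq]
  rw [← hcnt]
  refine Finset.card_nbij'
    (i := fun b => (univ.filter (fun x => b x = true ∧ c x = true),
      univ.filter (fun x => b x = true ∧ c x = false)))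
    (j := fun st => fun x => decide (x ∈ st.1 ∨ x ∈ st.2)) ?_ ?_ ?_ ?_
  · intro b hb
    have hb' : Bal M b ∧ shell M b c := by simpa using hb
    obtain ⟨h1, h2⟩ := hb'
    unfold Bal at h1
    unfold shell at h2
    have hsplit : (univ.filter (fun x => b x = true ∧ c x = true)).card
        + (univ.filter (fun x => b x = true ∧ c x = false)).card = M := by
      have hd : Disjoint (univ.filter (fun x => b x = true ∧ c x = true))
          (univ.filter (fun x => b x = true ∧ c x = false)) := by
        rw [Finset.disjoint_left]
        intro x hx hx'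
        simp only [mem_filter, mem_univ, true_and] at hx hx'
        rw [hx.2] at hx'
        exact absurd hx'.2 (by simp)
      have hu : (univ.filter (fun x => b x = true ∧ c x = true))
          ∪ (univ.filter (fun x => b x = true ∧ c x = false))
          = univ.filter (fun x => b x = true) := by
        ext x
        simp only [mem_union, mem_filter, mem_univ, true_and]
        cases b x <;> cases c x <;> simp
      rw [← card_union_of_disjoint hd, hu]
      exact h1
    simp only [coe_product, Set.mem_prod, mem_coe, mem_powersetCard]
    refine ⟨⟨?_, h2⟩, ⟨?_, by omega⟩⟩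
    · intro x hx
      simp only [mem_filter, mem_univ, true_and] at hx
      exact (hmemC x).2 hx.2
    · intro x hx
      simp only [mem_filter, mem_univ, true_and] at hx
      rw [mem_compl, hmemC, hx.2]
      simp
  · intro st hst
    simp only [coe_product, Set.mem_prod, mem_coe, mem_powersetCard] at hst
    obtain ⟨⟨hs, hs'⟩, ⟨ht, ht'⟩⟩ := hst
    have hdisj : Disjoint st.1 st.2 := by
      rw [Finset.disjoint_left]
      intro x hx hx'
      exact (mem_compl.1 (ht hx')) (hs hx)
    simp only [coe_filter, mem_univ, true_and, Set.mem_ofPred_eq]
    constructor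
    · unfold Bal
      have : (univ.filter (fun x => decide (x ∈ st.1 ∨ x ∈ st.2) = true)) = st.1 ∪ st.2 := by
        ext x; simp
      rw [this, card_union_of_disjoint hdisj, hs', ht', hhalf]
    · unfold shell
      have : (univ.filter (fun x => decide (x ∈ st.1 ∨ x ∈ st.2) = true ∧ c x = true)) = st.1 := by
        ext x
        simp only [mem_filter, mem_univ, true_and, decide_eq_true_eq]
        constructor
        · rintro ⟨h | h, hcx⟩
          · exact h
          · exact absurd ((hmemC x).2 hcx) (mem_compl.1 (ht h))
        · intro h
          exact ⟨Or.inl h, (hmemC x).1 (hs h)⟩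
      rw [this, hs']
  · intro b _
    funext x
    simp only [mem_filter, mem_univ, true_and]
    cases b x <;> cases c x <;> simp
  · intro st hst
    simp only [coe_product, Set.mem_prod, mem_coe, mem_powersetCard] at hst
    obtain ⟨⟨hs, _⟩, ⟨ht, _⟩⟩ := hst
    refine Prod.ext ?_ ?_
    · ext x
      simp only [mem_filter, mem_univ, true_and, decide_eq_true_eq]
      constructor
      · rintro ⟨h | h, hcx⟩
        · exact h
        · exact absurd ((hmemC x).2 hcx) (mem_compl.1 (ht h))
      · intro h
        exact ⟨Or.inl h, (hmemC x).1 (hs h)⟩
    · ext x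
      simp only [mem_filter, mem_univ, true_and, decide_eq_true_eq]
      constructor
      · rintro ⟨h | h, hcx⟩
        · have := (hmemC x).1 (hs h)
          rw [this] at hcx
          exact absurd hcx (by simp)
        · exact h
      · intro h
        refine ⟨Or.inr h, ?_⟩
        have := mem_compl.1 (ht h)
        rw [hmemC] at this
        simpa using this

theorem shell_comm (M : ℕ) (b c : Fin (2 * M) → Bool) : shell M b c ↔ shell M c b := by
  unfold shell
  have : (Finset.univ.filter (fun x => b x = true ∧ c x = true))
      = (Finset.univ.filter (fun x => c x = true ∧ b x = true)) := by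
    ext x
    simp only [mem_filter, mem_univ, true_and]
    exact and_comm
  rw [this]

theorem beC_pos (M : ℕ) : 0 < beC M := by
  unfold beC
  have h1 : 0 < M.choose (M / 2) := Nat.choose_pos (Nat.div_le_self M 2)
  have h2 : 0 < (2 * M).choose M := Nat.choose_pos (by omega)
  have h1' : (0 : ℝ) < (M.choose (M / 2) : ℝ) := by exact_mod_cast h1
  have h2' : (0 : ℝ) < ((2 * M).choose M : ℝ) := by exact_mod_cast h2
  positivity

end Vale.Agent.P162.SB
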