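import Vale.Agent.P162.SB.BinomTail

/-!
# P162, route SB : colourings of `2 M` points and the number of crossing edges of the standard
matching `i ↔ i + M`
-/

namespace Vale.Agent.P162.SB

open Finset Real

/-- lower endpoint of the `i`-th edge -/
def lo (M : ℕ) (i : Fin M) : Fin (2 * M) := ⟨i.val, by omega⟩

/-- upper endpoint of the `i`-th edge -/
def hi (M : ℕ) (i : Fin M) : Fin (2 * M) := ⟨i.val + M, by omega⟩

/-- number of edges `{i, i + M}` whose endpoints have different colours -/
def cross (M : ℕ) (c : Fin (2 * M) → Bool) : ℕ :=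
  (Finset.univ.filter (fun i : Fin M => c (lo M i) ≠ c (hi M i))).card

/-- a colouring = colours of the lower endpoints + indicator of the crossing edges -/
def encC (M : ℕ) : ((Fin M → Bool) × (Fin M → Bool)) ≃ (Fin (2 * M) → Bool) where
  toFun p := fun x => if h : x.val < M then p.1 ⟨x.val, h⟩
    else xor (p.1 ⟨x.val - M, by omega⟩) (p.2 ⟨x.val - M, by omega⟩)
  invFun c := (fun i => c (lo M i), fun i => xor (c (lo M i)) (c (hi M i)))
  left_inv := by
    rintro ⟨a, e⟩
    ext i
    · simp [lo]
    · simp [lo, hi]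
  right_inv := by
    intro c
    funext x
    by_cases h : x.val < M
    · simp [h, lo]
    · have hx : (⟨x.val - M + M, by omega⟩ : Fin (2 * M)) = x := by
        apply Fin.ext; simp only []; omega
      simp [h, lo, hi, hx]

theorem cross_encC (M : ℕ) (p : (Fin M → Bool) × (Fin M → Bool)) :
    cross M (encC M p) = (Finset.univ.filter (fun i : Fin M => p.2 i = true)).card := by
  unfold cross
  congr 1
  ext i
  simp only [Finset.mem_filter, Finset.mem_univ, true_and]
  have h1 : encC M p (lo M i) = p.1 i := by simp [encC, lo]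
  have h2 : encC M p (hi M i) = xor (p.1 i) (p.2 i) := by simp [encC, hi]
  rw [h1, h2]
  cases p.1 i <;> cases p.2 i <;> simp

theorem sum_bool_card (M : ℕ) (F : ℕ → ℝ) :
    ∑ e : Fin M → Bool, F (Finset.univ.filter (fun i : Fin M => e i = true)).card =
      ∑ r ∈ range (M + 1), (M.choose r : ℝ) * F r := by
  have h := Finset.sum_powerset_apply_card F (x := (Finset.univ : Finset (Fin M)))
  simp only [Finset.card_univ, Fintype.card_fin, nsmul_eq_mul, Finset.powerset_univ] at h
  rw [← h]
  apply Fintype.sum_bijective (fun e : Fin M → Bool => Finset.univ.filter (fun i => e i = true))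
  · constructor
    · intro e e' hee
      funext i
      have := congrArg (fun s => i ∈ s) hee
      simp only [Finset.mem_filter, Finset.mem_univ, true_and, eq_iff_iff] at this
      cases h1 : e i <;> cases h2 : e' i <;> simp_all
    · intro s
      refine ⟨fun i => decide (i ∈ s), ?_⟩
      ext i
      simp
  · intro e
    rfl

/-- sums over all colourings of a function of the number of crossing edges -/
theorem sum_cross (M : ℕ) (F : ℕ → ℝ) :
    ∑ c : Fin (2 * M) → Bool, F (cross M c) =
      2 ^ M * ∑ r ∈ range (M + 1), (M.choose r : ℝ) * F r := by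
  rw [← (encC M).sum_comp, Fintype.sum_prod_type]
  simp only [cross_encC, sum_bool_card]
  simp

/-- comparison of a sum over any family of colourings, normalised by `C(2M,M)`, with the
binomial law -/
theorem sum_cross_le (M : ℕ) (hM : 0 < M) (F : ℕ → ℝ) (hF : ∀ r, 0 ≤ F r)
    (P : (Fin (2 * M) → Bool) → Prop) [DecidablePred P] :
    (∑ c : Fin (2 * M) → Bool, if P c then F (cross M c) else 0) / ((2 * M).choose M : ℝ) ≤
      2 * M * ∑ r ∈ range (M + 1), (M.choose r : ℝ) / 2 ^ M * F r := by
  have hc : (0 : ℝ) < ((2 * M).choose M : ℝ) := by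
    exact_mod_cast Nat.choose_pos (by omega)
  have h4 : (4 : ℝ) ^ M ≤ 2 * M * ((2 * M).choose M : ℝ) := by
    have := Nat.four_pow_le_two_mul_self_mul_centralBinom M hM
    rw [Nat.centralBinom_eq_two_mul_choose] at this
    exact_mod_cast this
  have hS : 0 ≤ ∑ r ∈ range (M + 1), (M.choose r : ℝ) * F r :=
    Finset.sum_nonneg fun r _ => mul_nonneg (Nat.cast_nonneg _) (hF r)
  rw [div_le_iff₀ hc]
  calc (∑ c : Fin (2 * M) → Bool, if P c then F (cross M c) else 0)
      ≤ ∑ c : Fin (2 * M) → Bool, F (cross M c) := by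
        apply Finset.sum_le_sum
        intro c _
        split_ifs
        · exact le_rfl
        · exact hF _
    _ = 2 ^ M * ∑ r ∈ range (M + 1), (M.choose r : ℝ) * F r := sum_cross M F
    _ = 4 ^ M * (∑ r ∈ range (M + 1), (M.choose r : ℝ) * F r) / 2 ^ M := by
        have : (4 : ℝ) ^ M = 2 ^ M * 2 ^ M := by rw [← mul_pow]; norm_num
        rw [this]; field_simp
    _ ≤ (2 * M * ((2 * M).choose M : ℝ)) * (∑ r ∈ range (M + 1), (M.choose r : ℝ) * F r) /
          2 ^ M := by
        gcongr
    _ = 2 * M * (∑ r ∈ range (M + 1), (M.choose r : ℝ) / 2 ^ M * F r) *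
          ((2 * M).choose M : ℝ) := by
        rw [Finset.mul_sum, Finset.mul_sum, Finset.sum_mul, Finset.sum_div]
        apply Finset.sum_congr rfl
        intro r _
        ring

end Vale.Agent.P162.SB
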