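import Vale.Agent.P162.Top.Defs

/-!
# P162, SB route (board 331 + 365) : definitions
`SB β K θ` : for every input law `p` (uniform reference), with `B = β (input)` and `T` = output of
the channel `K`:  `D(B) + D(T) ≤ D(B,T) + θ * D(input)`.
-/

namespace Vale.Agent.P162.SB

open Finset Real Vale.Agent.P162 Vale.Agent.P162.KL Vale.Agent.P162.Top

/-- approximate superadditivity of the pair (function of the input, channel output) -/
def SB {A B C : Type*} [Fintype A] [Fintype B] [DecidableEq B] [Fintype C]
    (β : A → B) (K : A → C → ℝ) (θ : ℝ) : Prop :=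
  ∀ p : A → ℝ, IsLaw p →
    Dv p (unif A) β + kl (push K p) (push K (unif A)) ≤
      kl (joint β K p) (joint β K (unif A)) + θ * kl p (unif A)

/-- the smoothed and centred kernel -/
noncomputable def kap {A B C : Type*} [Fintype C] (K : A → C → ℝ) (sh : B → C → Prop)
    [∀ b c, Decidable (sh b c)] (be : ℝ) (a : A) (b : B) : ℝ :=
  (∑ c, if sh b c then K a c else 0) / be - 1

/-- column of the lowest position bits: card `x` sits at position `h x` -/
def lowCol (M : ℕ) (h : Equiv.Perm (Fin (2 * M))) : Fin (2 * M) → Bool :=
  fun x => decide ((h x).val % 2 = 1)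

/-- column of the position bits number `r` -/
def bitCol (k r : ℕ) (g : G k) : Fin (2 * 2 ^ k) → Bool :=
  fun x => decide ((g x).val / 2 ^ r % 2 = 1)

/-- a Boolean column with exactly `M` entries `true` -/
def Bal (M : ℕ) (b : Fin (2 * M) → Bool) : Prop :=
  (Finset.univ.filter (fun x => b x = true)).card = M

instance (M : ℕ) (b : Fin (2 * M) → Bool) : Decidable (Bal M b) := by
  unfold Bal; infer_instance

/-- the two columns have exactly `M / 2` common entries `true` -/
def shell (M : ℕ) (b c : Fin (2 * M) → Bool) : Prop :=
  (Finset.univ.filter (fun x => b x = true ∧ c x = true)).card = M / 2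

instance (M : ℕ) (b c : Fin (2 * M) → Bool) : Decidable (shell M b c) := by
  unfold shell; infer_instance

/-- probability that two independent balanced columns are in shell position -/
noncomputable def beC (M : ℕ) : ℝ := ((M.choose (M / 2) : ℝ)) ^ 2 / ((2 * M).choose M : ℝ)

/-- probability that `c` fair coins give exactly `c / 2` heads -/
noncomputable def bcf (c : ℕ) : ℝ := (c.choose (c / 2) : ℝ) / 2 ^ c

/-- position `i` of the top half -/
def loP (M : ℕ) (i : Fin M) : Fin (2 * M) := ⟨i.val, by have := i.2; omega⟩

/-- position `M + i` of the bottom half -/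
def hiP (M : ℕ) (i : Fin M) : Fin (2 * M) := ⟨M + i.val, by have := i.2; omega⟩

/-- number of pairs `{i, M + i}` on which the column `b` is not constant -/
def cr (M : ℕ) (b : Fin (2 * M) → Bool) : ℕ :=
  (Finset.univ.filter (fun i : Fin M => b (loP M i) ≠ b (hiP M i))).card

/-- the constants of the block inequality: block `2 * 2 ^ i`, `g0 = 2 ^ (i / 8)` -/
noncomputable def gz (i : ℕ) : ℝ := 2 ^ (i / 8)

end Vale.Agent.P162.SB
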