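import Mathlib

/-!
# P162, route SB : scalar facts for the exponential moment bound (EXP)
-/

namespace Vale.Agent.P162.SB

open Finset Real

/-- second order bound for the exponential, valid on the whole line -/
theorem exp_le_quad (x : ℝ) : Real.exp x ≤ 1 + x + x ^ 2 * Real.exp |x| := by
  rcases le_total 0 x with hx | hx
  · rw [abs_of_nonneg hx]
    have h1 : 1 - x ≤ Real.exp (-x) := by
      have := Real.add_one_le_exp (-x); linarith
    have h2 : Real.exp x * (1 - x) ≤ 1 := by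
      have := mul_le_mul_of_nonneg_left h1 (Real.exp_pos x).le
      rwa [← Real.exp_add, add_neg_cancel, Real.exp_zero] at this
    have h3 : Real.exp x - 1 ≤ x * Real.exp x := by nlinarith
    nlinarith [mul_le_mul_of_nonneg_left h3 hx]
  · rw [abs_of_nonpos hx]
    have hy : 0 ≤ -x := by linarith
    have h1 : 1 + (-x) ≤ Real.exp (-x) := by
      have := Real.add_one_le_exp (-x); linarith
    have hpos : 0 < 1 + (-x) := by linarith
    have h2 : Real.exp x * (1 + (-x)) ≤ 1 := by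
      have := mul_le_mul_of_nonneg_left h1 (Real.exp_pos x).le
      rwa [← Real.exp_add, add_neg_cancel, Real.exp_zero] at this
    have h3 : 1 ≤ Real.exp (-x) := by linarith
    have h4 : x ^ 2 ≤ x ^ 2 * Real.exp (-x) := by nlinarith [sq_nonneg x]
    -- exp x ≤ 1/(1-x), so exp x - 1 - x ≤ x^2/(1-x) ≤ x^2
    have h5 : Real.exp x ≤ 1 + x + x ^ 2 := by
      have h6 : (1 + x + x ^ 2) * (1 + (-x)) = 1 + (-x) ^ 3 := by ring
      have h7 : 0 ≤ (-x) ^ 3 := by positivity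
      by_contra hcon
      have hcon' : 1 + x + x ^ 2 < Real.exp x := not_le.mp hcon
      have := mul_lt_mul_of_pos_right hcon' hpos
      nlinarith
    linarith

/-- the central binomial probability `C(2k,k)/4^k` -/
noncomputable def bc (k : ℕ) : ℝ := (Nat.centralBinom k : ℝ) / 4 ^ k

theorem bc_zero : bc 0 = 1 := by simp [bc]

theorem bc_pos (k : ℕ) : 0 < bc k := by
  unfold bc
  have := Nat.centralBinom_pos k
  positivity

theorem bc_succ (k : ℕ) : bc (k + 1) * (2 * (k : ℝ) + 2) = bc k * (2 * (k : ℝ) + 1) := by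
  have h := Nat.succ_mul_centralBinom_succ k
  have h' : ((k : ℝ) + 1) * (Nat.centralBinom (k + 1) : ℝ) =
      2 * (2 * (k : ℝ) + 1) * (Nat.centralBinom k : ℝ) := by exact_mod_cast h
  unfold bc
  rw [pow_succ]
  field_simp
  nlinarith

theorem bc_succ_le (k : ℕ) : bc (k + 1) ≤ bc k := by
  have h := bc_succ k
  have h1 := bc_pos k
  have h2 := bc_pos (k + 1)
  have hk : (0 : ℝ) ≤ k := Nat.cast_nonneg k
  nlinarith

theorem bc_antitone : Antitone bc := antitone_nat_of_succ_le bc_succ_le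

theorem bc_le_one (k : ℕ) : bc k ≤ 1 := by
  have := bc_antitone (Nat.zero_le k)
  rwa [bc_zero] at this

/-- `b_k ^ 2 ≥ 1 / (4 k + 1)` -/
theorem bc_sq_lower (k : ℕ) : 1 ≤ bc k ^ 2 * (4 * (k : ℝ) + 1) := by
  induction k with
  | zero => simp [bc_zero]
  | succ k ih =>
    have h := bc_succ k
    have hk : (0 : ℝ) ≤ k := Nat.cast_nonneg k
    have h1 := bc_pos k
    have h2 := bc_pos (k + 1)
    push_cast
    have e : (bc (k + 1) * (2 * (k : ℝ) + 2)) ^ 2 = (bc k * (2 * (k : ℝ) + 1)) ^ 2 := by rw [h]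
    have hpos : 0 < (2 * (k : ℝ) + 2) ^ 2 := by positivity
    -- multiply the goal by (2k+2)^2
    have key : (2 * (k : ℝ) + 2) ^ 2 ≤
        (bc (k + 1) * (2 * (k : ℝ) + 2)) ^ 2 * (4 * ((k : ℝ) + 1) + 1) := by
      rw [e]
      have h3 : bc k ^ 2 * (4 * (k : ℝ) + 1) * ((2 * (k : ℝ) + 1) ^ 2 * (4 * (k : ℝ) + 5)) ≥
          1 * ((2 * (k : ℝ) + 1) ^ 2 * (4 * (k : ℝ) + 5)) :=
        mul_le_mul_of_nonneg_right ih (by positivity)
      have h4 : (2 * (k : ℝ) + 1) ^ 2 * (4 * (k : ℝ) + 5) =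
          (4 * (k : ℝ) + 1) * (2 * (k : ℝ) + 2) ^ 2 + 1 := by ring
      have h5 : 0 < 4 * (k : ℝ) + 1 := by positivity
      -- (bc k (2k+1))^2 (4k+5) (4k+1) ≥ (2k+1)^2 (4k+5) ≥ (4k+1)(2k+2)^2
      have h6 : (4 * (k : ℝ) + 1) * (2 * (k : ℝ) + 2) ^ 2 ≤
          (4 * (k : ℝ) + 1) * ((bc k * (2 * (k : ℝ) + 1)) ^ 2 * (4 * ((k : ℝ) + 1) + 1)) := by
        nlinarith
      exact le_of_mul_le_mul_left h6 h5
    have e2 : (bc (k + 1) * (2 * (k : ℝ) + 2)) ^ 2 * (4 * ((k : ℝ) + 1) + 1) =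
        (2 * (k : ℝ) + 2) ^ 2 * (bc (k + 1) ^ 2 * (4 * ((k : ℝ) + 1) + 1)) := by ring
    rw [e2] at key
    have : (2 * (k : ℝ) + 2) ^ 2 * 1 ≤
        (2 * (k : ℝ) + 2) ^ 2 * (bc (k + 1) ^ 2 * (4 * ((k : ℝ) + 1) + 1)) := by linarith
    exact le_of_mul_le_mul_left this hpos

/-- `1 / b_k ≤ sqrt (4 k + 1)` -/
theorem one_le_bc_mul_sqrt (k : ℕ) : 1 ≤ bc k * Real.sqrt (4 * (k : ℝ) + 1) := by
  have h := bc_sq_lower k
  have hk : (0 : ℝ) ≤ 4 * (k : ℝ) + 1 := by positivity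
  have h1 : (bc k * Real.sqrt (4 * (k : ℝ) + 1)) ^ 2 = bc k ^ 2 * (4 * (k : ℝ) + 1) := by
    rw [mul_pow, Real.sq_sqrt hk]
  have h2 : 0 ≤ bc k * Real.sqrt (4 * (k : ℝ) + 1) :=
    mul_nonneg (bc_pos k).le (Real.sqrt_nonneg _)
  nlinarith

/-- slow variation: `b_k ≤ b_{k+n} exp (n / (2 k + 1))` -/
theorem bc_le_mul_exp (k n : ℕ) :
    bc k ≤ bc (k + n) * Real.exp ((n : ℝ) / (2 * (k : ℝ) + 1)) := by
  induction n with
  | zero => simp
  | succ n ih =>
    have h := bc_succ (k + n)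
    have hk : (0 : ℝ) ≤ k := Nat.cast_nonneg k
    have hn : (0 : ℝ) ≤ n := Nat.cast_nonneg n
    have hpos : 0 < 2 * (k : ℝ) + 1 := by positivity
    push_cast at h
    -- bc (k+n) = bc (k+n+1) (2(k+n)+2)/(2(k+n)+1) ≤ bc (k+n+1) (1 + 1/(2k+1))
    have h1 : bc (k + n) ≤ bc (k + n + 1) * Real.exp (1 / (2 * (k : ℝ) + 1)) := by
      have h2 : 1 + 1 / (2 * (k : ℝ) + 1) ≤ Real.exp (1 / (2 * (k : ℝ) + 1)) := by
        have := Real.add_one_le_exp (1 / (2 * (k : ℝ) + 1)); linarith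
      have h3 : bc (k + n) ≤ bc (k + n + 1) * (1 + 1 / (2 * (k : ℝ) + 1)) := by
        have hp : 0 < 2 * ((k : ℝ) + n) + 1 := by positivity
        have h4 : bc (k + n) = bc (k + n + 1) * (2 * ((k : ℝ) + n) + 2) / (2 * ((k : ℝ) + n) + 1) := by
          rw [h]; field_simp
        rw [h4, mul_div_assoc]
        apply mul_le_mul_of_nonneg_left _ (bc_pos _).le
        rw [div_le_iff₀ hp]
        have h5 : 1 / (2 * (k : ℝ) + 1) * (2 * ((k : ℝ) + n) + 1) ≥ 1 := by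
          rw [ge_iff_le, one_div, le_inv_mul_iff₀ hpos]
          linarith
        nlinarith
      exact le_trans h3 (mul_le_mul_of_nonneg_left h2 (bc_pos _).le)
    have e : (((n + 1 : ℕ) : ℝ)) / (2 * (k : ℝ) + 1) =
        1 / (2 * (k : ℝ) + 1) + (n : ℝ) / (2 * (k : ℝ) + 1) := by
      push_cast; ring
    rw [e, Real.exp_add, ← add_assoc]
    calc bc k ≤ bc (k + n) * Real.exp ((n : ℝ) / (2 * (k : ℝ) + 1)) := ih
      _ ≤ (bc (k + n + 1) * Real.exp (1 / (2 * (k : ℝ) + 1))) *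
          Real.exp ((n : ℝ) / (2 * (k : ℝ) + 1)) :=
          mul_le_mul_of_nonneg_right h1 (Real.exp_pos _).le
      _ = _ := by ring

/-- the probability that a fair walk of `r` steps is balanced (`r` even) -/
noncomputable def bq (r : ℕ) : ℝ := bc (r / 2)

theorem bq_pos (r : ℕ) : 0 < bq r := bc_pos _

theorem bq_le_one (r : ℕ) : bq r ≤ 1 := bc_le_one _

theorem bq_eq (r : ℕ) : bq r = (Nat.centralBinom (r / 2) : ℝ) / 4 ^ (r / 2) := rfl

end Vale.Agent.P162.SB
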