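import Vale.Agent.P162.SB.Exp1

/-!
# P162, route SB : the abstract exponential moment bound
-/

namespace Vale.Agent.P162.SB

open Finset Real

/-- from a weighted second moment to the exponential moment bound -/
theorem exp_of_moment {Ω : Type*} [Fintype Ω] (w κ : Ω → ℝ) (hw : ∀ c, 0 ≤ w c)
    (hw1 : ∑ c, w c = 1) (hc : ∑ c, w c * κ c = 0) (g0 V : ℝ)
    (hV : ∑ c, w c * (κ c ^ 2 * Real.exp (g0 * |κ c|)) ≤ V) (g : ℝ) (hg : |g| ≤ g0) :
    ∑ c, w c * Real.exp (g * κ c) ≤ Real.exp (V * g ^ 2) := by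
  have h1 : ∀ c, w c * Real.exp (g * κ c) ≤
      w c + g * (w c * κ c) + g ^ 2 * (w c * (κ c ^ 2 * Real.exp (g0 * |κ c|))) := by
    intro c
    have h2 := exp_le_quad (g * κ c)
    have h3 : Real.exp |g * κ c| ≤ Real.exp (g0 * |κ c|) := by
      apply Real.exp_le_exp.mpr
      rw [abs_mul]
      exact mul_le_mul_of_nonneg_right hg (abs_nonneg _)
    have h4 : (g * κ c) ^ 2 * Real.exp |g * κ c| ≤ (g * κ c) ^ 2 * Real.exp (g0 * |κ c|) :=
      mul_le_mul_of_nonneg_left h3 (sq_nonneg _)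
    have h5 : Real.exp (g * κ c) ≤ 1 + g * κ c + (g * κ c) ^ 2 * Real.exp (g0 * |κ c|) := by
      linarith
    have h6 := mul_le_mul_of_nonneg_left h5 (hw c)
    calc w c * Real.exp (g * κ c)
        ≤ w c * (1 + g * κ c + (g * κ c) ^ 2 * Real.exp (g0 * |κ c|)) := h6
      _ = _ := by ring
  have h2 := Finset.sum_le_sum (fun c (_ : c ∈ Finset.univ) => h1 c)
  rw [Finset.sum_add_distrib, Finset.sum_add_distrib, ← Finset.mul_sum, ← Finset.mul_sum, hw1, hc]
    at h2
  have h3 : g ^ 2 * ∑ c, w c * (κ c ^ 2 * Real.exp (g0 * |κ c|)) ≤ g ^ 2 * V :=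
    mul_le_mul_of_nonneg_left hV (sq_nonneg g)
  have h4 := Real.add_one_le_exp (V * g ^ 2)
  linarith

/-- monotonicity of `t ^ 2 exp (g0 |t|)` in `|t|` -/
theorem sq_exp_mono (g0 t b : ℝ) (hg0 : 0 ≤ g0) (ht : |t| ≤ b) :
    t ^ 2 * Real.exp (g0 * |t|) ≤ b ^ 2 * Real.exp (g0 * b) := by
  have h1 : t ^ 2 ≤ b ^ 2 := by
    rw [← sq_abs t]
    exact pow_le_pow_left₀ (abs_nonneg t) ht 2
  have h2 : Real.exp (g0 * |t|) ≤ Real.exp (g0 * b) :=
    Real.exp_le_exp.mpr (mul_le_mul_of_nonneg_left ht hg0)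
  exact mul_le_mul h1 h2 (Real.exp_pos _).le (sq_nonneg b)

/-- **Abstract window lemma.**  `X` is almost constant on the window `W`, whose complement has
small weight; then the centred ratio `X / E X - 1` has a small weighted exponential moment. -/
theorem window_moment {Ω : Type*} [Fintype Ω] [DecidableEq Ω] (w X : Ω → ℝ)
    (hw : ∀ c, 0 ≤ w c) (hw1 : ∑ c, w c = 1) (hX0 : ∀ c, 0 < X c) (hX1 : ∀ c, X c ≤ 1)
    (W : Finset Ω) (E eps xmin η g0 : ℝ)
    (hE : ∀ c ∈ W, ∀ c' ∈ W, X c ≤ E * X c') (hmin : ∀ c ∈ W, xmin ≤ X c) (hxmin : 0 < xmin)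
    (htail : ∑ c ∈ Wᶜ, w c ≤ eps) (heps0 : 0 ≤ eps) (heps : eps ≤ 1 / 2)
    (h1 : E ≤ (1 + η) * (1 - eps)) (h2 : E + eps / xmin ≤ 1 + η) (hη : 0 ≤ η) (hg0 : 0 ≤ g0) :
    (∑ c, w c * (X c / (∑ c', w c' * X c') - 1) = 0) ∧
    (∑ c, w c * ((X c / (∑ c', w c' * X c') - 1) ^ 2 *
        Real.exp (g0 * |X c / (∑ c', w c' * X c') - 1|)) ≤
      η ^ 2 * Real.exp (g0 * η) + eps * ((2 / xmin) ^ 2 * Real.exp (g0 * (2 / xmin)))) := by
  obtain ⟨β, hβ⟩ : ∃ β, β = ∑ c', w c' * X c' := ⟨_, rfl⟩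
  rw [← hβ]
  have hsplit : ∀ F : Ω → ℝ, ∑ c ∈ W, F c + ∑ c ∈ Wᶜ, F c = ∑ c, F c :=
    fun F => Finset.sum_add_sum_compl W F
  obtain ⟨PW, hPW⟩ : ∃ PW, PW = ∑ c ∈ W, w c := ⟨_, rfl⟩
  have hPW1 : 1 - eps ≤ PW := by
    have := hsplit w
    rw [hw1, ← hPW] at this
    linarith
  have hPW2 : PW ≤ 1 := by
    have := hsplit w
    rw [hw1, ← hPW] at this
    have h0 : 0 ≤ ∑ c ∈ Wᶜ, w c := Finset.sum_nonneg (fun c _ => hw c)
    linarith
  have hPW0 : 0 < PW := by linarith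
  obtain ⟨βW, hβW⟩ : ∃ βW, βW = ∑ c ∈ W, w c * X c := ⟨_, rfl⟩
  obtain ⟨βC, hβC⟩ : ∃ βC, βC = ∑ c ∈ Wᶜ, w c * X c := ⟨_, rfl⟩
  have hβs : βW + βC = β := by
    rw [hβW, hβC, hβ]; exact hsplit _
  have hβC0 : 0 ≤ βC := by
    rw [hβC]; exact Finset.sum_nonneg (fun c _ => mul_nonneg (hw c) (hX0 c).le)
  have hβC1 : βC ≤ eps := by
    rw [hβC]
    refine le_trans (Finset.sum_le_sum (fun c _ => ?_)) htail
    have := mul_le_mul_of_nonneg_left (hX1 c) (hw c)
    linarith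
  have hβWmin : xmin * PW ≤ βW := by
    rw [hβW, hPW, Finset.mul_sum]
    refine Finset.sum_le_sum (fun c hc => ?_)
    have := mul_le_mul_of_nonneg_left (hmin c hc) (hw c)
    linarith
  have hβlow : xmin / 2 ≤ β := by
    have : xmin * (1 / 2) ≤ xmin * PW := mul_le_mul_of_nonneg_left (by linarith) hxmin.le
    linarith
  have hβpos : 0 < β := by linarith
  have hβ1 : β ≤ 1 := by
    rw [hβ, ← hw1]
    refine Finset.sum_le_sum (fun c _ => ?_)
    have := mul_le_mul_of_nonneg_left (hX1 c) (hw c)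
    linarith
  -- centring
  have hcen : ∑ c, w c * (X c / β - 1) = 0 := by
    have e : ∀ c, w c * (X c / β - 1) = (w c * X c) / β - w c := fun c => by ring
    rw [Finset.sum_congr rfl (fun c _ => e c), Finset.sum_sub_distrib, ← Finset.sum_div, ← hβ, hw1,
      div_self hβpos.ne']
    ring
  refine ⟨hcen, ?_⟩
  -- bound on the window
  have hwin : ∀ c ∈ W, |X c / β - 1| ≤ η := by
    intro c hc
    have hXc := hX0 c
    have hE1 : 1 ≤ E := by
      have := hE c hc c hc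
      by_contra hcon
      have : E * X c < 1 * X c := mul_lt_mul_of_pos_right (not_le.mp hcon) hXc
      linarith
    have a1 : PW * X c ≤ E * βW := by
      rw [hPW, hβW, Finset.sum_mul, Finset.mul_sum]
      refine Finset.sum_le_sum (fun c' hc' => ?_)
      have := mul_le_mul_of_nonneg_left (hE c hc c' hc') (hw c')
      linarith
    have a2 : βW ≤ E * X c * PW := by
      rw [hPW, hβW, Finset.mul_sum]
      refine Finset.sum_le_sum (fun c' hc' => ?_)
      have := mul_le_mul_of_nonneg_left (hE c' hc' c hc) (hw c')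
      linarith
    have up : X c ≤ (1 + η) * β := by
      have b1 : (1 - eps) * X c ≤ E * β := by
        have : (1 - eps) * X c ≤ PW * X c := mul_le_mul_of_nonneg_right hPW1 hXc.le
        have : E * βW ≤ E * β := mul_le_mul_of_nonneg_left (by linarith) (by linarith)
        linarith
      have b2 : E * β ≤ (1 + η) * (1 - eps) * β := mul_le_mul_of_nonneg_right h1 hβpos.le
      have b3 : (1 - eps) * X c ≤ (1 - eps) * ((1 + η) * β) := by nlinarith
      exact le_of_mul_le_mul_left b3 (by linarith)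
    have lo : β ≤ (1 + η) * X c := by
      have b1 : β ≤ E * X c + eps := by
        have : E * X c * PW ≤ E * X c * 1 :=
          mul_le_mul_of_nonneg_left hPW2 (mul_nonneg (by linarith) hXc.le)
        linarith
      have b2 : eps ≤ eps / xmin * X c := by
        rw [div_mul_eq_mul_div, le_div_iff₀ hxmin]
        exact mul_le_mul_of_nonneg_left (hmin c hc) heps0
      have b3 : (E + eps / xmin) * X c ≤ (1 + η) * X c := mul_le_mul_of_nonneg_right h2 hXc.le
      nlinarith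
    rw [abs_le]
    constructor
    · have : (1 - η) * β ≤ X c := by
        have c1 : (1 - η) * β ≤ (1 - η) * ((1 + η) * X c) ∨ 1 - η < 0 := by
          by_cases hh : 0 ≤ 1 - η
          · exact Or.inl (mul_le_mul_of_nonneg_left lo hh)
          · exact Or.inr (not_le.mp hh)
        rcases c1 with c1 | c1
        · nlinarith [mul_nonneg (mul_nonneg hη hη) hXc.le]
        · nlinarith
      have : 1 - η ≤ X c / β := by rw [le_div_iff₀ hβpos]; exact this
      linarith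
    · have : X c / β ≤ 1 + η := by rw [div_le_iff₀ hβpos]; exact up
      linarith
  -- global bound
  have hB1 : 1 / β ≤ 2 / xmin := by
    rw [div_le_div_iff₀ hβpos hxmin]
    linarith
  have hB2 : 1 ≤ 1 / β := by rw [le_div_iff₀ hβpos]; linarith
  have hall : ∀ c, |X c / β - 1| ≤ 2 / xmin := by
    intro c
    rw [abs_le]
    constructor
    · have : 0 ≤ X c / β := div_nonneg (hX0 c).le hβpos.le
      linarith
    · have : X c / β ≤ 1 / β := div_le_div_of_nonneg_right (hX1 c) hβpos.le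
      linarith
  rw [← hsplit]
  have t1 : ∑ c ∈ W, w c * ((X c / β - 1) ^ 2 * Real.exp (g0 * |X c / β - 1|)) ≤
      η ^ 2 * Real.exp (g0 * η) := by
    calc ∑ c ∈ W, w c * ((X c / β - 1) ^ 2 * Real.exp (g0 * |X c / β - 1|))
        ≤ ∑ c ∈ W, w c * (η ^ 2 * Real.exp (g0 * η)) :=
          Finset.sum_le_sum (fun c hc =>
            mul_le_mul_of_nonneg_left (sq_exp_mono g0 _ η hg0 (hwin c hc)) (hw c))
      _ = PW * (η ^ 2 * Real.exp (g0 * η)) := by rw [← Finset.sum_mul, hPW]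
      _ ≤ 1 * (η ^ 2 * Real.exp (g0 * η)) :=
          mul_le_mul_of_nonneg_right hPW2 (by positivity)
      _ = _ := one_mul _
  have t2 : ∑ c ∈ Wᶜ, w c * ((X c / β - 1) ^ 2 * Real.exp (g0 * |X c / β - 1|)) ≤
      eps * ((2 / xmin) ^ 2 * Real.exp (g0 * (2 / xmin))) := by
    calc ∑ c ∈ Wᶜ, w c * ((X c / β - 1) ^ 2 * Real.exp (g0 * |X c / β - 1|))
        ≤ ∑ c ∈ Wᶜ, w c * ((2 / xmin) ^ 2 * Real.exp (g0 * (2 / xmin))) :=
          Finset.sum_le_sum (fun c _ =>
            mul_le_mul_of_nonneg_left (sq_exp_mono g0 _ _ hg0 (hall c)) (hw c))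
      _ = (∑ c ∈ Wᶜ, w c) * ((2 / xmin) ^ 2 * Real.exp (g0 * (2 / xmin))) := by
          rw [← Finset.sum_mul]
      _ ≤ _ := mul_le_mul_of_nonneg_right htail (by positivity)
  linarith

end Vale.Agent.P162.SB
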