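import Vale.Agent.P162.SB.Exp1

/-!
# P162, route SB : tail bound from the moment generating function, window estimates
-/

namespace Vale.Agent.P162.SB

open Finset Real

/-- Chernoff bound in counting form -/
theorem tail_of_mgf {Ω : Type*} [Fintype Ω] (M : ℕ) (cr : Ω → ℕ)
    (hmgf : ∀ u : ℝ, ∑ c, Real.exp (u * ((cr c : ℝ) - (M : ℝ) / 2)) ≤
      4 ^ M * Real.exp (u ^ 2 * M / 8))
    (δ : ℝ) (hδ : 0 ≤ δ) :
    ((Finset.univ.filter fun c => δ * M < |(cr c : ℝ) - (M : ℝ) / 2|).card : ℝ) ≤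
      4 ^ M * (2 * Real.exp (-(2 * δ ^ 2 * M))) := by
  classical
  have h1 : ∀ c ∈ Finset.univ.filter (fun c => δ * M < |(cr c : ℝ) - (M : ℝ) / 2|),
      (1 : ℝ) ≤ Real.exp (-(4 * δ ^ 2 * M)) *
        (Real.exp ((4 * δ) * ((cr c : ℝ) - (M : ℝ) / 2)) +
          Real.exp ((-(4 * δ)) * ((cr c : ℝ) - (M : ℝ) / 2))) := by
    intro c hc
    have hc' := (Finset.mem_filter.mp hc).2
    obtain ⟨x, hx⟩ : ∃ x, x = (cr c : ℝ) - (M : ℝ) / 2 := ⟨_, rfl⟩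
    rw [← hx] at hc' ⊢
    rw [mul_add, ← Real.exp_add, ← Real.exp_add]
    rcases lt_abs.mp hc' with h | h
    · have : 0 ≤ -(4 * δ ^ 2 * M) + 4 * δ * x := by nlinarith
      have h2 := Real.one_le_exp this
      have h3 := Real.exp_pos (-(4 * δ ^ 2 * M) + -(4 * δ) * x)
      linarith
    · have : 0 ≤ -(4 * δ ^ 2 * M) + -(4 * δ) * x := by nlinarith
      have h2 := Real.one_le_exp this
      have h3 := Real.exp_pos (-(4 * δ ^ 2 * M) + 4 * δ * x)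
      linarith
  have h2 : ((Finset.univ.filter fun c => δ * M < |(cr c : ℝ) - (M : ℝ) / 2|).card : ℝ) ≤
      ∑ c, Real.exp (-(4 * δ ^ 2 * M)) *
        (Real.exp ((4 * δ) * ((cr c : ℝ) - (M : ℝ) / 2)) +
          Real.exp ((-(4 * δ)) * ((cr c : ℝ) - (M : ℝ) / 2))) := by
    calc ((Finset.univ.filter fun c => δ * M < |(cr c : ℝ) - (M : ℝ) / 2|).card : ℝ)
        = ∑ c ∈ Finset.univ.filter (fun c => δ * M < |(cr c : ℝ) - (M : ℝ) / 2|), (1 : ℝ) := by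
          simp
      _ ≤ ∑ c ∈ Finset.univ.filter (fun c => δ * M < |(cr c : ℝ) - (M : ℝ) / 2|),
          Real.exp (-(4 * δ ^ 2 * M)) *
          (Real.exp ((4 * δ) * ((cr c : ℝ) - (M : ℝ) / 2)) +
            Real.exp ((-(4 * δ)) * ((cr c : ℝ) - (M : ℝ) / 2))) := Finset.sum_le_sum h1
      _ ≤ _ := Finset.sum_le_sum_of_subset_of_nonneg (Finset.filter_subset _ _)
          (fun c _ _ => by positivity)
  rw [← Finset.mul_sum, Finset.sum_add_distrib] at h2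
  have h3 := hmgf (4 * δ)
  have h4 := hmgf (-(4 * δ))
  have e1 : (4 * δ) ^ 2 * M / 8 = 2 * δ ^ 2 * M := by ring
  have e2 : (-(4 * δ)) ^ 2 * M / 8 = 2 * δ ^ 2 * M := by ring
  rw [e1] at h3
  rw [e2] at h4
  have h5 : Real.exp (-(4 * δ ^ 2 * M)) * Real.exp (2 * δ ^ 2 * M) =
      Real.exp (-(2 * δ ^ 2 * M)) := by
    rw [← Real.exp_add]; congr 1; ring
  calc ((Finset.univ.filter fun c => δ * M < |(cr c : ℝ) - (M : ℝ) / 2|).card : ℝ)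
      ≤ Real.exp (-(4 * δ ^ 2 * M)) *
        (∑ c, Real.exp ((4 * δ) * ((cr c : ℝ) - (M : ℝ) / 2)) +
          ∑ c, Real.exp ((-(4 * δ)) * ((cr c : ℝ) - (M : ℝ) / 2))) := h2
    _ ≤ Real.exp (-(4 * δ ^ 2 * M)) *
        (4 ^ M * Real.exp (2 * δ ^ 2 * M) + 4 ^ M * Real.exp (2 * δ ^ 2 * M)) :=
        mul_le_mul_of_nonneg_left (add_le_add h3 h4) (Real.exp_pos _).le
    _ = 4 ^ M * (2 * (Real.exp (-(4 * δ ^ 2 * M)) * Real.exp (2 * δ ^ 2 * M))) := by ring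
    _ = _ := by rw [h5]

/-- weighted tail bound -/
theorem wtail_of_mgf {Ω : Type*} [Fintype Ω] [DecidableEq Ω] (M : ℕ) (cr : Ω → ℕ) (w : Ω → ℝ)
    (hwle : ∀ c, w c ≤ 1 / (Nat.centralBinom M : ℝ))
    (hmgf : ∀ u : ℝ, ∑ c, Real.exp (u * ((cr c : ℝ) - (M : ℝ) / 2)) ≤
      4 ^ M * Real.exp (u ^ 2 * M / 8))
    (δ : ℝ) (hδ : 0 ≤ δ) :
    ∑ c ∈ (Finset.univ.filter fun c => |(cr c : ℝ) - (M : ℝ) / 2| ≤ δ * M)ᶜ, w c ≤
      Real.sqrt (4 * (M : ℝ) + 1) * (2 * Real.exp (-(2 * δ ^ 2 * M))) := by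
  have hcompl : (Finset.univ.filter fun c => |(cr c : ℝ) - (M : ℝ) / 2| ≤ δ * M)ᶜ =
      Finset.univ.filter fun c => δ * M < |(cr c : ℝ) - (M : ℝ) / 2| := by
    ext c
    simp
  rw [hcompl]
  have hcb : (0 : ℝ) < Nat.centralBinom M := by exact_mod_cast Nat.centralBinom_pos M
  have h1 := tail_of_mgf M cr hmgf δ hδ
  have h2 := one_le_bc_mul_sqrt M
  have h3 : (4 : ℝ) ^ M / (Nat.centralBinom M : ℝ) ≤ Real.sqrt (4 * (M : ℝ) + 1) := by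
    rw [div_le_iff₀ hcb]
    unfold bc at h2
    have h4 : (0 : ℝ) < 4 ^ M := by positivity
    have h5 : (Nat.centralBinom M : ℝ) / 4 ^ M * Real.sqrt (4 * (M : ℝ) + 1) * 4 ^ M =
        Real.sqrt (4 * (M : ℝ) + 1) * (Nat.centralBinom M : ℝ) := by
      field_simp
    have h6 := mul_le_mul_of_nonneg_right h2 h4.le
    rw [h5] at h6
    linarith
  calc ∑ c ∈ Finset.univ.filter (fun c => δ * M < |(cr c : ℝ) - (M : ℝ) / 2|), w c
      ≤ ∑ c ∈ Finset.univ.filter (fun c => δ * M < |(cr c : ℝ) - (M : ℝ) / 2|),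
          1 / (Nat.centralBinom M : ℝ) := Finset.sum_le_sum (fun c _ => hwle c)
    _ = ((Finset.univ.filter fun c => δ * M < |(cr c : ℝ) - (M : ℝ) / 2|).card : ℝ) *
          (1 / (Nat.centralBinom M : ℝ)) := by rw [Finset.sum_const, nsmul_eq_mul]
    _ ≤ (4 ^ M * (2 * Real.exp (-(2 * δ ^ 2 * M)))) * (1 / (Nat.centralBinom M : ℝ)) :=
        mul_le_mul_of_nonneg_right h1 (by positivity)
    _ = (4 : ℝ) ^ M / (Nat.centralBinom M : ℝ) * (2 * Real.exp (-(2 * δ ^ 2 * M))) := by ring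
    _ ≤ _ := mul_le_mul_of_nonneg_right h3 (by positivity)

/-- `bq` is almost constant on the window -/
theorem bq_ratio (M : ℕ) (δ : ℝ) (r r' : ℕ) (hr : |(r : ℝ) - (M : ℝ) / 2| ≤ δ * M)
    (hr' : |(r' : ℝ) - (M : ℝ) / 2| ≤ δ * M) (hpos : 0 < (M : ℝ) / 2 - δ * M) :
    bq r ≤ Real.exp ((δ * M + 1 / 2) / ((M : ℝ) / 2 - δ * M)) * bq r' := by
  have hδM : 0 ≤ δ * M := le_trans (abs_nonneg _) hr
  have hE : 1 ≤ Real.exp ((δ * M + 1 / 2) / ((M : ℝ) / 2 - δ * M)) :=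
    Real.one_le_exp (div_nonneg (by linarith) hpos.le)
  unfold bq
  rcases le_total (r' / 2) (r / 2) with h | h
  · have h1 := bc_antitone h
    have h2 := bc_pos (r' / 2)
    nlinarith
  · obtain ⟨n, hn⟩ := Nat.exists_eq_add_of_le h
    rw [hn, mul_comm]
    refine le_trans (bc_le_mul_exp (r / 2) n) ?_
    apply mul_le_mul_of_nonneg_left _ (bc_pos _).le
    apply Real.exp_le_exp.mpr
    have a1 : r ≤ 2 * (r / 2) + 1 := by omega
    have a2 : 2 * (r' / 2) ≤ r' := by omega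
    have a1' : (r : ℝ) ≤ 2 * ((r / 2 : ℕ) : ℝ) + 1 := by exact_mod_cast a1
    have a2' : 2 * ((r' / 2 : ℕ) : ℝ) ≤ (r' : ℝ) := by exact_mod_cast a2
    have a3 : ((r' / 2 : ℕ) : ℝ) = ((r / 2 : ℕ) : ℝ) + (n : ℝ) := by exact_mod_cast hn
    have b1 := (abs_le.mp hr).1
    have b2 := (abs_le.mp hr').2
    have hn' : (n : ℝ) ≤ δ * M + 1 / 2 := by linarith
    have hden : (M : ℝ) / 2 - δ * M ≤ 2 * ((r / 2 : ℕ) : ℝ) + 1 := by linarith
    have hn0 : (0 : ℝ) ≤ n := Nat.cast_nonneg n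
    calc (n : ℝ) / (2 * ((r / 2 : ℕ) : ℝ) + 1) ≤ (n : ℝ) / ((M : ℝ) / 2 - δ * M) :=
          div_le_div_of_nonneg_left hn0 hpos hden
      _ ≤ _ := div_le_div_of_nonneg_right hn' hpos.le

/-- lower bound for `bq` -/
theorem bq_lower (M r : ℕ) (hr : r ≤ M) : 1 / Real.sqrt (2 * (M : ℝ) + 1) ≤ bq r := by
  unfold bq
  have h := one_le_bc_mul_sqrt (r / 2)
  have h1 : 4 * ((r / 2 : ℕ) : ℝ) + 1 ≤ 2 * (M : ℝ) + 1 := by
    have : 4 * (r / 2) + 1 ≤ 2 * M + 1 := by omega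
    exact_mod_cast this
  have h2 : Real.sqrt (4 * ((r / 2 : ℕ) : ℝ) + 1) ≤ Real.sqrt (2 * (M : ℝ) + 1) :=
    Real.sqrt_le_sqrt h1
  have h3 : 0 < Real.sqrt (2 * (M : ℝ) + 1) := Real.sqrt_pos.mpr (by positivity)
  rw [div_le_iff₀ h3]
  have := mul_le_mul_of_nonneg_left h2 (bc_pos (r / 2)).le
  linarith

end Vale.Agent.P162.SB
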