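import Vale.Agent.P162.SB.Exp2
import Vale.Agent.P162.SB.Exp3

/-!
# P162, route SB : the exponential moment bound (EXP), abstract sample space
-/

namespace Vale.Agent.P162.SB

open Finset Real

theorem key_num (L s : ℝ) (hL : 300 ≤ L) (hs : L ^ 4 ≤ s) :
    96 * s ^ 3 * Real.exp (4 * L * s - s ^ 2 / (32 * L ^ 2)) ≤ 1 / L ^ 2 := by
  have hL0 : 0 < L := by linarith
  have hL4 : 0 < L ^ 4 := by positivity
  have hs0 : 0 < s := by linarith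
  have h160 : 160 * L ^ 3 ≤ s := by
    have : 160 * L ^ 3 ≤ L * L ^ 3 := mul_le_mul_of_nonneg_right (by linarith) (by positivity)
    nlinarith
  have h1 : 5 * L * s ≤ s ^ 2 / (32 * L ^ 2) := by
    rw [le_div_iff₀ (by positivity)]
    have : 160 * L ^ 3 * s ≤ s * s := mul_le_mul_of_nonneg_right h160 hs0.le
    nlinarith
  have h2 : Real.exp (4 * L * s - s ^ 2 / (32 * L ^ 2)) ≤ Real.exp (-(L * s)) :=
    Real.exp_le_exp.mpr (by linarith)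
  have hy : 0 ≤ L * s := by positivity
  have h3 : (L * s) ^ 4 / (Nat.factorial 4 : ℝ) ≤ Real.exp (L * s) :=
    Real.pow_div_factorial_le_exp (L * s) hy 4
  have h4 : 96 * s ^ 3 * L ^ 2 ≤ Real.exp (L * s) := by
    refine le_trans ?_ h3
    have hf : (Nat.factorial 4 : ℝ) = 24 := by norm_num [Nat.factorial]
    rw [hf, le_div_iff₀ (by norm_num)]
    have h5 : 2304 ≤ L ^ 2 * s := by
      have a1 : (1 : ℝ) ≤ L ^ 2 := by nlinarith
      have a2 : (2304 : ℝ) ≤ s := by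
        have : (300 : ℝ) ^ 4 ≤ L ^ 4 := pow_le_pow_left₀ (by norm_num) hL 4
        nlinarith
      nlinarith
    have h6 : 0 ≤ s ^ 3 * L ^ 2 := by positivity
    have h7 : (L * s) ^ 4 = s ^ 3 * L ^ 2 * (L ^ 2 * s) := by ring
    rw [h7]
    nlinarith
  have h5 : Real.exp (-(L * s)) = 1 / Real.exp (L * s) := by
    rw [Real.exp_neg, one_div]
  calc 96 * s ^ 3 * Real.exp (4 * L * s - s ^ 2 / (32 * L ^ 2))
      ≤ 96 * s ^ 3 * Real.exp (-(L * s)) := mul_le_mul_of_nonneg_left h2 (by positivity)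
    _ = 96 * s ^ 3 / Real.exp (L * s) := by rw [h5]; ring
    _ ≤ 1 / L ^ 2 := by
        rw [div_le_div_iff₀ (Real.exp_pos _) (by positivity)]
        linarith

theorem num_K (L m : ℝ) (hL : 300 ≤ L) (hM : L ^ 8 ≤ m) :
    Real.sqrt (4 * m + 1) * (2 * Real.exp (-(2 * (1 / (8 * L)) ^ 2 * m))) *
      ((2 * Real.sqrt (2 * m + 1)) ^ 2 * Real.exp (L * (2 * Real.sqrt (2 * m + 1)))) ≤
      (1 / L) ^ 2 := by
  have hL0 : 0 < L := by linarith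
  obtain ⟨s, hs⟩ : ∃ s : ℝ, s = Real.sqrt m := ⟨_, rfl⟩
  have hm0 : 0 ≤ m := le_trans (by positivity) hM
  have hs2 : s ^ 2 = m := by rw [hs]; exact Real.sq_sqrt hm0
  have hsL : L ^ 4 ≤ s := by
    rw [hs]
    apply Real.le_sqrt_of_sq_le
    calc (L ^ 4) ^ 2 = L ^ 8 := by ring
      _ ≤ _ := hM
  have hs1 : 1 ≤ s := by
    have : (1 : ℝ) ≤ L ^ 4 := one_le_pow₀ (by linarith)
    linarith
  have hs0 : 0 < s := by linarith
  have hm1 : 1 ≤ m := by rw [← hs2]; nlinarith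
  obtain ⟨q1, hq1⟩ : ∃ q : ℝ, q = Real.sqrt (4 * m + 1) := ⟨_, rfl⟩
  obtain ⟨q2, hq2⟩ : ∃ q : ℝ, q = Real.sqrt (2 * m + 1) := ⟨_, rfl⟩
  have hq1le : q1 ≤ 3 * s := by
    rw [hq1]
    apply Real.sqrt_le_iff.mpr
    constructor
    · linarith
    · nlinarith
  have hq2le : q2 ≤ 2 * s := by
    rw [hq2]
    apply Real.sqrt_le_iff.mpr
    constructor
    · linarith
    · nlinarith
  have hq20 : 0 ≤ q2 := by rw [hq2]; exact Real.sqrt_nonneg _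
  have hq10 : 0 ≤ q1 := by rw [hq1]; exact Real.sqrt_nonneg _
  rw [← hq1, ← hq2]
  have hexpo : 2 * (1 / (8 * L)) ^ 2 * m = s ^ 2 / (32 * L ^ 2) := by
    rw [hs2]; field_simp; ring
  rw [hexpo]
  have a1 : q1 * (2 * Real.exp (-(s ^ 2 / (32 * L ^ 2)))) ≤
      3 * s * (2 * Real.exp (-(s ^ 2 / (32 * L ^ 2)))) :=
    mul_le_mul_of_nonneg_right hq1le (by positivity)
  have a2 : (2 * q2) ^ 2 ≤ 16 * s ^ 2 := by nlinarith
  have a3 : Real.exp (L * (2 * q2)) ≤ Real.exp (4 * L * s) :=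
    Real.exp_le_exp.mpr (by nlinarith)
  have a4 : (2 * q2) ^ 2 * Real.exp (L * (2 * q2)) ≤ 16 * s ^ 2 * Real.exp (4 * L * s) :=
    mul_le_mul a2 a3 (Real.exp_pos _).le (by positivity)
  have a5 := key_num L s hL hsL
  calc q1 * (2 * Real.exp (-(s ^ 2 / (32 * L ^ 2)))) * ((2 * q2) ^ 2 * Real.exp (L * (2 * q2)))
      ≤ (3 * s * (2 * Real.exp (-(s ^ 2 / (32 * L ^ 2))))) *
          (16 * s ^ 2 * Real.exp (4 * L * s)) :=
        mul_le_mul a1 a4 (by positivity) (by positivity)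
    _ = 96 * s ^ 3 * (Real.exp (4 * L * s) * Real.exp (-(s ^ 2 / (32 * L ^ 2)))) := by ring
    _ = 96 * s ^ 3 * Real.exp (4 * L * s - s ^ 2 / (32 * L ^ 2)) := by
        rw [← Real.exp_add]; rfl
    _ ≤ 1 / L ^ 2 := a5
    _ = (1 / L) ^ 2 := by ring

theorem num_tm (L m : ℝ) (hL : 300 ≤ L) (hM : L ^ 8 ≤ m) : 8 ≤ 1 / L * m := by
  have hL0 : 0 < L := by linarith
  rw [one_div, le_inv_mul_iff₀ hL0]
  have c3 : (8 : ℝ) ≤ L ^ 7 := by
    have h1 : (1 : ℝ) ≤ L ^ 6 := one_le_pow₀ (by linarith)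
    have h2 : L ^ 7 = L * L ^ 6 := by ring
    nlinarith
  have : L ^ 8 = L * L ^ 7 := by ring
  nlinarith

theorem num_pos (t m : ℝ) (ht1 : t ≤ 1 / 300) (hm : 0 < m) : 0 < m / 2 - t / 8 * m := by
  have : t / 8 * m ≤ 1 / 2400 * m := mul_le_mul_of_nonneg_right (by linarith) hm.le
  linarith

theorem num_lam (t m : ℝ) (ht0 : 0 < t) (ht1 : t ≤ 1 / 300) (hm : 0 < m) (htm : 8 ≤ t * m) :
    Real.exp ((t / 8 * m + 1 / 2) / (m / 2 - t / 8 * m)) ≤ 1 + t / 2 + t ^ 2 / 4 := by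
  have hpos := num_pos t m ht1 hm
  have hlam : (t / 8 * m + 1 / 2) / (m / 2 - t / 8 * m) ≤ t / 2 := by
    rw [div_le_iff₀ hpos]
    obtain ⟨a, ha⟩ : ∃ a, a = t * m := ⟨_, rfl⟩
    have h1 : t * a ≤ 1 / 300 * a := mul_le_mul_of_nonneg_right ht1 (by rw [ha]; positivity)
    have e1 : t / 8 * m + 1 / 2 = a / 8 + 1 / 2 := by rw [ha]; ring
    have e2 : t / 2 * (m / 2 - t / 8 * m) = a / 4 - t * a / 16 := by rw [ha]; ring
    rw [e1, e2]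
    rw [← ha] at htm
    linarith
  have d1 : Real.exp ((t / 8 * m + 1 / 2) / (m / 2 - t / 8 * m)) ≤ Real.exp (t / 2) :=
    Real.exp_le_exp.mpr hlam
  have d2 : |t / 2| ≤ 1 := by rw [abs_of_pos (by linarith)]; linarith
  have d3 := Real.abs_exp_sub_one_sub_id_le d2
  have d4 := (abs_le.mp d3).2
  have e : (t / 2) ^ 2 = t ^ 2 / 4 := by ring
  rw [e] at d4
  linarith

theorem num_fin (t eps q2 Y E : ℝ) (ht0 : 0 < t) (ht1 : t ≤ 1 / 300) (heps0 : 0 ≤ eps)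
    (hq2 : 1 ≤ q2) (hY : 1 ≤ Y) (hK : eps * ((2 * q2) ^ 2 * Y) ≤ t ^ 2)
    (hE : E ≤ 1 + t / 2 + t ^ 2 / 4) :
    eps ≤ 1 / 2 ∧ E ≤ (1 + t) * (1 - eps) ∧ E + eps * q2 ≤ 1 + t := by
  have hbig : q2 ≤ (2 * q2) ^ 2 * Y := by
    have b2 : q2 ≤ (2 * q2) ^ 2 := by nlinarith
    have b3 : 0 ≤ (2 * q2) ^ 2 := by positivity
    nlinarith
  have heq2 : eps * q2 ≤ t ^ 2 := le_trans (mul_le_mul_of_nonneg_left hbig heps0) hK
  have hepst : eps ≤ t ^ 2 := by nlinarith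
  have ht2 : t ^ 2 ≤ t / 300 := by nlinarith
  refine ⟨by nlinarith, ?_, by nlinarith⟩
  have h1 : (1 + t) * eps ≤ (1 + t) * t ^ 2 := mul_le_mul_of_nonneg_left hepst (by linarith)
  have h2 : t * t ^ 2 ≤ t * (t / 300) := mul_le_mul_of_nonneg_left ht2 ht0.le
  nlinarith

/-- **(EXP), moment form.** -/
theorem exp_moment_abs {Ω : Type*} [Fintype Ω] [DecidableEq Ω] (M : ℕ) (cr : Ω → ℕ) (w : Ω → ℝ)
    (L : ℝ) (hL : 300 ≤ L) (hM : L ^ 8 ≤ M) (hw : ∀ c, 0 ≤ w c) (hw1 : ∑ c, w c = 1)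
    (hwle : ∀ c, w c ≤ 1 / (Nat.centralBinom M : ℝ)) (hcr : ∀ c, cr c ≤ M)
    (hmgf : ∀ u : ℝ, ∑ c, Real.exp (u * ((cr c : ℝ) - (M : ℝ) / 2)) ≤
      4 ^ M * Real.exp (u ^ 2 * M / 8)) :
    (∑ c, w c * (bq (cr c) / (∑ c', w c' * bq (cr c')) - 1) = 0) ∧
    (∑ c, w c * ((bq (cr c) / (∑ c', w c' * bq (cr c')) - 1) ^ 2 *
        Real.exp (L * |bq (cr c) / (∑ c', w c' * bq (cr c')) - 1|)) ≤ 4 / L ^ 2) := by
  have hL0 : 0 < L := by linarith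
  have hm0 : (0 : ℝ) < M := lt_of_lt_of_le (by positivity) hM
  have ht0 : 0 < 1 / L := by positivity
  have ht1 : 1 / L ≤ 1 / 300 := one_div_le_one_div_of_le (by norm_num) hL
  have htL : L * (1 / L) = 1 := by field_simp
  have hδt : 1 / (8 * L) = 1 / L / 8 := by field_simp
  have hδ0 : 0 ≤ 1 / (8 * L) := by positivity
  have hK := num_K L M hL hM
  have hpos := num_pos (1 / L) M ht1 hm0
  have hE := num_lam (1 / L) M ht0 ht1 hm0 (num_tm L M hL hM)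
  have hq2one : 1 ≤ Real.sqrt (2 * (M : ℝ) + 1) := by
    apply Real.le_sqrt_of_sq_le
    linarith
  have hq2pos : 0 < Real.sqrt (2 * (M : ℝ) + 1) := by linarith
  have heps0 : 0 ≤ Real.sqrt (4 * (M : ℝ) + 1) *
      (2 * Real.exp (-(2 * (1 / (8 * L)) ^ 2 * (M : ℝ)))) := by positivity
  obtain ⟨f1, f2, f3⟩ := num_fin (1 / L) _ _ _ _ ht0 ht1 heps0 hq2one
    (Real.one_le_exp (by positivity)) hK hE
  have hmain := window_moment w (fun c => bq (cr c)) hw hw1 (fun c => bq_pos _)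
    (fun c => bq_le_one _)
    (Finset.univ.filter fun c => |(cr c : ℝ) - (M : ℝ) / 2| ≤ 1 / (8 * L) * M)
    (Real.exp ((1 / L / 8 * M + 1 / 2) / ((M : ℝ) / 2 - 1 / L / 8 * M)))
    (Real.sqrt (4 * (M : ℝ) + 1) * (2 * Real.exp (-(2 * (1 / (8 * L)) ^ 2 * (M : ℝ)))))
    (1 / Real.sqrt (2 * (M : ℝ) + 1)) (1 / L) L
    (by
      intro c hc c' hc'
      have h1 := (Finset.mem_filter.mp hc).2
      have h2 := (Finset.mem_filter.mp hc').2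
      rw [hδt] at h1 h2
      exact bq_ratio M (1 / L / 8) _ _ h1 h2 hpos)
    (fun c _ => bq_lower M _ (hcr c))
    (by positivity)
    (wtail_of_mgf M cr w hwle hmgf (1 / (8 * L)) hδ0)
    heps0 f1 f2
    (by
      rw [div_div_eq_mul_div, div_one]
      exact f3)
    ht0.le hL0.le
  refine ⟨hmain.1, le_trans hmain.2 ?_⟩
  have hx : 2 / (1 / Real.sqrt (2 * (M : ℝ) + 1)) = 2 * Real.sqrt (2 * (M : ℝ) + 1) := by
    field_simp
  rw [hx, htL]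
  have e1 := Real.exp_one_lt_d9
  have e2 : 4 / L ^ 2 = 4 * (1 / L) ^ 2 := by ring
  rw [e2]
  have e3 : 0 ≤ (1 / L) ^ 2 := by positivity
  have e4 : (1 / L) ^ 2 * Real.exp 1 ≤ (1 / L) ^ 2 * 3 :=
    mul_le_mul_of_nonneg_left (by linarith) e3
  linarith

/-- **(EXP).**  For `|g| ≤ L`, `L ≥ 300`, `L ^ 8 ≤ M`. -/
theorem exp_bound_abs {Ω : Type*} [Fintype Ω] [DecidableEq Ω] (M : ℕ) (cr : Ω → ℕ) (w : Ω → ℝ)
    (L : ℝ) (hL : 300 ≤ L) (hM : L ^ 8 ≤ M) (hw : ∀ c, 0 ≤ w c) (hw1 : ∑ c, w c = 1)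
    (hwle : ∀ c, w c ≤ 1 / (Nat.centralBinom M : ℝ)) (hcr : ∀ c, cr c ≤ M)
    (hmgf : ∀ u : ℝ, ∑ c, Real.exp (u * ((cr c : ℝ) - (M : ℝ) / 2)) ≤
      4 ^ M * Real.exp (u ^ 2 * M / 8)) (g : ℝ) (hg : |g| ≤ L) :
    ∑ c, w c * Real.exp (g * (bq (cr c) / (∑ c', w c' * bq (cr c')) - 1)) ≤
      Real.exp (4 / L ^ 2 * g ^ 2) := by
  obtain ⟨h1, h2⟩ := exp_moment_abs M cr w L hL hM hw hw1 hwle hcr hmgf
  exact exp_of_moment w _ hw hw1 h1 L _ h2 g hg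

end Vale.Agent.P162.SB
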