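import Vale.Agent.P162.SB.Exp1

/-!
# P162, route SB : colourings of `2 M` points, crossing edges of the matching `i ~ i + M`
-/

namespace Vale.Agent.P162.SB

open Finset Real

/-- the lower end of the edge `i` -/
def loP (M : ℕ) (i : Fin M) : Fin (2 * M) := ⟨i.val, by have := i.2; omega⟩

/-- the upper end of the edge `i` -/
def hiP (M : ℕ) (i : Fin M) : Fin (2 * M) := ⟨i.val + M, by have := i.2; omega⟩

/-- number of edges `{i, i + M}` whose two ends have different colours -/
def cross (M : ℕ) (c : Fin (2 * M) → Bool) : ℕ :=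
  (Finset.univ.filter fun i : Fin M => c (loP M i) ≠ c (hiP M i)).card

theorem cross_le (M : ℕ) (c : Fin (2 * M) → Bool) : cross M c ≤ M := by
  unfold cross
  calc _ ≤ (Finset.univ : Finset (Fin M)).card := Finset.card_filter_le _ _
    _ = M := by simp

/-- a colouring of `2 M` points is a colouring of the `M` edges by pairs of colours -/
def pairE (M : ℕ) : (Fin (2 * M) → Bool) ≃ (Fin M → Bool × Bool) where
  toFun c := fun i => (c (loP M i), c (hiP M i))
  invFun p := fun x => if h : x.val < M then (p ⟨x.val, h⟩).1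
    else (p ⟨x.val - M, by have := x.2; omega⟩).2
  left_inv := by
    intro c
    funext x
    by_cases h : x.val < M
    · simp only [h, dif_pos]
      congr 1
    · simp only [h, dif_neg, not_false_eq_true]
      congr 1
      apply Fin.ext
      simp only [hiP]
      omega
  right_inv := by
    intro p
    funext i
    have h1 : (loP M i).val < M := i.2
    have h2 : ¬ (hiP M i).val < M := by simp [hiP]
    apply Prod.ext
    · simp only [h1, dif_pos]
      congr 1
    · simp only [h2, dif_neg, not_false_eq_true]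
      congr 2
      apply Fin.ext
      simp [hiP]

/-- one factor of the moment generating function -/
noncomputable def phiE (u : ℝ) (q : Bool × Bool) : ℝ :=
  Real.exp (u * ((if q.1 ≠ q.2 then (1 : ℝ) else 0) - 1 / 2))

theorem sum_phiE (u : ℝ) : ∑ q : Bool × Bool, phiE u q = 4 * Real.cosh (u / 2) := by
  rw [Fintype.sum_prod_type]
  simp only [Fintype.sum_bool, phiE]
  rw [Real.cosh_eq]
  have e1 : u * ((1 : ℝ) - 1 / 2) = u / 2 := by ring
  have e2 : u * ((0 : ℝ) - 1 / 2) = -(u / 2) := by ring
  have a1 : (if (true : Bool) ≠ true then (1 : ℝ) else 0) = 0 := by simp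
  have a2 : (if (true : Bool) ≠ false then (1 : ℝ) else 0) = 1 := by simp
  have a3 : (if (false : Bool) ≠ true then (1 : ℝ) else 0) = 1 := by simp
  have a4 : (if (false : Bool) ≠ false then (1 : ℝ) else 0) = 0 := by simp
  rw [a1, a2, a3, a4, e1, e2]
  ring

theorem exp_cross (M : ℕ) (u : ℝ) (c : Fin (2 * M) → Bool) :
    Real.exp (u * ((cross M c : ℝ) - (M : ℝ) / 2)) = ∏ i : Fin M, phiE u (pairE M c i) := by
  unfold phiE
  rw [← Real.exp_sum]
  congr 1
  rw [← Finset.mul_sum, Finset.sum_sub_distrib]
  congr 2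
  · unfold cross
    rw [Finset.card_filter]
    push_cast
    rfl
  · simp
    ring

/-- the moment generating function of the number of crossing edges of a uniform colouring -/
theorem mgf_cross_eq (M : ℕ) (u : ℝ) :
    ∑ c : Fin (2 * M) → Bool, Real.exp (u * ((cross M c : ℝ) - (M : ℝ) / 2)) =
      (4 * Real.cosh (u / 2)) ^ M := by
  rw [← sum_phiE, Fintype.sum_pow]
  rw [← Equiv.sum_comp (pairE M)]
  exact Finset.sum_congr rfl (fun c _ => exp_cross M u c)

theorem mgf_cross (M : ℕ) (u : ℝ) :
    ∑ c : Fin (2 * M) → Bool, Real.exp (u * ((cross M c : ℝ) - (M : ℝ) / 2)) ≤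
      4 ^ M * Real.exp (u ^ 2 * M / 8) := by
  rw [mgf_cross_eq, mul_pow]
  apply mul_le_mul_of_nonneg_left _ (by positivity)
  have h := Real.cosh_le_exp_half_sq (u / 2)
  calc Real.cosh (u / 2) ^ M ≤ Real.exp ((u / 2) ^ 2 / 2) ^ M :=
        pow_le_pow_left₀ (Real.cosh_pos _).le h M
    _ = Real.exp (u ^ 2 * M / 8) := by
        rw [← Real.exp_nat_mul]
        congr 1
        ring

end Vale.Agent.P162.SB
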