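import Vale.Agent.P162.SB.Exp4
import Vale.Agent.P162.SB.Exp5

/-!
# P162, route SB : (EXP) for colourings of `2 M` points and the matching `i ~ i + M`
-/

namespace Vale.Agent.P162.SB

open Finset Real

/-- (EXP) for any law on colourings dominated by `1 / C(2M,M)` -/
theorem exp_bound_col_w (M : ℕ) (w : (Fin (2 * M) → Bool) → ℝ) (L : ℝ) (hL : 300 ≤ L)
    (hM : L ^ 8 ≤ M) (hw : ∀ c, 0 ≤ w c) (hw1 : ∑ c, w c = 1)
    (hwle : ∀ c, w c ≤ 1 / (Nat.centralBinom M : ℝ)) (g : ℝ) (hg : |g| ≤ L) :
    ∑ c, w c * Real.exp (g * (bq (cross M c) / (∑ c', w c' * bq (cross M c')) - 1)) ≤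
      Real.exp (4 / L ^ 2 * g ^ 2) :=
  exp_bound_abs M (cross M) w L hL hM hw hw1 hwle (cross_le M) (mgf_cross M) g hg

/-- moment form of (EXP) for any law on colourings dominated by `1 / C(2M,M)` -/
theorem exp_moment_col_w (M : ℕ) (w : (Fin (2 * M) → Bool) → ℝ) (L : ℝ) (hL : 300 ≤ L)
    (hM : L ^ 8 ≤ M) (hw : ∀ c, 0 ≤ w c) (hw1 : ∑ c, w c = 1)
    (hwle : ∀ c, w c ≤ 1 / (Nat.centralBinom M : ℝ)) :
    (∑ c, w c * (bq (cross M c) / (∑ c', w c' * bq (cross M c')) - 1) = 0) ∧
    (∑ c, w c * ((bq (cross M c) / (∑ c', w c' * bq (cross M c')) - 1) ^ 2 *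
        Real.exp (L * |bq (cross M c) / (∑ c', w c' * bq (cross M c')) - 1|)) ≤ 4 / L ^ 2) :=
  exp_moment_abs M (cross M) w L hL hM hw hw1 hwle (cross_le M) (mgf_cross M)

/-- balanced colourings -/
def bal (M : ℕ) (c : Fin (2 * M) → Bool) : Prop :=
  (Finset.univ.filter fun x => c x = true).card = M

instance (M : ℕ) : DecidablePred (bal M) := fun c => by unfold bal; infer_instance

/-- the uniform law on balanced colourings -/
noncomputable def wt (M : ℕ) (c : Fin (2 * M) → Bool) : ℝ :=
  if bal M c then 1 / ((2 * M).choose M : ℝ) else 0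

theorem card_bal (M : ℕ) :
    (Finset.univ.filter fun c : Fin (2 * M) → Bool => bal M c).card = (2 * M).choose M := by
  have h : (Finset.univ.filter fun c : Fin (2 * M) → Bool => bal M c).card =
      (Finset.powersetCard M (Finset.univ : Finset (Fin (2 * M)))).card := by
    apply Finset.card_bij (fun c _ => Finset.univ.filter fun x => c x = true)
    · intro c hc
      rw [Finset.mem_powersetCard]
      exact ⟨Finset.subset_univ _, (Finset.mem_filter.mp hc).2⟩
    · intro c _ c' _ hcc
      funext x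
      have := Finset.ext_iff.mp hcc x
      simp only [Finset.mem_filter, Finset.mem_univ, true_and] at this
      cases h1 : c x <;> cases h2 : c' x <;> simp_all
    · intro s hs
      refine ⟨fun x => decide (x ∈ s), ?_, ?_⟩
      · rw [Finset.mem_filter]
        refine ⟨Finset.mem_univ _, ?_⟩
        unfold bal
        have : (Finset.univ.filter fun x => decide (x ∈ s) = true) = s := by
          ext x; simp
        rw [this]
        exact (Finset.mem_powersetCard.mp hs).2
      · ext x; simp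
  rw [h, Finset.card_powersetCard]
  simp

theorem wt_nonneg (M : ℕ) (c : Fin (2 * M) → Bool) : 0 ≤ wt M c := by
  unfold wt
  split_ifs
  · positivity
  · exact le_refl _

theorem sum_wt (M : ℕ) : ∑ c, wt M c = 1 := by
  unfold wt
  rw [← Finset.sum_filter, Finset.sum_const, card_bal, nsmul_eq_mul]
  have : (0 : ℝ) < ((2 * M).choose M : ℝ) := by
    exact_mod_cast Nat.choose_pos (by omega)
  field_simp

theorem wt_le (M : ℕ) (c : Fin (2 * M) → Bool) : wt M c ≤ 1 / (Nat.centralBinom M : ℝ) := by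
  unfold wt
  rw [Nat.centralBinom_eq_two_mul_choose]
  split_ifs
  · exact le_refl _
  · positivity

/-- **(EXP)** for the uniform balanced colouring -/
theorem exp_bound_col (M : ℕ) (L : ℝ) (hL : 300 ≤ L) (hM : L ^ 8 ≤ M) (g : ℝ) (hg : |g| ≤ L) :
    ∑ c, wt M c * Real.exp (g * (bq (cross M c) / (∑ c', wt M c' * bq (cross M c')) - 1)) ≤
      Real.exp (4 / L ^ 2 * g ^ 2) :=
  exp_bound_col_w M (wt M) L hL hM (wt_nonneg M) (sum_wt M) (wt_le M) g hg

/-- `bq` at even arguments -/
theorem bq_even (r : ℕ) (hr : Even r) : bq r = (r.choose (r / 2) : ℝ) / 2 ^ r := by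
  obtain ⟨k, hk⟩ := hr
  have h2 : r = 2 * k := by omega
  subst h2
  have h3 : 2 * k / 2 = k := by omega
  unfold bq bc
  rw [h3, Nat.centralBinom_eq_two_mul_choose, pow_mul]
  norm_num

end Vale.Agent.P162.SB
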