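import Mathlib

/-!
# P162, route SB : the scalar core of the exponential moment bound (EXP)

`P r` is the law of the number `r` of crossing edges (an abstract weight dominated by a multiple of
the binomial law), `bq r = C(r, r/2) / 2 ^ r` the return probability of the simple walk.
-/

namespace Vale.Agent.P162.SB

open Finset Real

/-- return probability of the simple random walk after `r` steps (`r` even) -/
noncomputable def bq (r : ℕ) : ℝ := (r.choose (r / 2) : ℝ) / 2 ^ r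

/-- `C(2n,n) / 4 ^ n` -/
noncomputable def an (n : ℕ) : ℝ := (n.centralBinom : ℝ) / 4 ^ n

lemma bq_two_mul (n : ℕ) : bq (2 * n) = an n := by
  unfold bq an
  rw [Nat.centralBinom_eq_two_mul_choose]
  have h : 2 * n / 2 = n := by omega
  rw [h, pow_mul]
  norm_num

lemma an_pos (n : ℕ) : 0 < an n := by
  unfold an
  have := Nat.centralBinom_pos n
  positivity

lemma an_zero : an 0 = 1 := by
  unfold an
  simp

lemma an_succ (n : ℕ) : an (n + 1) = an n * ((2 * (n : ℝ) + 1) / (2 * (n : ℝ) + 2)) := by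
  unfold an
  have h := Nat.succ_mul_centralBinom_succ n
  have h' : ((n : ℝ) + 1) * ((n + 1).centralBinom : ℝ) = 2 * (2 * (n : ℝ) + 1) * (n.centralBinom : ℝ) := by
    exact_mod_cast h
  have hn : (0 : ℝ) < (n : ℝ) + 1 := by positivity
  have h4 : (0 : ℝ) < 4 ^ n := by positivity
  rw [pow_succ, div_mul_div_comm, div_eq_div_iff (by positivity) (by positivity)]
  linear_combination (2 * (4 : ℝ) ^ n) * h'

lemma an_succ_le (n : ℕ) : an (n + 1) ≤ an n := by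
  rw [an_succ]
  have h := an_pos n
  have h1 : (2 * (n : ℝ) + 1) / (2 * (n : ℝ) + 2) ≤ 1 := by
    rw [div_le_one (by positivity)]
    linarith
  nlinarith

lemma an_antitone : Antitone an := antitone_nat_of_succ_le an_succ_le

lemma an_le_one (n : ℕ) : an n ≤ 1 := by
  have := an_antitone (Nat.zero_le n)
  rwa [an_zero] at this

lemma an_sq_lower' (n : ℕ) : 1 ≤ 4 * ((n : ℝ) + 1) * (an (n + 1)) ^ 2 := by
  induction n with
  | zero =>
    rw [an_succ, an_zero]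
    norm_num
  | succ n ih =>
    rw [an_succ (n + 1)]
    push_cast
    have hn : (0 : ℝ) ≤ (n : ℝ) := Nat.cast_nonneg n
    have h2 : (0 : ℝ) < 2 * ((n : ℝ) + 1) + 2 := by positivity
    have key : 4 * ((n : ℝ) + 1 + 1) * (an (n + 1) * ((2 * ((n : ℝ) + 1) + 1) / (2 * ((n : ℝ) + 1) + 2))) ^ 2
        = (4 * ((n : ℝ) + 1) * an (n + 1) ^ 2) *
          ((2 * ((n : ℝ) + 1) + 1) ^ 2 / (4 * ((n : ℝ) + 1) * ((n : ℝ) + 2))) := by
      field_simp
      ring
    rw [key]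
    have h3 : 1 ≤ (2 * ((n : ℝ) + 1) + 1) ^ 2 / (4 * ((n : ℝ) + 1) * ((n : ℝ) + 2)) := by
      rw [one_le_div (by positivity)]
      nlinarith
    nlinarith

/-- `a_n ^ 2 ≥ 1 / (2 M)` as soon as `2 n ≤ M` -/
lemma an_sq_lower (n M : ℕ) (h : 2 * n ≤ M) (hM : 1 ≤ M) : 1 ≤ 2 * (M : ℝ) * (an n) ^ 2 := by
  have hM' : (1 : ℝ) ≤ (M : ℝ) := by exact_mod_cast hM
  rcases n with _ | n
  · rw [an_zero]; linarith
  · have h1 := an_sq_lower' n
    have h2 : 2 * ((n : ℝ) + 1) ≤ (M : ℝ) := by exact_mod_cast h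
    have h3 : 0 ≤ (an (n + 1)) ^ 2 := sq_nonneg _
    nlinarith

/-- central binomial lower bound -/
lemma centralBinom_lower (n : ℕ) (hn : 1 ≤ n) :
    (4 : ℝ) ^ n ≤ 2 * Real.sqrt n * (n.centralBinom : ℝ) := by
  obtain ⟨k, rfl⟩ : ∃ k, n = k + 1 := ⟨n - 1, by omega⟩
  have h1 := an_sq_lower' k
  have hs : Real.sqrt ((k + 1 : ℕ) : ℝ) ^ 2 = ((k + 1 : ℕ) : ℝ) := Real.sq_sqrt (by positivity)
  have hs0 : 0 ≤ Real.sqrt ((k + 1 : ℕ) : ℝ) := Real.sqrt_nonneg _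
  have ha := an_pos (k + 1)
  have h2 : 1 ≤ 2 * Real.sqrt ((k + 1 : ℕ) : ℝ) * an (k + 1) := by
    by_contra hlt
    have hlt := not_le.mp hlt
    have h0 : 0 ≤ 2 * Real.sqrt ((k + 1 : ℕ) : ℝ) * an (k + 1) := by positivity
    have h3 : (2 * Real.sqrt ((k + 1 : ℕ) : ℝ) * an (k + 1)) ^ 2 < 1 := by nlinarith
    have h4 : (2 * Real.sqrt ((k + 1 : ℕ) : ℝ) * an (k + 1)) ^ 2 = 4 * ((k : ℝ) + 1) * an (k + 1) ^ 2 := by
      rw [mul_pow, mul_pow, hs]; push_cast; ring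
    linarith
  unfold an at h2
  have h4 : (0 : ℝ) < 4 ^ (k + 1) := by positivity
  rw [← mul_div_assoc, le_div_iff₀ h4] at h2
  linarith

/-- ratio of two values of `a` -/
lemma an_ratio (n k : ℕ) : an n ≤ an (n + k) * Real.exp ((k : ℝ) / (2 * (n : ℝ) + 1)) := by
  induction k with
  | zero => simp
  | succ k ih =>
    have h1 : an (n + k) = an (n + k + 1) * ((2 * ((n + k : ℕ) : ℝ) + 2) / (2 * ((n + k : ℕ) : ℝ) + 1)) := by
      rw [an_succ (n + k)]
      field_simp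
    have hpos := an_pos (n + k + 1)
    have h2 : (2 * ((n + k : ℕ) : ℝ) + 2) / (2 * ((n + k : ℕ) : ℝ) + 1) ≤ Real.exp (1 / (2 * (n : ℝ) + 1)) := by
      have h3 : (2 * ((n + k : ℕ) : ℝ) + 2) / (2 * ((n + k : ℕ) : ℝ) + 1) = 1 / (2 * ((n + k : ℕ) : ℝ) + 1) + 1 := by
        field_simp
        ring
      rw [h3]
      have h4 : 1 / (2 * ((n + k : ℕ) : ℝ) + 1) ≤ 1 / (2 * (n : ℝ) + 1) := by
        apply one_div_le_one_div_of_le (by positivity)
        push_cast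
        have : (0 : ℝ) ≤ (k : ℝ) := Nat.cast_nonneg k
        linarith
      have h5 := Real.add_one_le_exp (1 / (2 * (n : ℝ) + 1))
      linarith
    have h6 : Real.exp (((k + 1 : ℕ) : ℝ) / (2 * (n : ℝ) + 1)) =
        Real.exp (1 / (2 * (n : ℝ) + 1)) * Real.exp ((k : ℝ) / (2 * (n : ℝ) + 1)) := by
      rw [← Real.exp_add]
      congr 1
      push_cast
      ring
    rw [h6, ← add_assoc]
    calc an n ≤ an (n + k) * Real.exp ((k : ℝ) / (2 * (n : ℝ) + 1)) := ih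
      _ = an (n + k + 1) * ((2 * ((n + k : ℕ) : ℝ) + 2) / (2 * ((n + k : ℕ) : ℝ) + 1)) *
            Real.exp ((k : ℝ) / (2 * (n : ℝ) + 1)) := by rw [h1]
      _ ≤ an (n + k + 1) * Real.exp (1 / (2 * (n : ℝ) + 1)) * Real.exp ((k : ℝ) / (2 * (n : ℝ) + 1)) := by
          apply mul_le_mul_of_nonneg_right _ (Real.exp_pos _).le
          exact mul_le_mul_of_nonneg_left h2 hpos.le
      _ = _ := by ring

/-- moment generating function of the binomial weights -/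
lemma mgf_binom (M : ℕ) (u : ℝ) :
    ∑ r ∈ range (M + 1), (M.choose r : ℝ) * Real.exp (u * ((r : ℝ) - M / 2)) =
      (Real.exp (u / 2) + Real.exp (-(u / 2))) ^ M := by
  rw [add_pow]
  apply Finset.sum_congr rfl
  intro r hr
  have hr' : r ≤ M := by
    have := Finset.mem_range.mp hr
    omega
  rw [← Real.exp_nat_mul, ← Real.exp_nat_mul, ← Real.exp_add, mul_comm]
  congr 2
  rw [Nat.cast_sub hr']
  ring

lemma mgf_binom_le (M : ℕ) (u : ℝ) :
    ∑ r ∈ range (M + 1), (M.choose r : ℝ) * Real.exp (u * ((r : ℝ) - M / 2)) ≤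
      2 ^ M * Real.exp (M * u ^ 2 / 8) := by
  rw [mgf_binom]
  have h1 : Real.exp (u / 2) + Real.exp (-(u / 2)) = 2 * Real.cosh (u / 2) := by
    rw [Real.cosh_eq]; ring
  have h2 := Real.cosh_le_exp_half_sq (u / 2)
  have h3 : 0 ≤ Real.cosh (u / 2) := (Real.cosh_pos _).le
  rw [h1, mul_pow]
  apply mul_le_mul_of_nonneg_left _ (by positivity)
  calc Real.cosh (u / 2) ^ M ≤ (Real.exp ((u / 2) ^ 2 / 2)) ^ M := pow_le_pow_left₀ h3 h2 M
    _ = Real.exp (M * u ^ 2 / 8) := by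
        rw [← Real.exp_nat_mul]
        congr 1
        ring

/-- two-sided tail of the binomial weights -/
lemma tail_binom (M : ℕ) (hM : 1 ≤ M) (t : ℝ) (ht : 0 ≤ t) :
    ∑ r ∈ (range (M + 1)).filter (fun r : ℕ => ¬ |(r : ℝ) - M / 2| ≤ t), (M.choose r : ℝ) ≤
      2 ^ M * (2 * Real.exp (-(2 * t ^ 2 / M))) := by
  have hM' : (0 : ℝ) < (M : ℝ) := by exact_mod_cast hM
  set u : ℝ := 4 * t / M with hu
  have hu0 : 0 ≤ u := by positivity
  have hpt : ∀ r ∈ (range (M + 1)).filter (fun r : ℕ => ¬ |(r : ℝ) - M / 2| ≤ t),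
      (M.choose r : ℝ) ≤ Real.exp (-(u * t)) * ((M.choose r : ℝ) * Real.exp (u * ((r : ℝ) - M / 2)) +
        (M.choose r : ℝ) * Real.exp ((-u) * ((r : ℝ) - M / 2))) := by
    intro r hr
    have hr2 := not_le.mp (Finset.mem_filter.mp hr).2
    have hc : (0 : ℝ) ≤ (M.choose r : ℝ) := Nat.cast_nonneg _
    have e1 := Real.exp_pos (u * ((r : ℝ) - M / 2))
    have e2 := Real.exp_pos ((-u) * ((r : ℝ) - M / 2))
    have e0 := Real.exp_pos (-(u * t))
    have hone : 1 ≤ Real.exp (-(u * t)) * (Real.exp (u * ((r : ℝ) - M / 2)) +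
        Real.exp ((-u) * ((r : ℝ) - M / 2))) := by
      rw [mul_add, ← Real.exp_add, ← Real.exp_add]
      rcases lt_abs.mp hr2 with h | h
      · have : 1 ≤ Real.exp (-(u * t) + u * ((r : ℝ) - M / 2)) := by
          apply Real.one_le_exp
          nlinarith
        have := Real.exp_pos (-(u * t) + -u * ((r : ℝ) - M / 2))
        linarith
      · have : 1 ≤ Real.exp (-(u * t) + -u * ((r : ℝ) - M / 2)) := by
          apply Real.one_le_exp
          nlinarith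
        have := Real.exp_pos (-(u * t) + u * ((r : ℝ) - M / 2))
        linarith
    calc (M.choose r : ℝ) = (M.choose r : ℝ) * 1 := by ring
      _ ≤ (M.choose r : ℝ) * (Real.exp (-(u * t)) * (Real.exp (u * ((r : ℝ) - M / 2)) +
        Real.exp ((-u) * ((r : ℝ) - M / 2)))) := mul_le_mul_of_nonneg_left hone hc
      _ = _ := by ring
  calc ∑ r ∈ (range (M + 1)).filter (fun r : ℕ => ¬ |(r : ℝ) - M / 2| ≤ t), (M.choose r : ℝ)
      ≤ ∑ r ∈ (range (M + 1)).filter (fun r : ℕ => ¬ |(r : ℝ) - M / 2| ≤ t),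
        Real.exp (-(u * t)) * ((M.choose r : ℝ) * Real.exp (u * ((r : ℝ) - M / 2)) +
        (M.choose r : ℝ) * Real.exp ((-u) * ((r : ℝ) - M / 2))) := Finset.sum_le_sum hpt
    _ ≤ ∑ r ∈ range (M + 1),
        Real.exp (-(u * t)) * ((M.choose r : ℝ) * Real.exp (u * ((r : ℝ) - M / 2)) +
        (M.choose r : ℝ) * Real.exp ((-u) * ((r : ℝ) - M / 2))) := by
        apply Finset.sum_le_sum_of_subset_of_nonneg (Finset.filter_subset _ _)
        intro r _ _
        positivity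
    _ = Real.exp (-(u * t)) * (∑ r ∈ range (M + 1), (M.choose r : ℝ) * Real.exp (u * ((r : ℝ) - M / 2)) +
        ∑ r ∈ range (M + 1), (M.choose r : ℝ) * Real.exp ((-u) * ((r : ℝ) - M / 2))) := by
        rw [← Finset.mul_sum, Finset.sum_add_distrib]
    _ ≤ Real.exp (-(u * t)) * (2 ^ M * Real.exp (M * u ^ 2 / 8) + 2 ^ M * Real.exp (M * (-u) ^ 2 / 8)) := by
        apply mul_le_mul_of_nonneg_left _ (Real.exp_pos _).le
        exact add_le_add (mgf_binom_le M u) (mgf_binom_le M (-u))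
    _ = 2 ^ M * (2 * (Real.exp (-(u * t)) * Real.exp (M * u ^ 2 / 8))) := by
        rw [neg_sq]; ring
    _ = 2 ^ M * (2 * Real.exp (-(2 * t ^ 2 / M))) := by
        rw [← Real.exp_add]
        congr 3
        rw [hu]
        field_simp
        ring


lemma exp_le_quad (z : ℝ) : Real.exp z ≤ 1 + z + z ^ 2 * Real.exp |z| := by
  have h1 := Real.add_one_le_exp (-z)
  have hz := Real.exp_pos z
  have h2 : Real.exp z * Real.exp (-z) = 1 := by rw [← Real.exp_add]; simp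
  -- `exp z - 1 ≤ z * exp z`
  have h3 : Real.exp z - 1 ≤ z * Real.exp z := by nlinarith
  have h4 := Real.add_one_le_exp z
  rcases le_total 0 z with h | h
  · rw [abs_of_nonneg h]
    nlinarith
  · rw [abs_of_nonpos h]
    have h5 : 1 ≤ Real.exp (-z) := Real.one_le_exp (by linarith)
    have h6 : Real.exp z ≤ 1 := Real.exp_le_one_iff.mpr h
    nlinarith [sq_nonneg z]

lemma num1 (L x : ℝ) (hL : 8 ≤ L) (hx : L ^ 3 ≤ x) :
    8 * x ^ 2 * Real.exp (-(2 * (L * x))) ≤ 1 / L := by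
  have hL0 : 0 < L := by linarith
  have hx0 : 0 < x := lt_of_lt_of_le (by positivity) hx
  have hy : 0 ≤ 2 * (L * x) := by positivity
  have h := Real.pow_div_factorial_le_exp (2 * (L * x)) hy 3
  have hf : ((3 : ℕ).factorial : ℝ) = 6 := by norm_num [Nat.factorial]
  rw [hf] at h
  rw [Real.exp_neg, ← div_eq_mul_inv, div_le_div_iff₀ (Real.exp_pos _) hL0]
  have h6 : 6 ≤ L ^ 2 * x := by
    have : (64 : ℝ) ≤ L ^ 2 := by nlinarith
    have : (512 : ℝ) ≤ L ^ 3 := by nlinarith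
    nlinarith
  have h7 : x ^ 2 * L * 6 ≤ x ^ 2 * L * (L ^ 2 * x) := mul_le_mul_of_nonneg_left h6 (by positivity)
  have h8 : (2 * (L * x)) ^ 3 / 6 = (4 / 3) * (x ^ 2 * L * (L ^ 2 * x)) := by ring
  nlinarith

lemma num2 (L x : ℝ) (hL : 8 ≤ L) (hx : L ^ 3 ≤ x) :
    8 * x ^ 3 * Real.exp (-(L * x)) ≤ 8 / L ^ 2 := by
  have hL0 : 0 < L := by linarith
  have hx0 : 0 < x := lt_of_lt_of_le (by positivity) hx
  have hy : 0 ≤ L * x := by positivity
  have h := Real.pow_div_factorial_le_exp (L * x) hy 4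
  have hf : ((4 : ℕ).factorial : ℝ) = 24 := by norm_num [Nat.factorial]
  rw [hf] at h
  rw [Real.exp_neg, ← div_eq_mul_inv, div_le_div_iff₀ (Real.exp_pos _) (by positivity)]
  have h6 : 24 ≤ L ^ 2 * x := by
    have : (64 : ℝ) ≤ L ^ 2 := by nlinarith
    have : (512 : ℝ) ≤ L ^ 3 := by nlinarith
    nlinarith
  have h7 : x ^ 3 * L ^ 2 * 24 ≤ x ^ 3 * L ^ 2 * (L ^ 2 * x) := mul_le_mul_of_nonneg_left h6 (by positivity)
  have h8 : (L * x) ^ 4 / 24 = (x ^ 3 * L ^ 2 * (L ^ 2 * x)) / 24 := by ring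
  nlinarith

lemma bq_pos (r : ℕ) : 0 < bq r := by
  unfold bq
  have : 0 < r.choose (r / 2) := Nat.choose_pos (Nat.div_le_self r 2)
  positivity

lemma bq_le_one (r : ℕ) : bq r ≤ 1 := by
  unfold bq
  rw [div_le_one (by positivity)]
  exact_mod_cast Nat.choose_le_two_pow r (r / 2)

lemma bq_lower (M r : ℕ) (hM : 1 ≤ M) (hr : r ≤ M) (he : Even r) :
    1 ≤ Real.sqrt (2 * (M : ℝ)) * bq r := by
  obtain ⟨n, rfl⟩ := he
  rw [← two_mul, bq_two_mul]
  have h1 := an_sq_lower n M (by omega) hM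
  have hs : Real.sqrt (2 * (M : ℝ)) ^ 2 = 2 * (M : ℝ) := Real.sq_sqrt (by positivity)
  have hs0 : 0 ≤ Real.sqrt (2 * (M : ℝ)) := Real.sqrt_nonneg _
  have ha := an_pos n
  by_contra hlt
  have hlt := not_le.mp hlt
  have h0 : 0 ≤ Real.sqrt (2 * (M : ℝ)) * an n := by positivity
  have h3 : (Real.sqrt (2 * (M : ℝ)) * an n) ^ 2 < 1 := by nlinarith
  rw [mul_pow, hs] at h3
  linarith

lemma bq_window (M : ℕ) (δ : ℝ) (hδ0 : 0 < δ) (hδ : δ ≤ 1 / 8) (r r0 : ℕ)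
    (hr : Even r) (hr0 : Even r0) (hw : |(r : ℝ) - M / 2| ≤ δ * M) (hw0 : |(r0 : ℝ) - M / 2| ≤ δ * M) :
    bq r ≤ bq r0 * Real.exp (4 * δ) := by
  obtain ⟨n, rfl⟩ := hr
  obtain ⟨n0, rfl⟩ := hr0
  rw [← two_mul, ← two_mul, bq_two_mul, bq_two_mul]
  have hM0 : (0 : ℝ) ≤ (M : ℝ) := Nat.cast_nonneg M
  have he : 1 ≤ Real.exp (4 * δ) := Real.one_le_exp (by positivity)
  rcases le_total n0 n with h | h
  · have h1 := an_antitone h
    have h2 := an_pos n0
    nlinarith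
  · obtain ⟨k, rfl⟩ := Nat.exists_eq_add_of_le h
    have h1 := an_ratio n k
    have h2 := an_pos (n + k)
    have hw' := abs_le.mp hw
    have hw0' := abs_le.mp hw0
    push_cast at hw' hw0'
    have h3 : (k : ℝ) / (2 * (n : ℝ) + 1) ≤ 4 * δ := by
      rw [div_le_iff₀ (by positivity)]
      nlinarith [hw'.1, hw0'.2]
    have h4 : Real.exp ((k : ℝ) / (2 * (n : ℝ) + 1)) ≤ Real.exp (4 * δ) := Real.exp_le_exp.mpr h3
    calc an n ≤ an (n + k) * Real.exp ((k : ℝ) / (2 * (n : ℝ) + 1)) := h1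
      _ ≤ an (n + k) * Real.exp (4 * δ) := mul_le_mul_of_nonneg_left h4 h2.le


/-- pure real form of the window estimate -/
lemma kappa_window (b0 β PW ε0 δ K E4 sW sN : ℝ) (hb0 : 0 < b0) (hβ0 : 0 < β) (hδ0 : 0 < δ)
    (hδ8 : δ ≤ 1 / 8) (hsplitP : PW + ε0 = 1) (hε0nn : 0 ≤ ε0)
    (hsplitβ : sW + sN = β) (hNβ0 : 0 ≤ sN) (hNβ1 : sN ≤ ε0) (hE4pos : 0 < E4)
    (hE4a : E4 ≤ 1 + 8 * δ) (hlow : b0 * PW ≤ E4 * sW) (hup : sW ≤ b0 * E4 * PW)
    (hKb : 1 ≤ K * b0) (hN1 : ε0 * K ≤ δ) (hε0δ : ε0 ≤ δ) : |b0 / β - 1| ≤ 12 * δ := by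
  have hU : b0 ≤ (1 + 12 * δ) * β := by
    have h1 : b0 * (1 - δ) ≤ (1 + 8 * δ) * β := by
      have h2 : b0 * (1 - δ) ≤ b0 * PW := by
        apply mul_le_mul_of_nonneg_left _ hb0.le
        linarith
      have h3 : E4 * sW ≤ E4 * β := by
        apply mul_le_mul_of_nonneg_left _ hE4pos.le
        linarith
      have h4 : E4 * β ≤ (1 + 8 * δ) * β := mul_le_mul_of_nonneg_right hE4a hβ0.le
      linarith
    have h5 : (1 + 8 * δ) ≤ (1 - δ) * (1 + 12 * δ) := by nlinarith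
    have h6 : (1 + 8 * δ) * β ≤ (1 - δ) * (1 + 12 * δ) * β := mul_le_mul_of_nonneg_right h5 hβ0.le
    have h7 : 0 < 1 - δ := by linarith
    have h8 : (1 - δ) * b0 ≤ (1 - δ) * ((1 + 12 * δ) * β) := by linarith
    exact le_of_mul_le_mul_left h8 h7
  have hLw : (1 - 12 * δ) * β ≤ b0 := by
    have h1 : ε0 ≤ δ * b0 := by
      have h2 : ε0 * 1 ≤ ε0 * (K * b0) := mul_le_mul_of_nonneg_left hKb hε0nn
      have h3 : ε0 * K * b0 ≤ δ * b0 := mul_le_mul_of_nonneg_right hN1 hb0.le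
      linarith
    have h4 : b0 * E4 * PW ≤ b0 * (1 + 8 * δ) := by
      have h5 : PW ≤ 1 := by linarith
      have h6 : b0 * E4 * PW ≤ b0 * E4 * 1 :=
        mul_le_mul_of_nonneg_left h5 (by positivity)
      have h7 : b0 * E4 ≤ b0 * (1 + 8 * δ) := mul_le_mul_of_nonneg_left hE4a hb0.le
      linarith
    have h8 : β ≤ (1 + 9 * δ) * b0 := by linarith
    rcases le_total (1 - 12 * δ) 0 with h | h
    · have : (1 - 12 * δ) * β ≤ 0 := mul_nonpos_of_nonpos_of_nonneg h hβ0.le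
      linarith
    · have h9 : (1 - 12 * δ) * β ≤ (1 - 12 * δ) * ((1 + 9 * δ) * b0) :=
        mul_le_mul_of_nonneg_left h8 h
      have h10 : (1 - 12 * δ) * (1 + 9 * δ) ≤ 1 := by nlinarith
      have h11 : (1 - 12 * δ) * (1 + 9 * δ) * b0 ≤ 1 * b0 :=
        mul_le_mul_of_nonneg_right h10 hb0.le
      linarith
  have h1 : 1 - 12 * δ ≤ b0 / β := by
    rw [le_div_iff₀ hβ0]
    exact hLw
  have h2 : b0 / β ≤ 1 + 12 * δ := by
    rw [div_le_iff₀ hβ0]
    exact hU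
  rw [abs_le]
  constructor <;> linarith

lemma exp_four_le (δ : ℝ) (hδ0 : 0 < δ) (hδ8 : δ ≤ 1 / 8) : Real.exp (4 * δ) ≤ 1 + 8 * δ := by
  have h1 := Real.add_one_le_exp (-(4 * δ))
  have h2 : Real.exp (4 * δ) * Real.exp (-(4 * δ)) = 1 := by rw [← Real.exp_add]; simp
  have h0 := Real.exp_pos (4 * δ)
  by_contra h
  have h3 := not_le.mp h
  have h4 : 0 < 1 - 4 * δ := by linarith
  nlinarith

/-- the mean of `bq` -/
noncomputable def beta (M : ℕ) (P : ℕ → ℝ) : ℝ := ∑ s ∈ range (M + 1), P s * bq s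

/-- the centred kernel -/
noncomputable def kap (M : ℕ) (P : ℕ → ℝ) (r : ℕ) : ℝ := bq r / beta M P - 1

/-- mass outside the window -/
noncomputable def eps0 (M L : ℕ) (P : ℕ → ℝ) : ℝ :=
  ∑ r ∈ (range (M + 1)).filter (fun r : ℕ => ¬ |(r : ℝ) - M / 2| ≤ 1 / (L : ℝ) * M), P r

section main

variable (M L : ℕ) (P : ℕ → ℝ) (hP0 : ∀ r, 0 ≤ P r)
  (hP1 : ∑ r ∈ range (M + 1), P r = 1) (hodd : ∀ r, Odd r → P r = 0)
  (hdom : ∀ r, r ≤ M → P r ≤ 2 * Real.sqrt M * (M.choose r : ℝ) / 2 ^ M)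
  (hL : 8 ≤ L) (hML : L ^ 6 ≤ M)

include hL hML in
lemma basic_facts : (8 : ℝ) ≤ (L : ℝ) ∧ 1 ≤ M ∧ (L : ℝ) ^ 3 ≤ Real.sqrt M ∧
    Real.sqrt (2 * (M : ℝ)) ≤ 2 * Real.sqrt M ∧ 1 ≤ Real.sqrt (2 * (M : ℝ)) ∧
    Real.sqrt (2 * (M : ℝ)) ^ 2 = 2 * Real.sqrt M ^ 2 := by
  have hLr : (8 : ℝ) ≤ (L : ℝ) := by exact_mod_cast hL
  have hMr : (L : ℝ) ^ 6 ≤ (M : ℝ) := by exact_mod_cast hML
  have hM1 : 1 ≤ M := le_trans (Nat.one_le_pow _ _ (by omega)) hML
  have hM0 : (0 : ℝ) < (M : ℝ) := by exact_mod_cast hM1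
  have hM1' : (1 : ℝ) ≤ (M : ℝ) := by exact_mod_cast hM1
  have hx2 : Real.sqrt M ^ 2 = (M : ℝ) := Real.sq_sqrt hM0.le
  have hK2 : Real.sqrt (2 * (M : ℝ)) ^ 2 = 2 * (M : ℝ) := Real.sq_sqrt (by positivity)
  have hx0 : 0 ≤ Real.sqrt M := Real.sqrt_nonneg _
  have hK0 : 0 ≤ Real.sqrt (2 * (M : ℝ)) := Real.sqrt_nonneg _
  refine ⟨hLr, hM1, ?_, ?_, ?_, ?_⟩
  · apply (Real.le_sqrt (by positivity) hM0.le).mpr
    calc ((L : ℝ) ^ 3) ^ 2 = (L : ℝ) ^ 6 := by ring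
      _ ≤ (M : ℝ) := hMr
  · by_contra h
    have := not_le.mp h
    nlinarith
  · by_contra h
    have := not_le.mp h
    nlinarith
  · rw [hx2, hK2]

include hP0 in
lemma eps0_nonneg : 0 ≤ eps0 M L P := Finset.sum_nonneg (fun r _ => hP0 r)

include hdom hL hML in
lemma eps0_le : eps0 M L P ≤ 4 * Real.sqrt M * Real.exp (-(2 * ((L : ℝ) * Real.sqrt M))) := by
  obtain ⟨hLr, hM1, hxL, -, -, -⟩ := basic_facts M L hL hML
  have hL0 : (0 : ℝ) < (L : ℝ) := by linarith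
  have hM0 : (0 : ℝ) < (M : ℝ) := by exact_mod_cast hM1
  have hx2 : Real.sqrt M ^ 2 = (M : ℝ) := Real.sq_sqrt hM0.le
  set x : ℝ := Real.sqrt M with hx
  have hx0 : 0 < x := lt_of_lt_of_le (by positivity) hxL
  set δ : ℝ := 1 / (L : ℝ) with hδ
  have hδ0 : 0 < δ := by positivity
  have h1 : eps0 M L P ≤ ∑ r ∈ (range (M + 1)).filter (fun r : ℕ => ¬ |(r : ℝ) - M / 2| ≤ δ * M),
      2 * x / 2 ^ M * (M.choose r : ℝ) := by
    apply Finset.sum_le_sum
    intro r hr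
    have hr1 : r ≤ M := by
      have := Finset.mem_range.mp (Finset.mem_filter.mp hr).1
      omega
    calc P r ≤ 2 * x * (M.choose r : ℝ) / 2 ^ M := hdom r hr1
      _ = _ := by ring
  rw [← Finset.mul_sum] at h1
  have h2 := tail_binom M hM1 (δ * M) (by positivity)
  have h3 := mul_le_mul_of_nonneg_left h2 (show 0 ≤ 2 * x / 2 ^ M by positivity)
  have h4 : 2 * x / 2 ^ M * (2 ^ M * (2 * Real.exp (-(2 * (δ * M) ^ 2 / M)))) =
      4 * x * Real.exp (-(2 * (δ * M) ^ 2 / M)) := by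
    field_simp
    ring
  have h5 : Real.exp (-(2 * (δ * M) ^ 2 / M)) ≤ Real.exp (-(2 * ((L : ℝ) * x))) := by
    apply Real.exp_le_exp.mpr
    have h6 : 2 * (δ * M) ^ 2 / M = 2 * (δ ^ 2 * x ^ 2) := by
      rw [hx2]
      field_simp
    have h7 : (L : ℝ) * x ≤ δ ^ 2 * x ^ 2 := by
      have h8 : (L : ℝ) = δ ^ 2 * (L : ℝ) ^ 3 := by
        rw [hδ]
        field_simp
      calc (L : ℝ) * x = δ ^ 2 * (L : ℝ) ^ 3 * x := by rw [← h8]
        _ ≤ δ ^ 2 * x * x := by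
          apply mul_le_mul_of_nonneg_right _ hx0.le
          exact mul_le_mul_of_nonneg_left hxL (by positivity)
        _ = δ ^ 2 * x ^ 2 := by ring
    rw [h6]
    linarith
  calc eps0 M L P ≤ 4 * x * Real.exp (-(2 * (δ * M) ^ 2 / M)) := by linarith
    _ ≤ _ := mul_le_mul_of_nonneg_left h5 (by positivity)

include hdom hL hML in
lemma eps0_K : eps0 M L P * Real.sqrt (2 * (M : ℝ)) ≤ 1 / (L : ℝ) := by
  obtain ⟨hLr, hM1, hxL, hKx, hK1, -⟩ := basic_facts M L hL hML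
  have htail := eps0_le M L P hdom hL hML
  have hx0 : 0 ≤ Real.sqrt M := Real.sqrt_nonneg _
  calc eps0 M L P * Real.sqrt (2 * (M : ℝ))
      ≤ (4 * Real.sqrt M * Real.exp (-(2 * ((L : ℝ) * Real.sqrt M)))) * (2 * Real.sqrt M) :=
        mul_le_mul htail hKx (Real.sqrt_nonneg _) (by positivity)
    _ = 8 * Real.sqrt M ^ 2 * Real.exp (-(2 * ((L : ℝ) * Real.sqrt M))) := by ring
    _ ≤ 1 / L := num1 L _ hLr hxL

include hdom hL hML in
lemma eps0_K2 : eps0 M L P * (Real.sqrt (2 * (M : ℝ)) ^ 2 *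
    Real.exp ((L : ℝ) / 12 * Real.sqrt (2 * (M : ℝ)))) ≤ 8 / (L : ℝ) ^ 2 := by
  obtain ⟨hLr, hM1, hxL, hKx, hK1, hK2⟩ := basic_facts M L hL hML
  have htail := eps0_le M L P hdom hL hML
  have hL0 : (0 : ℝ) < (L : ℝ) := by linarith
  set x : ℝ := Real.sqrt M with hx
  set K : ℝ := Real.sqrt (2 * (M : ℝ)) with hK
  have hx0 : 0 < x := lt_of_lt_of_le (by positivity) hxL
  have h1 : Real.exp ((L : ℝ) / 12 * K) ≤ Real.exp ((L : ℝ) * x) := by
    apply Real.exp_le_exp.mpr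
    have : (L : ℝ) / 12 * K ≤ (L : ℝ) / 12 * (2 * x) := mul_le_mul_of_nonneg_left hKx (by positivity)
    have h2 : 0 ≤ (L : ℝ) * x := by positivity
    linarith
  calc eps0 M L P * (K ^ 2 * Real.exp ((L : ℝ) / 12 * K))
      ≤ (4 * x * Real.exp (-(2 * ((L : ℝ) * x)))) * (2 * x ^ 2 * Real.exp ((L : ℝ) * x)) := by
        apply mul_le_mul htail _ (by positivity) (by positivity)
        rw [hK2]
        exact mul_le_mul_of_nonneg_left h1 (by positivity)
    _ = 8 * x ^ 3 * Real.exp (-((L : ℝ) * x)) := by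
        have h2 : Real.exp (-(2 * ((L : ℝ) * x))) * Real.exp ((L : ℝ) * x) =
            Real.exp (-((L : ℝ) * x)) := by
          rw [← Real.exp_add]
          congr 1
          ring
        calc _ = 8 * x ^ 3 * (Real.exp (-(2 * ((L : ℝ) * x))) * Real.exp ((L : ℝ) * x)) := by ring
          _ = _ := by rw [h2]
    _ ≤ 8 / (L : ℝ) ^ 2 := num2 L x hLr hxL

include hP0 hP1 hodd in
lemma K_beta (hM1 : 1 ≤ M) : 1 ≤ Real.sqrt (2 * (M : ℝ)) * beta M P := by
  unfold beta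
  rw [Finset.mul_sum, ← hP1]
  apply Finset.sum_le_sum
  intro r hr
  have hr1 : r ≤ M := by
    have := Finset.mem_range.mp hr
    omega
  rcases Nat.even_or_odd r with he | ho
  · have h1 := bq_lower M r hM1 hr1 he
    have h2 := hP0 r
    calc P r = P r * 1 := by ring
      _ ≤ P r * (Real.sqrt (2 * (M : ℝ)) * bq r) := mul_le_mul_of_nonneg_left h1 h2
      _ = _ := by ring
  · rw [hodd r ho]; simp

include hP0 hP1 hodd in
lemma beta_pos (hM1 : 1 ≤ M) : 0 < beta M P := by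
  have h := K_beta M P hP0 hP1 hodd hM1
  have hK0 : 0 ≤ Real.sqrt (2 * (M : ℝ)) := Real.sqrt_nonneg _
  by_contra h'
  have := not_lt.mp h'
  nlinarith

include hP0 hP1 hodd hdom hL hML in
lemma kap_win (r0 : ℕ) (hr0 : r0 ≤ M) (he0 : Even r0)
    (hw0 : |(r0 : ℝ) - M / 2| ≤ 1 / (L : ℝ) * M) : |kap M P r0| ≤ 12 * (1 / (L : ℝ)) := by
  obtain ⟨hLr, hM1, hxL, hKx, hK1, hK2⟩ := basic_facts M L hL hML
  have hL0 : (0 : ℝ) < (L : ℝ) := by linarith
  set δ : ℝ := 1 / (L : ℝ) with hδ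
  have hδ0 : 0 < δ := by positivity
  have hδ8 : δ ≤ 1 / 8 := by rw [hδ]; exact one_div_le_one_div_of_le (by norm_num) hLr
  have hN1 := eps0_K M L P hdom hL hML
  have hε0nn := eps0_nonneg M L P hP0
  have hε0δ : eps0 M L P ≤ δ := by
    have : eps0 M L P * 1 ≤ eps0 M L P * Real.sqrt (2 * (M : ℝ)) :=
      mul_le_mul_of_nonneg_left hK1 hε0nn
    linarith
  set Wf := (range (M + 1)).filter (fun r : ℕ => |(r : ℝ) - M / 2| ≤ δ * M) with hWf
  set Nf := (range (M + 1)).filter (fun r : ℕ => ¬ |(r : ℝ) - M / 2| ≤ δ * M) with hNf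
  have hb0 := bq_pos r0
  unfold kap
  apply kappa_window (bq r0) (beta M P) (∑ r ∈ Wf, P r) (eps0 M L P) δ (Real.sqrt (2 * (M : ℝ)))
    (Real.exp (4 * δ)) (∑ r ∈ Wf, P r * bq r) (∑ r ∈ Nf, P r * bq r) hb0
    (beta_pos M P hP0 hP1 hodd hM1) hδ0 hδ8 _ hε0nn _ _ _ (Real.exp_pos _)
    (exp_four_le δ hδ0 hδ8) _ _ (bq_lower M r0 hM1 hr0 he0) hN1 hε0δ
  · unfold eps0
    rw [hWf, Finset.sum_filter_add_sum_filter_not, hP1]
  · unfold beta
    rw [hWf, hNf, Finset.sum_filter_add_sum_filter_not]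
  · exact Finset.sum_nonneg (fun r _ => mul_nonneg (hP0 r) (bq_pos r).le)
  · unfold eps0
    apply Finset.sum_le_sum
    intro r _
    calc P r * bq r ≤ P r * 1 := mul_le_mul_of_nonneg_left (bq_le_one r) (hP0 r)
      _ = P r := by ring
  · rw [Finset.mul_sum, Finset.mul_sum]
    apply Finset.sum_le_sum
    intro r hr
    rcases Nat.even_or_odd r with he | ho
    · have h1 := bq_window M δ hδ0 hδ8 r0 r he0 he hw0 (Finset.mem_filter.mp hr).2
      calc bq r0 * P r ≤ (bq r * Real.exp (4 * δ)) * P r := mul_le_mul_of_nonneg_right h1 (hP0 r)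
        _ = _ := by ring
    · rw [hodd r ho]; simp
  · rw [Finset.mul_sum]
    apply Finset.sum_le_sum
    intro r hr
    rcases Nat.even_or_odd r with he | ho
    · have h1 := bq_window M δ hδ0 hδ8 r r0 he he0 (Finset.mem_filter.mp hr).2 hw0
      exact (mul_comm (P r) (bq r)).le.trans (mul_le_mul_of_nonneg_right h1 (hP0 r))
    · rw [hodd r ho]; simp

include hP0 hP1 hodd in
lemma kap_glob (hM1 : 1 ≤ M) (hK1 : 1 ≤ Real.sqrt (2 * (M : ℝ))) (r : ℕ) :
    |kap M P r| ≤ Real.sqrt (2 * (M : ℝ)) := by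
  have hb0 := bq_pos r
  have hb1 := bq_le_one r
  have hβ0 := beta_pos M P hP0 hP1 hodd hM1
  have hKβ := K_beta M P hP0 hP1 hodd hM1
  unfold kap
  rw [abs_le]
  constructor
  · have : 0 < bq r / beta M P := div_pos hb0 hβ0
    linarith
  · rw [sub_le_iff_le_add, div_le_iff₀ hβ0]
    nlinarith

include hP0 hP1 hodd in
lemma kap_mean (hM1 : 1 ≤ M) : ∑ r ∈ range (M + 1), P r * kap M P r = 0 := by
  have hβ0 := beta_pos M P hP0 hP1 hodd hM1
  have h1 : ∑ r ∈ range (M + 1), P r * kap M P r =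
      (∑ r ∈ range (M + 1), P r * bq r) / beta M P - ∑ r ∈ range (M + 1), P r := by
    rw [Finset.sum_div, ← Finset.sum_sub_distrib]
    apply Finset.sum_congr rfl
    intro r _
    unfold kap
    ring
  rw [h1, hP1]
  have : (∑ r ∈ range (M + 1), P r * bq r) = beta M P := rfl
  rw [this, div_self hβ0.ne']
  ring

include hP0 hP1 hodd hdom hL hML in
lemma V_bound : ∑ r ∈ range (M + 1), P r * ((kap M P r) ^ 2 *
    Real.exp ((L : ℝ) / 12 * |kap M P r|)) ≤ 400 / (L : ℝ) ^ 2 := by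
  obtain ⟨hLr, hM1, hxL, hKx, hK1, hK2⟩ := basic_facts M L hL hML
  have hL0 : (0 : ℝ) < (L : ℝ) := by linarith
  have hg0nn : 0 ≤ (L : ℝ) / 12 := by positivity
  rw [← Finset.sum_filter_add_sum_filter_not (range (M + 1))
    (fun r : ℕ => |(r : ℝ) - M / 2| ≤ 1 / (L : ℝ) * M)]
  have hPW : ∑ r ∈ (range (M + 1)).filter (fun r : ℕ => |(r : ℝ) - M / 2| ≤ 1 / (L : ℝ) * M), P r ≤ 1 := by
    rw [← hP1]
    exact Finset.sum_le_sum_of_subset_of_nonneg (Finset.filter_subset _ _) (fun r _ _ => hP0 r)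
  have hA : ∑ r ∈ (range (M + 1)).filter (fun r : ℕ => |(r : ℝ) - M / 2| ≤ 1 / (L : ℝ) * M),
      P r * ((kap M P r) ^ 2 * Real.exp ((L : ℝ) / 12 * |kap M P r|)) ≤
      (∑ r ∈ (range (M + 1)).filter (fun r : ℕ => |(r : ℝ) - M / 2| ≤ 1 / (L : ℝ) * M), P r) *
        ((12 * (1 / (L : ℝ))) ^ 2 * Real.exp 1) := by
    rw [Finset.sum_mul]
    apply Finset.sum_le_sum
    intro r hr
    have hr1 : r ≤ M := by
      have := Finset.mem_range.mp (Finset.mem_filter.mp hr).1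
      omega
    rcases Nat.even_or_odd r with he | ho
    · have h1 := kap_win M L P hP0 hP1 hodd hdom hL hML r hr1 he (Finset.mem_filter.mp hr).2
      apply mul_le_mul_of_nonneg_left _ (hP0 r)
      apply mul_le_mul _ _ (Real.exp_pos _).le (by positivity)
      · rw [← sq_abs]
        exact pow_le_pow_left₀ (abs_nonneg _) h1 2
      · apply Real.exp_le_exp.mpr
        calc (L : ℝ) / 12 * |kap M P r| ≤ (L : ℝ) / 12 * (12 * (1 / (L : ℝ))) :=
              mul_le_mul_of_nonneg_left h1 hg0nn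
          _ = 1 := by field_simp
    · rw [hodd r ho]; simp
  have hB : ∑ r ∈ (range (M + 1)).filter (fun r : ℕ => ¬ |(r : ℝ) - M / 2| ≤ 1 / (L : ℝ) * M),
      P r * ((kap M P r) ^ 2 * Real.exp ((L : ℝ) / 12 * |kap M P r|)) ≤
      eps0 M L P * (Real.sqrt (2 * (M : ℝ)) ^ 2 *
        Real.exp ((L : ℝ) / 12 * Real.sqrt (2 * (M : ℝ)))) := by
    unfold eps0
    rw [Finset.sum_mul]
    apply Finset.sum_le_sum
    intro r hr
    have h1 := kap_glob M P hP0 hP1 hodd hM1 hK1 r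
    apply mul_le_mul_of_nonneg_left _ (hP0 r)
    apply mul_le_mul _ _ (Real.exp_pos _).le (by positivity)
    · rw [← sq_abs]
      exact pow_le_pow_left₀ (abs_nonneg _) h1 2
    · exact Real.exp_le_exp.mpr (mul_le_mul_of_nonneg_left h1 hg0nn)
  have hN2 := eps0_K2 M L P hdom hL hML
  have hC : (∑ r ∈ (range (M + 1)).filter (fun r : ℕ => |(r : ℝ) - M / 2| ≤ 1 / (L : ℝ) * M), P r) *
      ((12 * (1 / (L : ℝ))) ^ 2 * Real.exp 1) ≤ 392 / (L : ℝ) ^ 2 := by
    have h2 := Real.exp_one_lt_d9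
    have h3 : (12 * (1 / (L : ℝ))) ^ 2 * Real.exp 1 ≤ 392 / (L : ℝ) ^ 2 := by
      have h4 : (12 * (1 / (L : ℝ))) ^ 2 = 144 / (L : ℝ) ^ 2 := by ring
      rw [h4, div_mul_eq_mul_div]
      apply div_le_div_of_nonneg_right _ (by positivity)
      linarith
    have h5 : 0 ≤ (12 * (1 / (L : ℝ))) ^ 2 * Real.exp 1 := by positivity
    calc _ ≤ 1 * ((12 * (1 / (L : ℝ))) ^ 2 * Real.exp 1) := mul_le_mul_of_nonneg_right hPW h5
      _ ≤ _ := by linarith
  have hD : (392 : ℝ) / (L : ℝ) ^ 2 + 8 / (L : ℝ) ^ 2 = 400 / (L : ℝ) ^ 2 := by ring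
  linarith

include hP0 hP1 hodd hdom hL hML in
/-- **Scalar core of (EXP).** `P` = law of the number of crossing edges, dominated by
`2 sqrt M` times the binomial law, supported on even numbers. -/
theorem exp_scalar (g : ℝ) (hg : |g| ≤ (L : ℝ) / 12) :
    ∑ r ∈ range (M + 1), P r * Real.exp (g * (bq r / (∑ s ∈ range (M + 1), P s * bq s) - 1)) ≤
      Real.exp (400 / (L : ℝ) ^ 2 * g ^ 2) := by
  obtain ⟨hLr, hM1, -, -, -, -⟩ := basic_facts M L hL hML
  have hV := V_bound M L P hP0 hP1 hodd hdom hL hML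
  have hmean := kap_mean M P hP0 hP1 hodd hM1
  have hpt : ∀ r ∈ range (M + 1), P r * Real.exp (g * kap M P r) ≤
      P r + g * (P r * kap M P r) +
        g ^ 2 * (P r * ((kap M P r) ^ 2 * Real.exp ((L : ℝ) / 12 * |kap M P r|))) := by
    intro r _
    have h := exp_le_quad (g * kap M P r)
    have h2 : Real.exp |g * kap M P r| ≤ Real.exp ((L : ℝ) / 12 * |kap M P r|) := by
      apply Real.exp_le_exp.mpr
      rw [abs_mul]
      exact mul_le_mul_of_nonneg_right hg (abs_nonneg _)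
    have h3 : Real.exp (g * kap M P r) ≤ 1 + g * kap M P r +
        g ^ 2 * ((kap M P r) ^ 2 * Real.exp ((L : ℝ) / 12 * |kap M P r|)) := by
      calc _ ≤ 1 + g * kap M P r + (g * kap M P r) ^ 2 * Real.exp |g * kap M P r| := h
        _ ≤ 1 + g * kap M P r + (g * kap M P r) ^ 2 * Real.exp ((L : ℝ) / 12 * |kap M P r|) := by
            have := mul_le_mul_of_nonneg_left h2 (sq_nonneg (g * kap M P r))
            linarith
        _ = _ := by ring
    calc P r * Real.exp (g * kap M P r) ≤ P r * (1 + g * kap M P r +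
        g ^ 2 * ((kap M P r) ^ 2 * Real.exp ((L : ℝ) / 12 * |kap M P r|))) :=
          mul_le_mul_of_nonneg_left h3 (hP0 r)
      _ = _ := by ring
  calc ∑ r ∈ range (M + 1), P r * Real.exp (g * (bq r / (∑ s ∈ range (M + 1), P s * bq s) - 1))
      = ∑ r ∈ range (M + 1), P r * Real.exp (g * kap M P r) := rfl
    _ ≤ ∑ r ∈ range (M + 1), (P r + g * (P r * kap M P r) +
        g ^ 2 * (P r * ((kap M P r) ^ 2 * Real.exp ((L : ℝ) / 12 * |kap M P r|)))) :=
        Finset.sum_le_sum hpt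
    _ = 1 + g ^ 2 * ∑ r ∈ range (M + 1), P r * ((kap M P r) ^ 2 *
        Real.exp ((L : ℝ) / 12 * |kap M P r|)) := by
        rw [Finset.sum_add_distrib, Finset.sum_add_distrib, ← Finset.mul_sum, ← Finset.mul_sum,
          hP1, hmean]
        ring
    _ ≤ 1 + g ^ 2 * (400 / (L : ℝ) ^ 2) := by
        have := mul_le_mul_of_nonneg_left hV (sq_nonneg g)
        linarith
    _ ≤ Real.exp (400 / (L : ℝ) ^ 2 * g ^ 2) := by
        have := Real.add_one_le_exp (400 / (L : ℝ) ^ 2 * g ^ 2)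
        linarith

end main

end Vale.Agent.P162.SB
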