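import Vale.Agent.P162.SB.Tensor
import Vale.Agent.P162.Top.Fibre

namespace Vale.Agent.P162.SB

open Finset Real Vale.Agent.P162 Vale.Agent.P162.KL Vale.Agent.P162.Top

/-- on a coset the column of the bits number `r` is made of the lowest-bit columns of the blocks
(`blockPerm_apply`, `posEquiv_val`: position `= ρ + 2^r * (h ρ κ)`) -/
theorem bitCol_blockPerm (k r : ℕ) (hr : r ≤ k)
    (h : Fin (2 ^ r) → Equiv.Perm (Fin (2 * 2 ^ (k - r)))) (g0 : G k) :
    bitCol k r (blockPerm k r hr h * g0) =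
      outEquiv k r hr g0 (fun ρ => lowCol (2 ^ (k - r)) (h ρ)) := by
  funext x
  obtain ⟨⟨κ, ρ⟩, hκρ⟩ : ∃ z, posEquiv k r hr z = g0 x :=
    ⟨(posEquiv k r hr).symm (g0 x), Equiv.apply_symm_apply _ _⟩
  have h1 : (posEquiv k r hr).symm (g0 x) = (κ, ρ) := by
    rw [← hκρ, Equiv.symm_apply_apply]
  have h2 : ((blockPerm k r hr h * g0) x).val = ρ.val + 2 ^ r * (h ρ κ).val := by
    rw [Equiv.Perm.mul_apply, ← hκρ, blockPerm_apply, posEquiv_val]
  have h3 : (ρ.val + 2 ^ r * (h ρ κ).val) / 2 ^ r = (h ρ κ).val := by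
    rw [Nat.add_mul_div_left _ _ (by positivity), Nat.div_eq_of_lt ρ.2, Nat.zero_add]
  show decide (((blockPerm k r hr h * g0) x).val / 2 ^ r % 2 = 1) =
    lowCol (2 ^ (k - r)) (h ((posEquiv k r hr).symm (g0 x)).2) ((posEquiv k r hr).symm (g0 x)).1
  rw [h1, h2, h3]
  rfl

theorem fibre_sb (k r : ℕ) (hr : r ≤ k) (θ : ℝ) (hθ0 : 0 ≤ θ)
    (hθ : SB (lowCol (2 ^ (k - r))) (bitChan (2 ^ (k - r))) θ)
    (a : Fin (2 * 2 ^ k) → Fin (2 * 2 ^ k)) :
    SB (fun ω : {g : G k // lowBits k r g = a} => bitCol k r ω.1)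
      (fun ω : {g : G k // lowBits k r g = a} => bitChan (2 ^ k) ω.1) θ := by
  by_cases hne : Nonempty {g : G k // lowBits k r g = a}
  · obtain ⟨⟨g0, hg0⟩⟩ := hne
    let e : (Fin (2 ^ r) → Equiv.Perm (Fin (2 * 2 ^ (k - r)))) ≃ {g : G k // lowBits k r g = a} :=
      Equiv.ofBijective
        (fun h => ⟨blockPerm k r hr h * g0, by rw [lowBits_blockPerm_mul, hg0]⟩)
        ⟨by
          intro h h' hh
          have h1 : blockPerm k r hr h * g0 = blockPerm k r hr h' * g0 := congrArg Subtype.val hh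
          exact blockPerm_injective k r hr (mul_right_cancel h1),
         by
          rintro ⟨g, hg⟩
          obtain ⟨h, hh⟩ := exists_blockPerm k r hr g g0 (hg.trans hg0.symm)
          exact ⟨h, Subtype.ext hh.symm⟩⟩
    exact SB_equiv e (outEquiv k r hr g0) (outEquiv k r hr g0) _ _ _ _
      (fun h => bitCol_blockPerm k r hr h g0)
      (fun h β => bitChan_blockPerm k r hr h g0 β) θ
      (SB_pi _ _ (Top.isChan_bitChan _) θ hθ0 hθ (2 ^ r))
  · intro p hp
    exfalso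
    have : IsEmpty {g : G k // lowBits k r g = a} := not_nonempty_iff.mp hne
    have h1 := hp.2
    simp at h1

end Vale.Agent.P162.SB
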