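import Vale.Agent.P162.SB.Rec

namespace Vale.Agent.P162.SB

open Finset Real

/-- an eighth root of one half -/
theorem exists_root : ∃ ρ : ℝ, 0 < ρ ∧ ρ < 1 ∧ ρ ^ 8 = 1 / 2 := by
  refine ⟨(1 / 2 : ℝ) ^ (1 / 8 : ℝ), by positivity, ?_, ?_⟩
  · exact Real.rpow_lt_one (by norm_num) (by norm_num) (by norm_num)
  · rw [← Real.rpow_natCast, ← Real.rpow_mul (by norm_num)]
    norm_num

theorem half_pow_le (ρ : ℝ) (h0 : 0 < ρ) (h1 : ρ < 1) (h8 : ρ ^ 8 = 1 / 2) (k : ℕ) :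
    (1 : ℝ) / 2 ^ (k / 8) ≤ 2 * ρ ^ k := by
  have hk : k = 8 * (k / 8) + k % 8 := (Nat.div_add_mod k 8).symm
  have hs : k % 8 ≤ 8 := by omega
  have e1 : ρ ^ k = (ρ ^ 8) ^ (k / 8) * ρ ^ (k % 8) := by
    rw [← pow_mul, ← pow_add, ← hk]
  have e2 : ρ ^ 8 ≤ ρ ^ (k % 8) := pow_le_pow_of_le_one h0.le h1.le hs
  rw [e1, h8]
  have e3 : (0 : ℝ) < (1 / 2 : ℝ) ^ (k / 8) := by positivity
  have e4 : (1 : ℝ) / 2 ^ (k / 8) = (1 / 2 : ℝ) ^ (k / 8) := by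
    rw [one_div, one_div, inv_pow]
  rw [e4]
  rw [h8] at e2
  nlinarith

theorem anti_zero (d : ℕ) (s : ℕ → ℝ) (h : ∀ j, j < d → s (j + 1) ≤ s j) (j : ℕ) (hj : j ≤ d) :
    s j ≤ s 0 := by
  induction j with
  | zero => exact le_refl _
  | succ n ih => exact le_trans (h n (by omega)) (ih (by omega))

/-- SCALAR RECURSION (R) of board 331 in the shape used by `SB/Final.lean`; adaptor of helper50's
`rec_geom`. -/
theorem scalar_sq : ∃ C : ℝ, 0 < C ∧ ∀ (d : ℕ) (S : ℕ → ℕ → ℝ), 1 ≤ d →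
    (∀ t j, j < d → S t (j + 1) ≤ S t j) → (∀ t, S t d = 0) → S 0 0 ≤ d * 2 ^ d →
    (∀ t j, 1 ≤ j → j ≤ d → S (t + 1) (j - 1) - S t j ≤ (S t 0 - S t j) / 2) →
    (∀ t j, 73 ≤ j → j ≤ d → S (t + 1) (j - 1) - S t j ≤
      S (t + 1) (j - 2) - S t (j - 1) + 17 / 2 ^ ((j - 1) / 8) * (S t 0 - S t j)) →
    ∀ t : ℕ, C * (d : ℝ) ^ 2 ≤ t → S t 0 ≤ 1 / 8 := by
  obtain ⟨ρ, h0, h1, h8⟩ := exists_root
  obtain ⟨C, hC0, hC⟩ := rec_geom 34 ρ (by norm_num) h0 h1 72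
  refine ⟨C, hC0, fun d S hd hmono hSd hS0 hA hB t ht => ?_⟩
  refine hC d hd S (fun t k => S (t + 1) k - S t (k + 1)) hmono hSd ?_ ?_ ?_ hS0 t ht
  · intro t k _
    linarith
  · intro t k hk
    have := hA t (k + 1) (by omega) (by omega)
    simpa using this
  · intro t k hk1 hk2 hk
    have h := hB t (k + 1) (by omega) (by omega)
    have e1 : k + 1 - 1 = k := by omega
    have e2 : k + 1 - 2 = k - 1 := by omega
    have e3 : k - 1 + 1 = k := by omega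
    rw [e1, e2] at h
    have hpos : 0 ≤ S t 0 - S t (k + 1) := by
      have := anti_zero d (S t) (hmono t) (k + 1) (by omega)
      linarith
    have hc : (17 : ℝ) / 2 ^ (k / 8) ≤ 34 * ρ ^ k := by
      have := half_pow_le ρ h0 h1 h8 k
      have e : (17 : ℝ) / 2 ^ (k / 8) = 17 * (1 / 2 ^ (k / 8)) := by ring
      rw [e]
      linarith
    have := mul_le_mul_of_nonneg_right hc hpos
    simp only [e3]
    linarith

end Vale.Agent.P162.SB
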