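import Vale.Agent.P162.SB.OneStep
import Vale.Agent.P162.SB.Block
import Vale.Agent.P162.SB.RecSq
import Vale.Agent.P162.Top.OneStep
import Vale.Agent.P162.Top.SrBasic
import Vale.Agent.P162.Top.Start
import Vale.Agent.P162.Top.ExpDecay
import Vale.Agent.P162.Top.Tv

namespace Vale.Agent.P162.SB

open Finset Real Vale.Agent.P162 Vale.Agent.P162.KL Vale.Agent.P162.Top

theorem log_factorial_le2 (k : ℕ) :
    Real.log ((2 * 2 ^ k).factorial : ℝ) ≤ ((k + 1 : ℕ) : ℝ) * 2 ^ (k + 1) := by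
  have e : 2 * 2 ^ k = 2 ^ (k + 1) := by ring
  rw [e]
  have h1 : ((2 ^ (k + 1)).factorial : ℝ) ≤ ((2 ^ (k + 1) : ℕ) : ℝ) ^ (2 ^ (k + 1)) := by
    exact_mod_cast Nat.factorial_le_pow (2 ^ (k + 1))
  have h0 : (0 : ℝ) < ((2 ^ (k + 1)).factorial : ℝ) := by
    exact_mod_cast Nat.factorial_pos _
  have h2 := Real.log_le_log h0 h1
  rw [Real.log_pow] at h2
  have h3 : Real.log ((2 ^ (k + 1) : ℕ) : ℝ) = ((k + 1 : ℕ) : ℝ) * Real.log 2 := by
    push_cast
    rw [Real.log_pow]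
    push_cast
    ring
  rw [h3] at h2
  have h4 : Real.log 2 ≤ 1 := by
    have := Real.log_two_lt_d9
    linarith
  have h5 : (0 : ℝ) ≤ ((2 ^ (k + 1) : ℕ) : ℝ) * ((k + 1 : ℕ) : ℝ) := by positivity
  calc Real.log ((2 ^ (k + 1)).factorial : ℝ)
      ≤ ((2 ^ (k + 1) : ℕ) : ℝ) * (((k + 1 : ℕ) : ℝ) * Real.log 2) := h2
    _ = ((2 ^ (k + 1) : ℕ) : ℝ) * ((k + 1 : ℕ) : ℝ) * Real.log 2 := by ring
    _ ≤ ((2 ^ (k + 1) : ℕ) : ℝ) * ((k + 1 : ℕ) : ℝ) * 1 := mul_le_mul_of_nonneg_left h4 h5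
    _ = ((k + 1 : ℕ) : ℝ) * 2 ^ (k + 1) := by push_cast; ring

/-- SB route: the two-copies bound (A) alone implies `t_mix (2^d) = O(d^2)` -/
theorem sb_final (hA : ∀ M : ℕ, 1 ≤ M → SDPI (bitChan M) (1 / 2)) :
    ∃ C : ℝ, ∀ k t : ℕ, C * ((k : ℝ) + 1) ^ 2 ≤ t → tvUnif (thorpPow (2 ^ k) t) ≤ 1 / 4 := by
  obtain ⟨C, _, hC⟩ := scalar_sq
  refine ⟨C, fun k t ht => ?_⟩
  apply tv_le_of_kl _ (isLaw_thorpPow (2 ^ k) t)
  have key := hC (k + 1) (fun t j => Sr k (k + 1 - j) (thorpPow (2 ^ k) t)) (by omega)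
    (fun t j _ => Sr_mono k (by omega) _ (isLaw_thorpPow _ t))
    (fun t => by simp only [Nat.sub_self]; exact Sr_zero k _ (isLaw_thorpPow _ t))
    (by
      simp only [Nat.sub_zero]
      rw [Sr_top, kl_thorpPow_zero]
      exact log_factorial_le2 k)
    (fun t j hj1 hjd => by
      have h1 := one_step k (k + 1 - j) (by omega) (1 / 2) (hA _ Nat.one_le_two_pow)
        (thorpPow (2 ^ k) t) (isLaw_thorpPow _ t)
      have e1 : k + 1 - j + 1 = k + 1 - (j - 1) := by omega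
      simp only [Nat.sub_zero]
      rw [Sr_top, thorpPow_succ']
      rw [e1] at h1
      linarith)
    (fun t j hj1 hjd => by
      have h1 := one_step_sb k (k + 1 - j) (by omega) (17 / gz (j - 1))
        (div_nonneg (by norm_num) (gz_pos _).le)
        (by
          have e0 : k - (k + 1 - j) = j - 1 := by omega
          rw [e0]
          exact block_sb (j - 1) (by omega))
        (thorpPow (2 ^ k) t) (isLaw_thorpPow _ t)
      have e1 : k + 1 - j + 1 = k + 1 - (j - 1) := by omega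
      have e2 : k + 1 - j + 2 = k + 1 - (j - 2) := by omega
      simp only [Nat.sub_zero]
      rw [Sr_top, thorpPow_succ']
      rw [e1, e2] at h1
      unfold gz at h1
      linarith)
    t (by push_cast; exact ht)
  simp only [Nat.sub_zero] at key
  rw [Sr_top] at key
  exact key

end Vale.Agent.P162.SB
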