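import Vale.Agent.P162.SB.Abs
import Vale.Agent.P162.KL.HalfA

/-!
# P162 : the reference laws of (lowest position bit, new bit) in one block

For a block of `2 * M` cards, `M = 2 * N` even, input `h : Perm (Fin (2 * M))` (uniform reference),
`lowB M h` = column of lowest position bits, output of `bitChan M` = column of new bits.
We compute the three reference laws by the colouring count and identify `rho` and `kap`.
-/

namespace Vale.Agent.P162.SB8

open Finset Nat Vale.Agent.P162.KL

/-- parity of a position -/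
def par (M : ℕ) (y : Fin (2 * M)) : Bool := decide (y.val % 2 = 1)

/-- the column of lowest position bits -/
def lowB (M : ℕ) (h : Equiv.Perm (Fin (2 * M))) : Fin (2 * M) → Bool :=
  fun x => decide ((h x).val % 2 = 1)

theorem lowB_eq (M : ℕ) (h : Equiv.Perm (Fin (2 * M))) : lowB M h = par M ∘ h := rfl

/-- colouring of the positions by (parity, new bit) -/
def col2 (M : ℕ) (b : Fin M → Bool) (y : Fin (2 * M)) : Bool × Bool := (par M y, pbit M b y)

/-- all colour classes of `f` have `k` elements -/
def Eq' {X C : Type*} [Fintype X] [DecidableEq C] (k : ℕ) (f : X → C) : Prop :=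
  ∀ c, Fintype.card {x // f x = c} = k

instance {X C : Type*} [Fintype X] [Fintype C] [DecidableEq C] (k : ℕ) (f : X → C) :
    Decidable (Eq' k f) := by
  unfold Eq'; infer_instance

theorem card_perm_const {X C : Type*} [Fintype X] [DecidableEq X] [Fintype C] [DecidableEq C]
    (f g : X → C) (k : ℕ) (hg : Eq' k g) :
    (Finset.univ.filter (fun h : Equiv.Perm X => g ∘ h = f)).card =
      if Eq' k f then (k !) ^ (Fintype.card C) else 0 := by
  rw [card_perm_colour]
  by_cases h : Eq' k f
  · rw [if_pos h, if_pos (fun c => (h c).trans (hg c).symm),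
      Finset.prod_congr rfl (fun c _ => by rw [h c]), Finset.prod_const, Finset.card_univ]
  · rw [if_neg h, if_neg (fun h' => h (fun c => (h' c).trans (hg c)))]

theorem card_par_fin (N : ℕ) (u : Bool) :
    (Finset.univ.filter (fun e : Fin (2 * N) => decide (e.val % 2 = 1) = u)).card = N := by
  have : (Finset.univ : Finset (Fin N)).card = N := by simp
  conv_rhs => rw [← this]
  symm
  apply Finset.card_bij
    (fun (i : Fin N) _ => (⟨2 * i.val + (if u then 1 else 0), by
      have := i.isLt; split_ifs <;> omega⟩ : Fin (2 * N)))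
  · intro i _
    simp only [Finset.mem_filter, Finset.mem_univ, true_and]
    cases u
    · simp only [Bool.false_eq_true, if_false, decide_eq_false_iff_not]; omega
    · simp only [if_true, decide_eq_true_eq]; omega
  · intro i _ j _ hij
    have := congrArg Fin.val hij
    simp only at this
    apply Fin.ext
    omega
  · intro e he
    simp only [Finset.mem_filter, Finset.mem_univ, true_and] at he
    refine ⟨⟨e.val / 2, by have := e.isLt; omega⟩, Finset.mem_univ _, ?_⟩
    apply Fin.ext
    simp only
    cases u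
    · simp only [decide_eq_false_iff_not] at he
      simp only [Bool.false_eq_true, if_false]; omega
    · simp only [decide_eq_true_eq] at he
      simp only [if_true]; omega

theorem eq'_par (M : ℕ) : Eq' M (par M) := by
  intro u
  rw [Fintype.card_subtype]
  exact card_par_fin M u

theorem eq'_pbit (M : ℕ) (b : Fin M → Bool) : Eq' M (pbit M b) := by
  intro v
  rw [Fintype.card_subtype]
  have : (Finset.univ : Finset (Fin M)).card = M := by simp
  conv_rhs => rw [← this]
  symm
  apply Finset.card_bij (fun e _ => pos M e (xor (b e) v))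
  · intro e _
    simp only [Finset.mem_filter, Finset.mem_univ, true_and]
    rw [pbit_pos]
    cases b e <;> cases v <;> rfl
  · intro e1 _ e2 _ h12
    have := congrArg (edge M) h12
    rwa [edge_pos, edge_pos] at this
  · intro y hy
    simp only [Finset.mem_filter, Finset.mem_univ, true_and] at hy
    rw [← pos_edge M y, pbit_pos] at hy
    refine ⟨edge M y, Finset.mem_univ _, ?_⟩
    conv_rhs => rw [← pos_edge M y]
    congr 1
    rw [← hy]
    cases b (edge M y) <;> cases decide (M ≤ y.val) <;> rfl

theorem par_pos (N : ℕ) (e : Fin (2 * N)) (s : Bool) :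
    par (2 * N) (pos (2 * N) e s) = decide (e.val % 2 = 1) := by
  unfold par pos
  cases s
  · simp
  · simp only [if_true]
    congr 1
    apply propext
    constructor <;> intro h <;> omega

theorem eq'_col2 (N : ℕ) (b : Fin (2 * N) → Bool) : Eq' N (col2 (2 * N) b) := by
  rintro ⟨u, v⟩
  rw [Fintype.card_subtype]
  refine Eq.trans ?_ (card_par_fin N u)
  symm
  apply Finset.card_bij (fun e _ => pos (2 * N) e (xor (b e) v))
  · intro e he
    simp only [Finset.mem_filter, Finset.mem_univ, true_and] at he ⊢
    unfold col2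
    rw [pbit_pos, par_pos, he]
    cases b e <;> cases v <;> rfl
  · intro e1 _ e2 _ h12
    have := congrArg (edge (2 * N)) h12
    rwa [edge_pos, edge_pos] at this
  · intro y hy
    simp only [Finset.mem_filter, Finset.mem_univ, true_and] at hy
    unfold col2 at hy
    rw [← pos_edge (2 * N) y, pbit_pos, par_pos] at hy
    have h1 := (Prod.mk.inj hy).1
    have h2 := (Prod.mk.inj hy).2
    refine ⟨edge (2 * N) y, ?_, ?_⟩
    · simp only [Finset.mem_filter, Finset.mem_univ, true_and]
      exact h1
    · conv_rhs => rw [← pos_edge (2 * N) y]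
      congr 1
      rw [← h2]
      cases b (edge (2 * N) y) <;> cases decide (2 * N ≤ y.val) <;> rfl

theorem card_perm_fin (M : ℕ) :
    (Fintype.card (Equiv.Perm (Fin (2 * M))) : ℝ) = ((2 * M)! : ℝ) := by
  rw [Fintype.card_perm, Fintype.card_fin]

/-- reference law of the column of lowest position bits -/
theorem pm_lowB (M : ℕ) (c : Fin (2 * M) → Bool) :
    pm (unif (Equiv.Perm (Fin (2 * M)))) (lowB M) c =
      if Eq' M c then ((M ! : ℝ)) ^ 2 / ((2 * M)! : ℝ) else 0 := by
  unfold pm unif
  rw [Finset.sum_const, nsmul_eq_mul, card_perm_fin]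
  have e : (Finset.univ.filter (fun h : Equiv.Perm (Fin (2 * M)) => lowB M h = c)) =
      Finset.univ.filter (fun h : Equiv.Perm (Fin (2 * M)) => par M ∘ h = c) := rfl
  rw [e, card_perm_const c (par M) M (eq'_par M)]
  split_ifs
  · rw [Fintype.card_bool]
    push_cast
    ring
  · simp

/-- reference law of the column of new bits -/
theorem push_bitChan (M : ℕ) (τ : Fin (2 * M) → Bool) :
    push (bitChan M) (unif (Equiv.Perm (Fin (2 * M)))) τ =
      if Eq' M τ then ((M ! : ℝ)) ^ 2 / ((2 * M)! : ℝ) else 0 := by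
  unfold push unif
  simp only [bitChan_eq_sum, Finset.mul_sum]
  rw [Finset.sum_comm]
  have hb : ∀ b : Fin M → Bool, ∑ h : Equiv.Perm (Fin (2 * M)),
      1 / (Fintype.card (Equiv.Perm (Fin (2 * M))) : ℝ) *
        (1 / 2 ^ M * (if newBit M h b = τ then (1 : ℝ) else 0)) =
      (1 / 2 ^ M) * (if Eq' M τ then ((M ! : ℝ)) ^ 2 / ((2 * M)! : ℝ) else 0) := by
    intro b
    simp only [← Finset.mul_sum]
    rw [Finset.sum_boole, card_perm_fin]
    have e : (Finset.univ.filter (fun h : Equiv.Perm (Fin (2 * M)) => newBit M h b = τ)) =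
        Finset.univ.filter (fun h : Equiv.Perm (Fin (2 * M)) => pbit M b ∘ h = τ) := rfl
    rw [e, card_perm_const τ (pbit M b) M (eq'_pbit M b)]
    split_ifs
    · rw [Fintype.card_bool]
      push_cast
      ring
    · simp
  simp only [hb]
  rw [Finset.sum_const, Finset.card_univ, Fintype.card_fun, Fintype.card_bool, Fintype.card_fin,
    nsmul_eq_mul]
  push_cast
  field_simp

theorem cond2_iff (M : ℕ) (h : Equiv.Perm (Fin (2 * M))) (b : Fin M → Bool)
    (c τ : Fin (2 * M) → Bool) :
    (lowB M h = c ∧ newBit M h b = τ) ↔ col2 M b ∘ h = fun x => (c x, τ x) := by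
  constructor
  · rintro ⟨h1, h2⟩
    funext x
    rw [← h1, ← h2]
    rfl
  · intro hh
    constructor
    · funext x
      exact (Prod.mk.inj (congrFun hh x)).1
    · funext x
      exact (Prod.mk.inj (congrFun hh x)).2

/-- reference joint law of (lowest position bits, new bits), even block -/
theorem joint_lowB (N : ℕ) (c τ : Fin (2 * (2 * N)) → Bool) :
    joint (lowB (2 * N)) (bitChan (2 * N)) (unif (Equiv.Perm (Fin (2 * (2 * N))))) (c, τ) =
      if Eq' N (fun x => (c x, τ x)) then ((N ! : ℝ)) ^ 4 / ((2 * (2 * N))! : ℝ) else 0 := by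
  unfold joint unif
  have h1 : ∀ h : Equiv.Perm (Fin (2 * (2 * N))),
      (if lowB (2 * N) h = c then
        1 / (Fintype.card (Equiv.Perm (Fin (2 * (2 * N)))) : ℝ) * bitChan (2 * N) h τ else 0) =
      ∑ b : Fin (2 * N) → Bool, 1 / (Fintype.card (Equiv.Perm (Fin (2 * (2 * N)))) : ℝ) *
        (1 / 2 ^ (2 * N) *
          (if lowB (2 * N) h = c ∧ newBit (2 * N) h b = τ then (1 : ℝ) else 0)) := by
    intro h
    by_cases hc : lowB (2 * N) h = c
    · simp only [hc, if_true, true_and]
      rw [bitChan_eq_sum, Finset.mul_sum]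
    · simp [hc]
  simp only [h1]
  rw [Finset.sum_comm]
  have hb : ∀ b : Fin (2 * N) → Bool, ∑ h : Equiv.Perm (Fin (2 * (2 * N))),
      1 / (Fintype.card (Equiv.Perm (Fin (2 * (2 * N)))) : ℝ) *
        (1 / 2 ^ (2 * N) *
          (if lowB (2 * N) h = c ∧ newBit (2 * N) h b = τ then (1 : ℝ) else 0)) =
      (1 / 2 ^ (2 * N)) *
        (if Eq' N (fun x => (c x, τ x)) then ((N ! : ℝ)) ^ 4 / ((2 * (2 * N))! : ℝ) else 0) := by
    intro b
    simp only [← Finset.mul_sum]
    rw [Finset.sum_boole, card_perm_fin]
    have e : (Finset.univ.filter (fun h : Equiv.Perm (Fin (2 * (2 * N))) =>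
        lowB (2 * N) h = c ∧ newBit (2 * N) h b = τ)) =
        Finset.univ.filter (fun h : Equiv.Perm (Fin (2 * (2 * N))) =>
          col2 (2 * N) b ∘ h = fun x => (c x, τ x)) := by
      apply Finset.filter_congr
      intro h _
      exact cond2_iff (2 * N) h b c τ
    rw [e, card_perm_const (fun x => (c x, τ x)) (col2 (2 * N) b) N (eq'_col2 N b)]
    split_ifs
    · have : Fintype.card (Bool × Bool) = 4 := by simp
      rw [this]
      push_cast
      ring
    · simp
  simp only [hb]
  rw [Finset.sum_const, Finset.card_univ, Fintype.card_fun, Fintype.card_bool, Fintype.card_fin,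
    nsmul_eq_mul]
  push_cast
  field_simp

theorem cnt_fst {X : Type*} [Fintype X] (c τ : X → Bool) (u : Bool) :
    Fintype.card {x // c x = u} =
      Fintype.card {x // (c x, τ x) = (u, true)} + Fintype.card {x // (c x, τ x) = (u, false)} := by
  simp only [Fintype.card_subtype, Finset.card_filter]
  rw [← Finset.sum_add_distrib]
  apply Finset.sum_congr rfl
  intro x _
  cases c x <;> cases τ x <;> cases u <;> simp

theorem cnt_snd {X : Type*} [Fintype X] (c τ : X → Bool) (v : Bool) :
    Fintype.card {x // τ x = v} =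
      Fintype.card {x // (c x, τ x) = (true, v)} + Fintype.card {x // (c x, τ x) = (false, v)} := by
  simp only [Fintype.card_subtype, Finset.card_filter]
  rw [← Finset.sum_add_distrib]
  apply Finset.sum_congr rfl
  intro x _
  cases c x <;> cases τ x <;> cases v <;> simp

theorem shell_fst {X : Type*} [Fintype X] (N : ℕ) (c τ : X → Bool)
    (h : Eq' N (fun x => (c x, τ x))) : Eq' (2 * N) c := by
  intro u
  rw [cnt_fst c τ u]
  have h1 := h (u, true)
  have h2 := h (u, false)
  simp only at h1 h2
  omega

theorem shell_snd {X : Type*} [Fintype X] (N : ℕ) (c τ : X → Bool)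
    (h : Eq' N (fun x => (c x, τ x))) : Eq' (2 * N) τ := by
  intro v
  rw [cnt_snd c τ v]
  have h1 := h (true, v)
  have h2 := h (false, v)
  simp only at h1 h2
  omega

/-- the constant value of the density `rho` on the shell -/
noncomputable def kap0 (N : ℕ) : ℝ :=
  (((N ! : ℝ)) ^ 4 / ((2 * (2 * N))! : ℝ)) /
    ((((2 * N)! : ℝ)) ^ 2 / ((2 * (2 * N))! : ℝ) * ((((2 * N)! : ℝ)) ^ 2 / ((2 * (2 * N))! : ℝ)))

theorem rho_lowB (N : ℕ) (c τ : Fin (2 * (2 * N)) → Bool) :
    rho (lowB (2 * N)) (bitChan (2 * N)) c τ =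
      kap0 N * (if Eq' N (fun x => (c x, τ x)) then 1 else 0) := by
  unfold rho
  rw [joint_lowB, pm_lowB, push_bitChan]
  by_cases h : Eq' N (fun x => (c x, τ x))
  · rw [if_pos h, if_pos (shell_fst N c τ h), if_pos (shell_snd N c τ h), if_pos h, mul_one]
    rfl
  · rw [if_neg h, if_neg h, zero_div, mul_zero]

/-- probability that the new column is orthogonal to the column `c` -/
noncomputable def smooth (N : ℕ) (h : Equiv.Perm (Fin (2 * (2 * N)))) (c : Fin (2 * (2 * N)) → Bool) :
    ℝ :=
  ∑ τ, bitChan (2 * N) h τ * (if Eq' N (fun x => (c x, τ x)) then 1 else 0)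

theorem kap_lowB (N : ℕ) (h : Equiv.Perm (Fin (2 * (2 * N)))) (c : Fin (2 * (2 * N)) → Bool) :
    kap (lowB (2 * N)) (bitChan (2 * N)) h c = kap0 N * smooth N h c - 1 := by
  unfold kap smooth
  simp only [rho_lowB]
  rw [Finset.mul_sum]
  congr 1
  apply Finset.sum_congr rfl
  intro τ _
  ring

theorem kap0_norm (N : ℕ) (h : Equiv.Perm (Fin (2 * (2 * N)))) :
    kap0 N * ∑ c, pm (unif (Equiv.Perm (Fin (2 * (2 * N))))) (lowB (2 * N)) c * smooth N h c = 1 := by
  have h1 := centre_c (lowB (2 * N)) (bitChan (2 * N)) (bitChan_isChan (2 * N)) h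
  simp only [kap_lowB, mul_sub, mul_one, Finset.sum_sub_distrib] at h1
  rw [pm_sum, unif_sum] at h1
  rw [Finset.mul_sum]
  have h2 : ∀ c, kap0 N * (pm (unif (Equiv.Perm (Fin (2 * (2 * N))))) (lowB (2 * N)) c *
      smooth N h c) = pm (unif (Equiv.Perm (Fin (2 * (2 * N))))) (lowB (2 * N)) c *
      (kap0 N * smooth N h c) := fun c => by ring
  simp only [h2]
  linarith

/-- **Identification of the smoothed kernel.** -/
theorem kap_eq (N : ℕ) (h : Equiv.Perm (Fin (2 * (2 * N)))) (c : Fin (2 * (2 * N)) → Bool) :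
    kap (lowB (2 * N)) (bitChan (2 * N)) h c =
      smooth N h c /
        (∑ c', pm (unif (Equiv.Perm (Fin (2 * (2 * N))))) (lowB (2 * N)) c' * smooth N h c') - 1 := by
  rw [kap_lowB]
  have h1 := kap0_norm N h
  have h2 : (∑ c', pm (unif (Equiv.Perm (Fin (2 * (2 * N))))) (lowB (2 * N)) c' *
      smooth N h c') ≠ 0 := by
    intro h0
    rw [h0, mul_zero] at h1
    exact zero_ne_one h1
  congr 1
  rw [eq_div_iff h2]
  set S := ∑ c', pm (unif (Equiv.Perm (Fin (2 * (2 * N))))) (lowB (2 * N)) c' * smooth N h c'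
  calc kap0 N * smooth N h c * S = (kap0 N * S) * smooth N h c := by ring
    _ = smooth N h c := by rw [h1, one_mul]

end Vale.Agent.P162.SB8
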