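import Vale.Agent.P162.SB.Defs
import Vale.Agent.P162.SB.CentralW

namespace Vale.Agent.P162.SB

open Finset Real

theorem bcf_two_mul (n : ℕ) : bcf (2 * n) = wb n := by
  unfold bcf wb
  rw [Nat.mul_div_cancel_left n (by norm_num), Nat.centralBinom_eq_two_mul_choose, pow_mul]
  norm_num

theorem bcf_zero : bcf 0 = 1 := by
  simp [bcf]

theorem bcf_pos (c : ℕ) : 0 < bcf c := by
  unfold bcf
  have : 0 < c.choose (c / 2) := Nat.choose_pos (Nat.div_le_self c 2)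
  positivity

theorem bcf_le_one (c : ℕ) : bcf c ≤ 1 := by
  unfold bcf
  rw [div_le_one (by positivity)]
  exact_mod_cast Nat.choose_le_two_pow c (c / 2)

theorem bcf_add_two (n : ℕ) :
    bcf (2 * n + 2) = bcf (2 * n) * ((2 * (n : ℝ) + 1) / (2 * (n : ℝ) + 2)) := by
  have h : 2 * n + 2 = 2 * (n + 1) := by ring
  rw [h, bcf_two_mul, bcf_two_mul, wb_succ]

theorem bcf_anti {c c' : ℕ} (hc : Even c) (hc' : Even c') (h : c ≤ c') : bcf c' ≤ bcf c := by
  obtain ⟨a, rfl⟩ := hc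
  obtain ⟨a', rfl⟩ := hc'
  rw [← two_mul, ← two_mul, bcf_two_mul, bcf_two_mul]
  exact wb_antitone (by omega)

/-- induction with `(2n+1)/(2n+2) ≥ sqrt (n/(n+1))` -/
theorem bcf_lower (n : ℕ) (hn : 1 ≤ n) : 1 / (2 * Real.sqrt n) ≤ bcf (2 * n) := by
  rw [bcf_two_mul]
  exact wb_lower n hn

/-- `bcf c / bcf c' = ∏ (1 + 1/(k+1))` over even `k` in `[c, c')`, each factor `≤ exp (1/(c+1))` -/
theorem bcf_ratio {c c' : ℕ} (hc : Even c) (hc' : Even c') (h : c ≤ c') :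
    bcf c ≤ bcf c' * Real.exp (((c' : ℝ) - c) / (2 * ((c : ℝ) + 1))) := by
  obtain ⟨a, rfl⟩ := hc
  obtain ⟨a', rfl⟩ := hc'
  have h1 := wb_ratio a a' (by omega)
  rw [← two_mul, ← two_mul, bcf_two_mul, bcf_two_mul]
  have e : (((2 * a' : ℕ) : ℝ) - ((2 * a : ℕ) : ℝ)) / (2 * (((2 * a : ℕ) : ℝ) + 1))
      = ((a' : ℝ) - a) / (2 * (a : ℝ) + 1) := by
    push_cast
    have : (0 : ℝ) < 2 * (a : ℝ) + 1 := by positivity
    field_simp
  rw [e]
  exact h1

theorem four_pow_div_choose (M : ℕ) (hM : 1 ≤ M) :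
    (4 : ℝ) ^ M / ((2 * M).choose M : ℝ) ≤ 2 * Real.sqrt M := by
  have h := wb_lower M hM
  have hw := wb_pos M
  have hM' : (0 : ℝ) < M := by exact_mod_cast hM
  have hs : 0 < Real.sqrt M := Real.sqrt_pos.2 hM'
  have e : (4 : ℝ) ^ M / ((2 * M).choose M : ℝ) = 1 / wb M := by
    unfold wb
    rw [Nat.centralBinom_eq_two_mul_choose, one_div_div]
  rw [e, div_le_iff₀ hw]
  rw [div_le_iff₀ (by positivity)] at h
  linarith

/-- every even `c ≤ M` has `bcf c ≥ 1 / sqrt (2 M)` -/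
theorem bcf_lower' (M c : ℕ) (hM : 1 ≤ M) (hc : Even c) (hcM : c ≤ M) :
    1 / Real.sqrt (2 * M) ≤ bcf c := by
  have hM' : (1 : ℝ) ≤ M := by exact_mod_cast hM
  obtain ⟨a, rfl⟩ := hc
  rcases Nat.eq_zero_or_pos a with h0 | hpos
  · subst h0
    rw [bcf_zero, div_le_one (Real.sqrt_pos.2 (by linarith))]
    rw [show (1 : ℝ) = Real.sqrt 1 by simp]
    exact Real.sqrt_le_sqrt (by linarith)
  · rw [← two_mul]
    refine le_trans ?_ (bcf_lower a hpos)
    have ha : (0 : ℝ) < a := by exact_mod_cast hpos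
    have e : 2 * Real.sqrt a = Real.sqrt (4 * a) := by
      rw [show (4 : ℝ) * a = 2 ^ 2 * a by norm_num, Real.sqrt_mul (by positivity),
        Real.sqrt_sq (by norm_num)]
    rw [e]
    apply one_div_le_one_div_of_le (Real.sqrt_pos.2 (by positivity))
    apply Real.sqrt_le_sqrt
    have : ((a + a : ℕ) : ℝ) ≤ M := by exact_mod_cast hcM
    push_cast at this
    linarith

end Vale.Agent.P162.SB
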