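import Vale.Agent.P162.SB.Defs
import Vale.Agent.P162.KL.Mono

namespace Vale.Agent.P162.SB

open Finset Real Vale.Agent.P162 Vale.Agent.P162.KL Vale.Agent.P162.Top

/-- glue the `r` lowest bits and bit number `r` -/
def glueBit (k r : ℕ) (ab : (Fin (2 * 2 ^ k) → Fin (2 * 2 ^ k)) × (Fin (2 * 2 ^ k) → Bool)) :
    Fin (2 * 2 ^ k) → Fin (2 * 2 ^ k) :=
  fun x => ⟨((ab.1 x).val + 2 ^ r * (if ab.2 x then 1 else 0)) % (2 * 2 ^ k),
    Nat.mod_lt _ (by positivity)⟩

theorem mod_succ_pow (n r : ℕ) :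
    n % 2 ^ (r + 1) = n % 2 ^ r + 2 ^ r * (if n / 2 ^ r % 2 = 1 then 1 else 0) := by
  rw [pow_succ, Nat.mod_mul]
  have h2 : n / 2 ^ r % 2 < 2 := Nat.mod_lt _ (by norm_num)
  split_ifs with h
  · rw [h]
  · have h0 : n / 2 ^ r % 2 = 0 := by omega
    rw [h0]

theorem lowBits_succ_eq (k r : ℕ) (g : G k) :
    lowBits k (r + 1) g = glueBit k r (lowBits k r g, bitCol k r g) := by
  funext x
  apply Fin.ext
  unfold lowBits glueBit bitCol
  simp only [decide_eq_true_eq]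
  rw [← mod_succ_pow]
  symm
  exact Nat.mod_eq_of_lt (lt_of_le_of_lt (Nat.mod_le _ _) (g x).isLt)

/-- the `r + 1` lowest bits are a function of (the `r` lowest bits, bit number `r`):
`Dv_comp_le` with `F (a, b) x = a x + 2^r * (b x)` -/
theorem Sr_succ_le_pair (k r : ℕ) (hr : r ≤ k) (μ : G k → ℝ) (hμ : IsLaw μ) :
    Sr k (r + 1) μ ≤ Dv μ (unif (G k)) (fun g => (lowBits k r g, bitCol k r g)) := by
  have h := Dv_comp_le (pair_unif μ hμ) (fun g => (lowBits k r g, bitCol k r g)) (glueBit k r)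
  have e : glueBit k r ∘ (fun g => (lowBits k r g, bitCol k r g)) = lowBits k (r + 1) := by
    funext g
    exact (lowBits_succ_eq k r g).symm
  rw [e] at h
  exact h

end Vale.Agent.P162.SB
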