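import Vale.Agent.P162.SB.Defs
import Vale.Agent.P162.Top.PmConv
import Vale.Agent.P162.Top.ConvComm
import Vale.Agent.P162.KL.Mono

namespace Vale.Agent.P162.SB

open Finset Real Vale.Agent.P162 Vale.Agent.P162.KL Vale.Agent.P162.Top

/-- decoding of the `r + 2` lowest bits of the new position: new position mod `2^(r+2)` is
`2 * (old position mod 2^(r+1)) + new bit` -/
def dec (k r : ℕ) (c : Fin (2 * 2 ^ k) → Fin (2 * 2 ^ k)) :
    ((Fin (2 * 2 ^ k) → Fin (2 * 2 ^ k)) × (Fin (2 * 2 ^ k) → Bool)) × (Fin (2 * 2 ^ k) → Bool) :=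
  ((fun x => ⟨(c x).val / 2 % 2 ^ r, lt_of_le_of_lt (Nat.mod_le _ _)
      (lt_of_le_of_lt (Nat.div_le_self _ _) (c x).isLt)⟩,
    fun x => decide ((c x).val / 2 / 2 ^ r % 2 = 1)),
   fun x => decide ((c x).val % 2 = 1))

private theorem arith_half (r q u e : ℕ) (he : e < 2) (hq : q = 2 * u + e) :
    q % 2 ^ (r + 2) / 2 = u % 2 ^ (r + 1) := by
  have h1 : 2 ^ (r + 2) = 2 * 2 ^ (r + 1) := by rw [pow_succ]; ring
  rw [h1, Nat.mod_mul_right_div_self]
  congr 1
  omega

private theorem arith_one (k r p : ℕ) (hr : r + 1 ≤ k) :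
    p % 2 ^ k % 2 ^ (r + 1) % 2 ^ r = p % 2 ^ r := by
  rw [Nat.mod_mod_of_dvd _ (pow_dvd_pow 2 (Nat.le_succ r)),
    Nat.mod_mod_of_dvd _ (pow_dvd_pow 2 (by omega))]

private theorem arith_two (k r p : ℕ) (hr : r + 1 ≤ k) :
    p % 2 ^ k % 2 ^ (r + 1) / 2 ^ r % 2 = p / 2 ^ r % 2 := by
  rw [Nat.mod_mod_of_dvd _ (pow_dvd_pow 2 hr)]
  have h1 : 2 ^ (r + 1) = 2 ^ r * 2 := by rw [pow_succ]
  rw [h1, Nat.mod_mul_right_div_self, Nat.mod_mod]

private theorem arith_three (r q : ℕ) : q % 2 ^ (r + 2) % 2 = q % 2 := by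
  apply Nat.mod_mod_of_dvd
  exact dvd_pow_self 2 (by omega)

theorem dec_lowBits_thorp (k r : ℕ) (hr : r + 1 ≤ k) (g : G k) (b : Fin (2 ^ k) → Bool) :
    dec k r (lowBits k (r + 2) (thorpPerm (2 ^ k) b * g)) =
      ((lowBits k r g, bitCol k r g), newBit (2 ^ k) g b) := by
  have hval : ∀ x, ∃ e : ℕ, e < 2 ∧
      ((thorpPerm (2 ^ k) b * g) x).val = 2 * ((g x).val % 2 ^ k) + e := by
    intro x
    exact thorpMap_val (2 ^ k) b (g x)
  unfold dec
  refine Prod.ext (Prod.ext ?_ ?_) ?_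
  · funext x
    obtain ⟨e, he, hq⟩ := hval x
    apply Fin.ext
    simp only [lowBits]
    rw [arith_half r _ _ e he hq, arith_one k r _ hr]
  · funext x
    obtain ⟨e, he, hq⟩ := hval x
    show decide (((thorpPerm (2 ^ k) b * g) x).val % 2 ^ (r + 2) / 2 / 2 ^ r % 2 = 1) =
      decide ((g x).val / 2 ^ r % 2 = 1)
    apply decide_eq_decide.mpr
    rw [arith_half r _ _ e he hq, arith_two k r _ hr]
  · funext x
    show decide (((thorpPerm (2 ^ k) b * g) x).val % 2 ^ (r + 2) % 2 = 1) =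
      decide ((thorpMap (2 ^ k) b (g x)).val % 2 = 1)
    apply decide_eq_decide.mpr
    rw [arith_three]
    rfl

private theorem isLaw_conv (k : ℕ) (μ : G k → ℝ) (hμ : IsLaw μ) :
    IsLaw (conv (thorpLaw (2 ^ k)) μ) := by
  constructor
  · intro g
    exact conv_nonneg _ _ (thorpLaw_nonneg _) hμ.1 g
  · rw [sum_conv, sum_thorpLaw, hμ.2, one_mul]

private theorem joint_eq_pm (k r : ℕ) (hr : r + 1 ≤ k) (ν : G k → ℝ) :
    joint (fun g => (lowBits k r g, bitCol k r g)) (bitChan (2 ^ k)) ν =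
      KL.pm (conv (thorpLaw (2 ^ k)) ν) (dec k r ∘ lowBits k (r + 2)) := by
  classical
  funext ab
  rw [pm_conv]
  unfold joint
  apply Finset.sum_congr rfl
  intro g _
  have hX : ∀ b : Fin (2 ^ k) → Bool,
      (dec k r ∘ lowBits k (r + 2)) (thorpPerm (2 ^ k) b * g) =
        ((lowBits k r g, bitCol k r g), newBit (2 ^ k) g b) := fun b => dec_lowBits_thorp k r hr g b
  simp only [hX]
  by_cases h : (lowBits k r g, bitCol k r g) = ab.1
  · rw [if_pos h]
    unfold bitChan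
    have hF : (Finset.univ.filter (fun b : Fin (2 ^ k) → Bool => newBit (2 ^ k) g b = ab.2)) =
        (Finset.univ.filter (fun b : Fin (2 ^ k) → Bool =>
          ((lowBits k r g, bitCol k r g), newBit (2 ^ k) g b) = ab)) := by
      ext b
      simp only [Finset.mem_filter, Finset.mem_univ, true_and]
      constructor
      · intro hb
        exact Prod.ext h hb
      · intro hb
        exact congrArg Prod.snd hb
    rw [hF]
  · rw [if_neg h]
    have hE : (Finset.univ.filter (fun b : Fin (2 ^ k) → Bool =>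
        ((lowBits k r g, bitCol k r g), newBit (2 ^ k) g b) = ab)) = ∅ := by
      rw [Finset.filter_eq_empty_iff]
      intro b _ hb
      exact h (congrArg Prod.fst hb)
    rw [hE]
    simp

/-- (old `r` lowest bits, old bit `r`, new bit) is a function of the `r + 2` lowest bits of the new
deck: `joint _ _ ν = pm (conv thorpLaw ν) (dec ∘ lowBits (r+2))` for `ν = μ` and `ν = unif`
(`pm_conv`, `dec_lowBits_thorp`, `conv_thorpLaw_unif`), then `Dv_comp_le`. -/
theorem joint_pair_le_Sr (k r : ℕ) (hr : r + 1 ≤ k) (μ : G k → ℝ) (hμ : IsLaw μ) :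
    kl (joint (fun g => (lowBits k r g, bitCol k r g)) (bitChan (2 ^ k)) μ)
        (joint (fun g => (lowBits k r g, bitCol k r g)) (bitChan (2 ^ k)) (unif (G k))) ≤
      Sr k (r + 2) (conv (thorpLaw (2 ^ k)) μ) := by
  rw [joint_eq_pm k r hr μ, joint_eq_pm k r hr (unif (G k)), conv_thorpLaw_unif]
  exact Dv_comp_le (pair_unif _ (isLaw_conv k μ hμ)) (lowBits k (r + 2)) (dec k r)

end Vale.Agent.P162.SB
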