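import Vale.Agent.P162.SB.Fibre
import Vale.Agent.P162.SB.Cond
import Vale.Agent.P162.SB.StepA
import Vale.Agent.P162.SB.StepB
import Vale.Agent.P162.Top.SrSucc

namespace Vale.Agent.P162.SB

open Finset Real Vale.Agent.P162 Vale.Agent.P162.KL Vale.Agent.P162.Top

/-- the one-step inequality of the SB route -/
theorem one_step_sb (k r : ℕ) (hr : r + 1 ≤ k) (θ : ℝ) (hθ0 : 0 ≤ θ)
    (hθ : SB (lowCol (2 ^ (k - r))) (bitChan (2 ^ (k - r))) θ) (μ : G k → ℝ) (hμ : IsLaw μ) :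
    Sr k (r + 1) μ + Sr k (r + 1) (conv (thorpLaw (2 ^ k)) μ) ≤
      Sr k r μ + Sr k (r + 2) (conv (thorpLaw (2 ^ k)) μ) +
        θ * (kl μ (unif (G k)) - Sr k r μ) := by
  have hr' : r ≤ k := by omega
  have h1 := Sr_succ_le_pair k r hr' μ hμ
  have h2 := Sr_succ_conv_le k r hr' μ hμ
  have h3 := joint_pair_le_Sr k r hr μ hμ
  have h4 := cond_sb (lowBits k r) (bitCol k r) (bitChan (2 ^ k)) (Top.isChan_bitChan _) θ
    (fibre_sb k r hr' θ hθ0 hθ) μ hμ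
  unfold Sr at *
  linarith

end Vale.Agent.P162.SB
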