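import Mathlib

/-!
# P162, route SB : the scalar recursion (R)

Levels `k = 0 .. d`, `S k` = divergence of the columns `k ..`, `S d = 0`, `S` antitone.
One shuffle: `S' k ≤ S (k+1) + t k`, with `t k ≤ ∑_{i ≤ k} a i * (S i - S (i+1))`,
`0 ≤ a i ≤ 3/4`, `∑ a i` bounded.  Then an explicit weighted potential contracts by
`1 - g / (2 d)` with `g > 0` independent of `d`.
-/

namespace Vale.Agent.P162.SB

open Finset

/-- `gq a i = ∏_{l<i} (1 - a l)` -/
noncomputable def gq (a : ℕ → ℝ) : ℕ → ℝ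
  | 0 => 1
  | i + 1 => (1 - a i) * gq a i

/-- the profile `V i = g i * (1 - i / (2 d))` -/
noncomputable def Vq (a : ℕ → ℝ) (d : ℕ) (i : ℕ) : ℝ := gq a i * (1 - (i : ℝ) / (2 * d))

/-- the weighted potential -/
noncomputable def Pot (a : ℕ → ℝ) (d : ℕ) (S : ℕ → ℝ) : ℝ :=
  ∑ k ∈ range d, (Vq a d k - Vq a d (k + 1)) * S k

theorem abel1 (V S : ℕ → ℝ) (d : ℕ) :
    ∑ k ∈ range d, (V k - V (k + 1)) * S k =
      ∑ i ∈ range d, (V 0 - V (i + 1)) * (S i - S (i + 1)) + (V 0 - V d) * S d := by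
  induction d with
  | zero => simp
  | succ d ih => rw [sum_range_succ, sum_range_succ, ih]; ring

theorem abel2 (V S : ℕ → ℝ) (d : ℕ) :
    ∑ k ∈ range d, (V k - V (k + 1)) * S (k + 1) =
      ∑ i ∈ range d, (V 0 - V i) * (S i - S (i + 1)) + (V 0 - V d) * S d := by
  induction d with
  | zero => simp
  | succ d ih => rw [sum_range_succ, sum_range_succ, ih]; ring

theorem abel3 (V x : ℕ → ℝ) (d : ℕ) :
    ∑ k ∈ range d, (V k - V (k + 1)) * ∑ i ∈ range (k + 1), x i =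
      ∑ i ∈ range d, (V i - V d) * x i := by
  induction d with
  | zero => simp
  | succ d ih =>
    rw [sum_range_succ, ih, sum_range_succ (fun i => (V i - V (d + 1)) * x i),
      sum_range_succ (fun i => x i), mul_add, mul_sum]
    have : ∑ i ∈ range d, (V i - V (d + 1)) * x i =
        ∑ i ∈ range d, (V i - V d) * x i + ∑ i ∈ range d, (V d - V (d + 1)) * x i := by
      rw [← sum_add_distrib]
      apply sum_congr rfl
      intro i _
      ring
    rw [this]
    ring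

section g

variable (a : ℕ → ℝ) (ha0 : ∀ i, 0 ≤ a i) (ha1 : ∀ i, a i ≤ 3 / 4)

include ha1 in
theorem gq_pos (i : ℕ) : 0 < gq a i := by
  induction i with
  | zero => simp [gq]
  | succ i ih =>
    have := ha1 i
    simp only [gq]
    apply mul_pos _ ih
    linarith

include ha0 ha1 in
theorem gq_succ_le (i : ℕ) : gq a (i + 1) ≤ gq a i := by
  have h := gq_pos a ha1 i
  have := ha0 i
  simp only [gq]
  nlinarith

include ha0 ha1 in
theorem gq_anti {i j : ℕ} (h : i ≤ j) : gq a j ≤ gq a i := by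
  induction j, h using Nat.le_induction with
  | base => exact le_refl _
  | succ j _ ih => exact le_trans (gq_succ_le a ha0 ha1 j) ih

include ha0 ha1 in
theorem gq_le_one (i : ℕ) : gq a i ≤ 1 := by
  have := gq_anti a ha0 ha1 (Nat.zero_le i)
  simpa [gq] using this

include ha0 ha1 in
theorem gq_lower (i : ℕ) : Real.exp (-(4 * ∑ l ∈ range i, a l)) ≤ gq a i := by
  induction i with
  | zero => simp [gq]
  | succ i ih =>
    have h0 := ha0 i
    have h1 := ha1 i
    have hx : 0 < 1 - a i := by linarith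
    have h2 : Real.exp (-(4 * a i)) ≤ 1 - a i := by
      have h3 := Real.one_sub_inv_le_log_of_pos hx
      have h4 : -(4 * a i) ≤ 1 - (1 - a i)⁻¹ := by
        have h5 : 1 - (1 - a i)⁻¹ = -(a i / (1 - a i)) := by
          field_simp
          ring
        rw [h5, neg_le_neg_iff, div_le_iff₀ hx]
        nlinarith
      calc Real.exp (-(4 * a i)) ≤ Real.exp (Real.log (1 - a i)) :=
            Real.exp_le_exp.2 (le_trans h4 h3)
        _ = 1 - a i := Real.exp_log hx
    rw [sum_range_succ]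
    have e : -(4 * (∑ l ∈ range i, a l + a i)) = -(4 * a i) + -(4 * ∑ l ∈ range i, a l) := by
      ring
    rw [e, Real.exp_add]
    simp only [gq]
    exact mul_le_mul h2 ih (Real.exp_pos _).le hx.le

end g

theorem Vq_zero (a : ℕ → ℝ) (d : ℕ) : Vq a d 0 = 1 := by simp [Vq, gq]

theorem Vq_succ (a : ℕ → ℝ) (d : ℕ) (hd : 1 ≤ d) (i : ℕ) :
    (1 - a i) * Vq a d i = Vq a d (i + 1) + gq a (i + 1) / (2 * d) := by
  have hd' : (0 : ℝ) < d := by exact_mod_cast hd
  simp only [Vq, gq]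
  push_cast
  field_simp
  ring

theorem Vq_nonneg (a : ℕ → ℝ) (ha1 : ∀ i, a i ≤ 3 / 4) (d : ℕ) (hd : 1 ≤ d) (i : ℕ)
    (hi : i ≤ d) : 0 ≤ Vq a d i := by
  have hd' : (0 : ℝ) < d := by exact_mod_cast hd
  have hi' : (i : ℝ) ≤ d := by exact_mod_cast hi
  unfold Vq
  apply mul_nonneg (gq_pos a ha1 i).le
  rw [sub_nonneg, div_le_one (by positivity)]
  linarith

theorem Vq_le (a : ℕ → ℝ) (ha0 : ∀ i, 0 ≤ a i) (ha1 : ∀ i, a i ≤ 3 / 4) (d : ℕ) (hd : 1 ≤ d)
    (i : ℕ) (hi : i ≤ d) : Vq a d i ≤ 1 - (i : ℝ) / (2 * d) := by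
  have hd' : (0 : ℝ) < d := by exact_mod_cast hd
  have hi' : (i : ℝ) ≤ d := by exact_mod_cast hi
  unfold Vq
  have h1 : 0 ≤ 1 - (i : ℝ) / (2 * d) := by
    rw [sub_nonneg, div_le_one (by positivity)]
    linarith
  have := gq_le_one a ha0 ha1 i
  nlinarith

theorem Vq_step_nonneg (a : ℕ → ℝ) (ha0 : ∀ i, 0 ≤ a i) (ha1 : ∀ i, a i ≤ 3 / 4) (d : ℕ)
    (hd : 1 ≤ d) (i : ℕ) (hi : i < d) : 0 ≤ Vq a d i - Vq a d (i + 1) := by
  have hd' : (0 : ℝ) < d := by exact_mod_cast hd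
  have h1 := Vq_succ a d hd i
  have h2 := Vq_nonneg a ha1 d hd i hi.le
  have h3 : 0 ≤ gq a (i + 1) / (2 * d) := div_nonneg (gq_pos a ha1 _).le (by positivity)
  have := ha0 i
  nlinarith

/-- one step of the potential -/
theorem pot_step (a : ℕ → ℝ) (ha0 : ∀ i, 0 ≤ a i) (ha1 : ∀ i, a i ≤ 3 / 4) (d : ℕ) (hd : 1 ≤ d)
    (S S' t : ℕ → ℝ) (hmono : ∀ k < d, S (k + 1) ≤ S k) (hSd : S d = 0)
    (hstep : ∀ k < d, S' k ≤ S (k + 1) + t k)
    (ht : ∀ k < d, t k ≤ ∑ i ∈ range (k + 1), a i * (S i - S (i + 1))) :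
    Pot a d S' ≤ (1 - gq a d / (2 * d)) * Pot a d S := by
  have hd' : (0 : ℝ) < d := by exact_mod_cast hd
  have h1 : Pot a d S' ≤ ∑ k ∈ range d, (Vq a d k - Vq a d (k + 1)) * S (k + 1) +
      ∑ k ∈ range d, (Vq a d k - Vq a d (k + 1)) *
        ∑ i ∈ range (k + 1), a i * (S i - S (i + 1)) := by
    unfold Pot
    rw [← sum_add_distrib]
    apply sum_le_sum
    intro k hk
    have hk' := mem_range.1 hk
    rw [← mul_add]
    apply mul_le_mul_of_nonneg_left _ (Vq_step_nonneg a ha0 ha1 d hd k hk')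
    linarith [hstep k hk', ht k hk']
  rw [abel2, abel3, hSd, mul_zero, add_zero] at h1
  have h2 : Pot a d S = ∑ i ∈ range d, (Vq a d 0 - Vq a d (i + 1)) * (S i - S (i + 1)) := by
    unfold Pot
    rw [abel1, hSd, mul_zero, add_zero]
  rw [h2, mul_sum]
  refine le_trans h1 ?_
  rw [← sum_add_distrib]
  apply sum_le_sum
  intro i hi
  have hi' := mem_range.1 hi
  have hΔ : 0 ≤ S i - S (i + 1) := by linarith [hmono i hi']
  have e1 := Vq_succ a d hd i
  have e2 := Vq_nonneg a ha1 d hd (i + 1) hi'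
  have e3 := Vq_nonneg a ha1 d hd d le_rfl
  have e4 : gq a d / (2 * d) ≤ gq a (i + 1) / (2 * d) :=
    div_le_div_of_nonneg_right (gq_anti a ha0 ha1 hi') (by positivity)
  have e5 : 0 ≤ gq a d / (2 * d) := div_nonneg (gq_pos a ha1 _).le (by positivity)
  have e6 := ha0 i
  rw [Vq_zero]
  have key : (1 - Vq a d i) + (Vq a d i - Vq a d d) * a i ≤
      (1 - gq a d / (2 * d)) * (1 - Vq a d (i + 1)) := by
    nlinarith [mul_nonneg e6 e3, mul_nonneg e5 e2]
  calc (1 - Vq a d i) * (S i - S (i + 1)) + (Vq a d i - Vq a d d) * (a i * (S i - S (i + 1)))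
      = ((1 - Vq a d i) + (Vq a d i - Vq a d d) * a i) * (S i - S (i + 1)) := by ring
    _ ≤ ((1 - gq a d / (2 * d)) * (1 - Vq a d (i + 1))) * (S i - S (i + 1)) :=
        mul_le_mul_of_nonneg_right key hΔ
    _ = _ := by ring

theorem pot_lower (a : ℕ → ℝ) (ha0 : ∀ i, 0 ≤ a i) (ha1 : ∀ i, a i ≤ 3 / 4) (d : ℕ) (hd : 1 ≤ d)
    (S : ℕ → ℝ) (hmono : ∀ k < d, S (k + 1) ≤ S k) (hSd : S d = 0) :
    S 0 / (2 * d) ≤ Pot a d S := by
  have hd' : (0 : ℝ) < d := by exact_mod_cast hd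
  unfold Pot
  rw [abel1, hSd, mul_zero, add_zero, Vq_zero]
  have h0 : S 0 = ∑ i ∈ range d, (S i - S (i + 1)) := by
    rw [sum_range_sub', hSd, sub_zero]
  rw [h0, sum_div]
  apply sum_le_sum
  intro i hi
  have hi' := mem_range.1 hi
  have hΔ : 0 ≤ S i - S (i + 1) := by linarith [hmono i hi']
  have h1 := Vq_le a ha0 ha1 d hd (i + 1) hi'
  have h2 : 1 / (2 * (d : ℝ)) ≤ ((i + 1 : ℕ) : ℝ) / (2 * d) := by
    apply div_le_div_of_nonneg_right _ (by positivity)
    push_cast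
    have : (0 : ℝ) ≤ i := Nat.cast_nonneg i
    linarith
  calc (S i - S (i + 1)) / (2 * d) = 1 / (2 * (d : ℝ)) * (S i - S (i + 1)) := by ring
    _ ≤ (1 - Vq a d (i + 1)) * (S i - S (i + 1)) :=
        mul_le_mul_of_nonneg_right (by linarith) hΔ

theorem pot_upper (a : ℕ → ℝ) (ha1 : ∀ i, a i ≤ 3 / 4) (d : ℕ) (hd : 1 ≤ d)
    (S : ℕ → ℝ) (hmono : ∀ k < d, S (k + 1) ≤ S k) (hSd : S d = 0) :
    Pot a d S ≤ S 0 := by
  unfold Pot
  rw [abel1, hSd, mul_zero, add_zero, Vq_zero]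
  have h0 : S 0 = ∑ i ∈ range d, (S i - S (i + 1)) := by
    rw [sum_range_sub', hSd, sub_zero]
  rw [h0]
  apply sum_le_sum
  intro i hi
  have hi' := mem_range.1 hi
  have hΔ : 0 ≤ S i - S (i + 1) := by linarith [hmono i hi']
  have h1 := Vq_nonneg a ha1 d hd (i + 1) hi'
  nlinarith

/-- the coefficients: `1/2 + Θ k0` below `k0`, the tail majorant `Θ i` from `k0` on -/
noncomputable def aq (k0 : ℕ) (Θ : ℕ → ℝ) (i : ℕ) : ℝ := if i < k0 then 1 / 2 + Θ k0 else Θ i

/-- from (A) and the level inequalities to `t k ≤ ∑_{i ≤ k} a i Δ i` -/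
theorem tt_bound (d k0 : ℕ) (hk0 : 1 ≤ k0) (θ Θ : ℕ → ℝ) (hΘ0 : ∀ k, 0 ≤ Θ k)
    (hΘ : ∀ k, θ k + Θ (k + 1) ≤ Θ k) (S t : ℕ → ℝ) (hmono : ∀ k < d, S (k + 1) ≤ S k)
    (hA : ∀ k < d, t k ≤ (S 0 - S (k + 1)) / 2)
    (hL : ∀ k, k0 ≤ k → k < d → t k ≤ t (k - 1) + θ k * (S 0 - S (k + 1))) :
    ∀ k < d, t k ≤ ∑ i ∈ range (k + 1), aq k0 Θ i * (S i - S (i + 1)) := by
  have htel : ∀ k, S 0 - S (k + 1) = ∑ i ∈ range (k + 1), (S i - S (i + 1)) := by
    intro k
    rw [sum_range_sub']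
  have hΔ : ∀ i < d, 0 ≤ S i - S (i + 1) := fun i hi => by linarith [hmono i hi]
  -- small levels
  have hsmall : ∀ k < d, k < k0 →
      t k ≤ ∑ i ∈ range (k + 1), (aq k0 Θ i - Θ k0) * (S i - S (i + 1)) := by
    intro k hk hk'
    refine le_trans (hA k hk) ?_
    rw [htel, sum_div]
    apply le_of_eq
    apply sum_congr rfl
    intro i hi
    have hi' := mem_range.1 hi
    have : i < k0 := by omega
    simp only [aq, this, if_true]
    ring
  have hbig : ∀ n, k0 - 1 + n < d →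
      t (k0 - 1 + n) ≤ ∑ i ∈ range (k0 - 1 + n + 1),
        (aq k0 Θ i - Θ (k0 - 1 + n + 1)) * (S i - S (i + 1)) := by
    intro n
    induction n with
    | zero =>
      intro hk
      have := hsmall (k0 - 1) (by simpa using hk) (by omega)
      have e : k0 - 1 + 0 + 1 = k0 := by omega
      simp only [Nat.add_zero] at *
      have e' : k0 - 1 + 1 = k0 := by omega
      rw [e']
      rw [e'] at this
      exact this
    | succ n ih =>
      intro hk
      have ih' := ih (by omega)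
      set k := k0 - 1 + (n + 1) with hkdef
      have hk1 : k - 1 = k0 - 1 + n := by omega
      have hk2 : k0 - 1 + n + 1 = k := by omega
      have h1 := hL k (by omega) hk
      rw [hk1] at h1
      rw [hk2] at ih'
      rw [htel k] at h1
      rw [sum_range_succ]
      rw [sum_range_succ, mul_add, mul_sum] at h1
      have h2 : ∑ i ∈ range k, (aq k0 Θ i - Θ k) * (S i - S (i + 1)) +
          ∑ i ∈ range k, θ k * (S i - S (i + 1)) ≤
          ∑ i ∈ range k, (aq k0 Θ i - Θ (k + 1)) * (S i - S (i + 1)) := by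
        rw [← sum_add_distrib]
        apply sum_le_sum
        intro i hi
        have hi' := mem_range.1 hi
        have := hΔ i (by omega)
        have h3 := hΘ k
        nlinarith
      have h4 : θ k * (S k - S (k + 1)) ≤ (aq k0 Θ k - Θ (k + 1)) * (S k - S (k + 1)) := by
        have : ¬ k < k0 := by omega
        simp only [aq, this, if_false]
        apply mul_le_mul_of_nonneg_right _ (hΔ k hk)
        linarith [hΘ k]
      linarith
  intro k hk
  have hfin : ∀ c : ℝ, 0 ≤ c →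
      ∑ i ∈ range (k + 1), (aq k0 Θ i - c) * (S i - S (i + 1)) ≤
        ∑ i ∈ range (k + 1), aq k0 Θ i * (S i - S (i + 1)) := by
    intro c hc
    apply sum_le_sum
    intro i hi
    have hi' := mem_range.1 hi
    have := hΔ i (by omega)
    nlinarith
  by_cases hkk : k < k0
  · exact le_trans (hsmall k hk hkk) (hfin _ (hΘ0 _))
  · have e : k0 - 1 + (k - (k0 - 1)) = k := by omega
    have := hbig (k - (k0 - 1)) (by omega)
    rw [e] at this
    exact le_trans this (hfin _ (hΘ0 _))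


theorem exp_six_bound (d : ℕ) (hd : 1 ≤ d) :
    16 * (d : ℝ) ^ 2 * 2 ^ d ≤ Real.exp (6 * d) := by
  have hd' : (1 : ℝ) ≤ d := by exact_mod_cast hd
  have h1 : (d : ℝ) ≤ Real.exp d := by
    have := Real.add_one_le_exp (d : ℝ)
    linarith
  have h2 : (2 : ℝ) ^ d ≤ Real.exp d := by
    have h3 : (2 : ℝ) ≤ Real.exp 1 := by
      have := Real.add_one_le_exp (1 : ℝ)
      linarith
    calc (2 : ℝ) ^ d ≤ (Real.exp 1) ^ d := pow_le_pow_left₀ (by norm_num) h3 d
      _ = Real.exp d := by rw [← Real.exp_nat_mul]; simp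
  have h4 : (16 : ℝ) ≤ Real.exp (3 * d) := by
    have h5 : (2.7 : ℝ) ≤ Real.exp 1 := by
      have := Real.exp_one_gt_d9
      linarith
    have h6 : Real.exp 3 = (Real.exp 1) ^ 3 := by
      rw [← Real.exp_nat_mul]; norm_num
    have h7 : (16 : ℝ) ≤ Real.exp 3 := by
      rw [h6]
      calc (16 : ℝ) ≤ 2.7 ^ 3 := by norm_num
        _ ≤ _ := pow_le_pow_left₀ (by norm_num) h5 3
    exact le_trans h7 (Real.exp_le_exp.2 (by linarith))
  have e : Real.exp (6 * d) = Real.exp (3 * d) * (Real.exp d * Real.exp d) * Real.exp d := by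
    rw [← Real.exp_add, ← Real.exp_add, ← Real.exp_add]
    congr 1
    ring
  rw [e]
  have h0 : (0 : ℝ) ≤ d := by linarith
  have h8 : (d : ℝ) ^ 2 ≤ Real.exp d * Real.exp d := by
    rw [sq]
    exact mul_le_mul h1 h1 h0 (Real.exp_pos _).le
  have h9 : 16 * (d : ℝ) ^ 2 ≤ Real.exp (3 * d) * (Real.exp d * Real.exp d) :=
    mul_le_mul h4 h8 (by positivity) (Real.exp_pos _).le
  exact mul_le_mul h9 h2 (by positivity) (by positivity)

/-- **The scalar recursion (R).** -/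
theorem rec_main (k0 : ℕ) (hk0 : 1 ≤ k0) (θ Θ : ℕ → ℝ) (hθ0 : ∀ k, 0 ≤ θ k) (hΘ0 : ∀ k, 0 ≤ Θ k)
    (hΘ : ∀ k, θ k + Θ (k + 1) ≤ Θ k) (hΘk : Θ k0 ≤ 1 / 4) (A : ℝ)
    (hA : ∀ N, ∑ k ∈ range N, Θ k ≤ A) :
    ∃ C : ℝ, 0 < C ∧ ∀ d : ℕ, 1 ≤ d → ∀ S tt : ℕ → ℕ → ℝ,
      (∀ t k, k < d → S t (k + 1) ≤ S t k) → (∀ t, S t d = 0) →
      (∀ t k, k < d → S (t + 1) k ≤ S t (k + 1) + tt t k) →
      (∀ t k, k < d → tt t k ≤ (S t 0 - S t (k + 1)) / 2) →
      (∀ t k, k0 ≤ k → k < d → tt t k ≤ tt t (k - 1) + θ k * (S t 0 - S t (k + 1))) →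
      S 0 0 ≤ d * 2 ^ d →
      ∀ t : ℕ, C * (d : ℝ) ^ 2 ≤ t → S t 0 ≤ 1 / 8 := by
  set a := aq k0 Θ with ha
  have hΘanti : ∀ i, k0 ≤ i → Θ i ≤ Θ k0 := by
    intro i hi
    induction i, hi using Nat.le_induction with
    | base => exact le_refl _
    | succ j _ ih => linarith [hΘ j, hθ0 j]
  have ha0 : ∀ i, 0 ≤ a i := by
    intro i
    simp only [ha, aq]
    split_ifs
    · linarith [hΘ0 k0]
    · exact hΘ0 i
  have ha1 : ∀ i, a i ≤ 3 / 4 := by
    intro i
    simp only [ha, aq]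
    split_ifs with h
    · linarith
    · linarith [hΘanti i (not_lt.mp h)]
  have hsum : ∀ N, ∑ l ∈ range N, a l ≤ k0 + A := by
    intro N
    have h1 : ∀ l, a l ≤ (if l < k0 then 1 else 0) + Θ l := by
      intro l
      simp only [ha, aq]
      split_ifs
      · linarith [hΘ0 l]
      · linarith
    calc ∑ l ∈ range N, a l ≤ ∑ l ∈ range N, ((if l < k0 then (1 : ℝ) else 0) + Θ l) :=
          sum_le_sum (fun l _ => h1 l)
      _ = ∑ l ∈ range N, (if l < k0 then (1 : ℝ) else 0) + ∑ l ∈ range N, Θ l :=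
          sum_add_distrib
      _ ≤ k0 + A := by
          apply add_le_add _ (hA N)
          rw [← sum_filter, sum_const, nsmul_eq_mul, mul_one]
          have : ((range N).filter (fun l => l < k0)).card ≤ (range k0).card := by
            apply card_le_card
            intro l hl
            simp only [mem_filter, mem_range] at hl ⊢
            exact hl.2
          rw [card_range] at this
          exact_mod_cast this
  set γ := Real.exp (-(4 * (k0 + A))) with hγ
  have hγ0 : 0 < γ := Real.exp_pos _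
  have hgγ : ∀ i, γ ≤ gq a i := by
    intro i
    refine le_trans ?_ (gq_lower a ha0 ha1 i)
    apply Real.exp_le_exp.2
    linarith [hsum i]
  refine ⟨12 / γ, by positivity, ?_⟩
  intro d hd S tt hmono hSd hstep hAA hL hinit t ht
  have hd' : (0 : ℝ) < d := by exact_mod_cast hd
  set q := 1 - γ / (2 * d) with hq
  have hγ1 : γ ≤ 1 := le_trans (hgγ 0) (by simp [gq])
  have hq0 : 0 ≤ q := by
    rw [hq, sub_nonneg, div_le_one (by positivity)]
    have : (1 : ℝ) ≤ d := by exact_mod_cast hd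
    linarith
  have hpotnn : ∀ s, 0 ≤ Pot a d (S s) := by
    intro s
    have h1 := pot_lower a ha0 ha1 d hd (S s) (hmono s) (hSd s)
    have h2 : 0 ≤ S s 0 := by
      have h0 : S s 0 = ∑ i ∈ range d, (S s i - S s (i + 1)) := by
        rw [sum_range_sub', hSd, sub_zero]
      rw [h0]
      apply sum_nonneg
      intro i hi
      linarith [hmono s i (mem_range.1 hi)]
    exact le_trans (by positivity) h1
  have hone : ∀ s, Pot a d (S (s + 1)) ≤ q * Pot a d (S s) := by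
    intro s
    have h1 := pot_step a ha0 ha1 d hd (S s) (S (s + 1)) (tt s) (hmono s) (hSd s) (hstep s)
      (tt_bound d k0 hk0 θ Θ hΘ0 hΘ (S s) (tt s) (hmono s) (hAA s) (hL s))
    refine le_trans h1 ?_
    apply mul_le_mul_of_nonneg_right _ (hpotnn s)
    rw [hq]
    have : γ / (2 * d) ≤ gq a d / (2 * d) :=
      div_le_div_of_nonneg_right (hgγ d) (by positivity)
    linarith
  have hiter : ∀ s, Pot a d (S s) ≤ q ^ s * Pot a d (S 0) := by
    intro s
    induction s with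
    | zero => simp
    | succ s ih =>
      calc Pot a d (S (s + 1)) ≤ q * Pot a d (S s) := hone s
        _ ≤ q * (q ^ s * Pot a d (S 0)) := mul_le_mul_of_nonneg_left ih hq0
        _ = _ := by ring
  have hqexp : q ^ t ≤ Real.exp (-(6 * d)) := by
    have h1 : q ≤ Real.exp (-(γ / (2 * d))) := by
      have := Real.add_one_le_exp (-(γ / (2 * d)))
      rw [hq]
      linarith
    calc q ^ t ≤ (Real.exp (-(γ / (2 * d)))) ^ t := pow_le_pow_left₀ hq0 h1 t
      _ = Real.exp (t * (-(γ / (2 * d)))) := by rw [← Real.exp_nat_mul]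
      _ ≤ Real.exp (-(6 * d)) := by
          apply Real.exp_le_exp.2
          have h2 : 12 / γ * (d : ℝ) ^ 2 * (γ / (2 * d)) = 6 * d := by
            field_simp
            ring
          have h3 : 12 / γ * (d : ℝ) ^ 2 * (γ / (2 * d)) ≤ t * (γ / (2 * d)) :=
            mul_le_mul_of_nonneg_right ht (by positivity)
          linarith
  have h1 := pot_lower a ha0 ha1 d hd (S t) (hmono t) (hSd t)
  have h2 := pot_upper a ha1 d hd (S 0) (hmono 0) (hSd 0)
  have h3 := hiter t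
  have h4 : Pot a d (S t) ≤ Real.exp (-(6 * d)) * (d * 2 ^ d) := by
    refine le_trans h3 ?_
    exact mul_le_mul hqexp (le_trans h2 hinit) (hpotnn 0) (Real.exp_pos _).le
  have h5 := exp_six_bound d hd
  have h6 : Real.exp (-(6 * d)) * Real.exp (6 * d) = 1 := by
    rw [← Real.exp_add]; simp
  have h7 : S t 0 ≤ 2 * d * (Real.exp (-(6 * d)) * (d * 2 ^ d)) := by
    rw [div_le_iff₀ (by positivity)] at h1
    nlinarith
  have h8 : Real.exp (-(6 * d)) * (16 * (d : ℝ) ^ 2 * 2 ^ d) ≤ 1 := by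
    rw [← h6]
    exact mul_le_mul_of_nonneg_left h5 (Real.exp_pos _).le
  nlinarith

/-- geometric version: `θ k = c0 * ρ ^ k` from some level `k1` on -/
theorem rec_geom (c0 ρ : ℝ) (hc0 : 0 ≤ c0) (hρ0 : 0 < ρ) (hρ1 : ρ < 1) (k1 : ℕ) :
    ∃ C : ℝ, 0 < C ∧ ∀ d : ℕ, 1 ≤ d → ∀ S tt : ℕ → ℕ → ℝ,
      (∀ t k, k < d → S t (k + 1) ≤ S t k) → (∀ t, S t d = 0) →
      (∀ t k, k < d → S (t + 1) k ≤ S t (k + 1) + tt t k) →
      (∀ t k, k < d → tt t k ≤ (S t 0 - S t (k + 1)) / 2) →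
      (∀ t k, k1 ≤ k → 1 ≤ k → k < d →
        tt t k ≤ tt t (k - 1) + c0 * ρ ^ k * (S t 0 - S t (k + 1))) →
      S 0 0 ≤ d * 2 ^ d →
      ∀ t : ℕ, C * (d : ℝ) ^ 2 ≤ t → S t 0 ≤ 1 / 8 := by
  have h1ρ : 0 < 1 - ρ := by linarith
  obtain ⟨k2, hk2⟩ : ∃ k2 : ℕ, c0 * ρ ^ k2 / (1 - ρ) ≤ 1 / 4 := by
    have hlim : Filter.Tendsto (fun n : ℕ => c0 * ρ ^ n / (1 - ρ)) Filter.atTop (nhds 0) := by
      have := (tendsto_pow_atTop_nhds_zero_of_lt_one hρ0.le hρ1).const_mul c0
      have := this.div_const (1 - ρ)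
      simpa using this
    have := (hlim.eventually (ge_mem_nhds (show (0 : ℝ) < 1 / 4 by norm_num))).exists
    exact this
  set k0 := max (max k1 k2) 1 with hk0
  have hk01 : 1 ≤ k0 := le_max_right _ _
  have hk0k1 : k1 ≤ k0 := le_trans (le_max_left _ _) (le_max_left _ _)
  have hk0k2 : k2 ≤ k0 := le_trans (le_max_right _ _) (le_max_left _ _)
  obtain ⟨C, hC, h⟩ := rec_main k0 hk01 (fun k => c0 * ρ ^ k) (fun k => c0 * ρ ^ k / (1 - ρ))
    (fun k => by positivity) (fun k => by positivity)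
    (fun k => by
      apply le_of_eq
      field_simp
      ring)
    (by
      refine le_trans ?_ hk2
      apply div_le_div_of_nonneg_right _ h1ρ.le
      apply mul_le_mul_of_nonneg_left _ hc0
      exact pow_le_pow_of_le_one hρ0.le hρ1.le hk0k2)
    (c0 / (1 - ρ) ^ 2)
    (by
      intro N
      have h2 : ∑ k ∈ range N, ρ ^ k ≤ 1 / (1 - ρ) := by
        rw [geom_sum_eq hρ1.ne, le_div_iff₀ h1ρ]
        have : (ρ ^ N - 1) / (ρ - 1) * (1 - ρ) = 1 - ρ ^ N := by
          have : ρ - 1 ≠ 0 := by linarith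
          field_simp
          ring
        rw [this]
        have : 0 ≤ ρ ^ N := by positivity
        linarith
      calc ∑ k ∈ range N, c0 * ρ ^ k / (1 - ρ) = c0 / (1 - ρ) * ∑ k ∈ range N, ρ ^ k := by
            rw [mul_sum]
            apply sum_congr rfl
            intro k _
            ring
        _ ≤ c0 / (1 - ρ) * (1 / (1 - ρ)) := mul_le_mul_of_nonneg_left h2 (by positivity)
        _ = _ := by
            field_simp)
  refine ⟨C, hC, ?_⟩
  intro d hd S tt h1 h2 h3 h4 h5 h6 t ht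
  exact h d hd S tt h1 h2 h3 h4
    (fun s k hk hkd => h5 s k (le_trans hk0k1 hk) (le_trans hk01 hk) hkd) h6 t ht

end Vale.Agent.P162.SB
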