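import Vale.Agent.P162.Top.ExpDecay

/-!
# P162, route SB : the scalar recursion (R), quadratic time bound

`S t j` : divergence of the deck after `t` shuffles when the `j` newest columns are forgotten,
`T t j` : the conditional divergence of the fresh column.
-/

namespace Vale.Agent.P162.SBR

open Finset

private lemma abel1 (c U : ℕ → ℝ) (n : ℕ) :
    ∑ l ∈ range n, c (l + 1) * (U l - U (l + 1)) =
      ∑ i ∈ range n, (c (i + 1) - c i) * U i + c 0 * U 0 - c n * U n := by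
  induction n with
  | zero => simp
  | succ n ih =>
    rw [sum_range_succ, sum_range_succ, ih]
    ring

private lemma abel2 (c U : ℕ → ℝ) (n : ℕ) :
    ∑ l ∈ range n, c l * (U l - U (l + 1)) =
      ∑ i ∈ range n, (c (i + 1) - c i) * U (i + 1) + c 0 * U 0 - c n * U n := by
  induction n with
  | zero => simp
  | succ n ih =>
    rw [sum_range_succ, sum_range_succ, ih]
    ring

private lemma tri (c y : ℕ → ℝ) (n : ℕ) :
    ∑ i ∈ range n, (c (i + 1) - c i) * ∑ l ∈ range (i + 1), y l =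
      ∑ l ∈ range n, y l * (c n - c l) := by
  induction n with
  | zero => simp
  | succ n ih =>
    rw [sum_range_succ, ih, sum_range_succ (fun l => y l * (c (n + 1) - c l))]
    have h : ∑ l ∈ range n, y l * (c (n + 1) - c l) =
        ∑ l ∈ range n, y l * (c n - c l) + (c (n + 1) - c n) * ∑ l ∈ range n, y l := by
      rw [mul_sum, ← sum_add_distrib]
      exact sum_congr rfl fun l _ => by ring
    rw [h, sum_range_succ]
    ring

/-- one step of the potential argument, general weights -/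
theorem one_step (d : ℕ) (c α S S' T : ℕ → ℝ) (ε : ℝ)
    (hc0 : c 0 = 0) (hw : ∀ i < d, c i ≤ c (i + 1))
    (hK : ∀ l < d, c l + α l * (c d - c l) ≤ (1 - ε) * c (l + 1))
    (hSd : S d = 0) (hS'd : S' d = 0)
    (hmono : ∀ l < d, S (l + 1) ≤ S l)
    (hstep : ∀ i < d, S' i ≤ S (i + 1) + T i)
    (hT : ∀ i < d, T i ≤ ∑ l ∈ range (i + 1), α l * (S l - S (l + 1))) :
    ∑ l ∈ range d, c (l + 1) * (S' l - S' (l + 1)) ≤
      (1 - ε) * ∑ l ∈ range d, c (l + 1) * (S l - S (l + 1)) := by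
  rw [abel1 c S' d, hc0, hS'd]
  have h1 : ∑ i ∈ range d, (c (i + 1) - c i) * S' i ≤
      ∑ i ∈ range d, ((c (i + 1) - c i) * S (i + 1) +
        (c (i + 1) - c i) * ∑ l ∈ range (i + 1), α l * (S l - S (l + 1))) := by
    refine sum_le_sum fun i hi => ?_
    have hi' := mem_range.1 hi
    have a1 := hstep i hi'
    have a2 := hT i hi'
    have a3 := hw i hi'
    have a4 : S' i ≤ S (i + 1) + ∑ l ∈ range (i + 1), α l * (S l - S (l + 1)) := by linarith
    calc (c (i + 1) - c i) * S' i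
        ≤ (c (i + 1) - c i) * (S (i + 1) + ∑ l ∈ range (i + 1), α l * (S l - S (l + 1))) :=
          mul_le_mul_of_nonneg_left a4 (by linarith)
      _ = _ := by ring
  rw [sum_add_distrib, tri c (fun l => α l * (S l - S (l + 1))) d] at h1
  have h2 := abel2 c S d
  rw [hc0, hSd] at h2
  have h3 : ∑ l ∈ range d, c l * (S l - S (l + 1)) +
      ∑ l ∈ range d, α l * (S l - S (l + 1)) * (c d - c l) ≤
      (1 - ε) * ∑ l ∈ range d, c (l + 1) * (S l - S (l + 1)) := by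
    rw [← sum_add_distrib, mul_sum]
    refine sum_le_sum fun l hl => ?_
    have hl' := mem_range.1 hl
    have hx : 0 ≤ S l - S (l + 1) := by linarith [hmono l hl']
    have hk := mul_le_mul_of_nonneg_right (hK l hl') hx
    nlinarith
  linarith

/-- partial products -/
noncomputable def Gp (α : ℕ → ℝ) (n : ℕ) : ℝ := ∏ l ∈ range n, (1 - α l)

/-- the coefficients of the potential -/
noncomputable def cw (α : ℕ → ℝ) (d n : ℕ) : ℝ := 1 - Gp α n * (1 - (n : ℝ) / (2 * d))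

theorem Gp_succ (α : ℕ → ℝ) (n : ℕ) : Gp α (n + 1) = Gp α n * (1 - α n) := by
  unfold Gp
  rw [prod_range_succ]

theorem Gp_nonneg (α : ℕ → ℝ) (h1 : ∀ l, α l ≤ 1) (n : ℕ) : 0 ≤ Gp α n :=
  prod_nonneg fun l _ => by linarith [h1 l]

theorem cw_zero (α : ℕ → ℝ) (d : ℕ) : cw α d 0 = 0 := by
  simp [cw, Gp]

private lemma frac_bounds (d n : ℕ) (hd : 1 ≤ d) (hn : n ≤ d) :
    0 ≤ 1 - (n : ℝ) / (2 * d) := by
  have hd' : (0 : ℝ) < 2 * d := by
    have : (1 : ℝ) ≤ d := by exact_mod_cast hd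
    linarith
  have hn' : (n : ℝ) ≤ d := by exact_mod_cast hn
  rw [sub_nonneg, div_le_one hd']
  have : (0 : ℝ) ≤ d := by positivity
  linarith

private lemma frac_succ (d n : ℕ) (hd : 1 ≤ d) :
    1 - ((n + 1 : ℕ) : ℝ) / (2 * d) = 1 - (n : ℝ) / (2 * d) - 1 / (2 * d) := by
  push_cast
  ring

theorem cw_le_one (α : ℕ → ℝ) (h1 : ∀ l, α l ≤ 1) (d n : ℕ) (hd : 1 ≤ d) (hn : n ≤ d) :
    cw α d n ≤ 1 := by
  unfold cw
  have := mul_nonneg (Gp_nonneg α h1 n) (frac_bounds d n hd hn)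
  linarith

theorem cw_mono (α : ℕ → ℝ) (h0 : ∀ l, 0 ≤ α l) (h1 : ∀ l, α l ≤ 1) (d n : ℕ) (hd : 1 ≤ d)
    (hn : n < d) : cw α d n ≤ cw α d (n + 1) := by
  unfold cw
  rw [Gp_succ, frac_succ d n hd]
  have hA := Gp_nonneg α h1 n
  have hv : 0 ≤ 1 - (n : ℝ) / (2 * d) - 1 / (2 * d) := by
    rw [← frac_succ d n hd]
    exact frac_bounds d (n + 1) hd hn
  have hq : (0 : ℝ) ≤ 1 / (2 * d) := by positivity
  have e : Gp α n * (1 - (n : ℝ) / (2 * d)) -
      Gp α n * (1 - α n) * (1 - (n : ℝ) / (2 * d) - 1 / (2 * d)) =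
      Gp α n * (α n * (1 - (n : ℝ) / (2 * d) - 1 / (2 * d)) + 1 / (2 * d)) := by ring
  have : 0 ≤ Gp α n * (α n * (1 - (n : ℝ) / (2 * d) - 1 / (2 * d)) + 1 / (2 * d)) :=
    mul_nonneg hA (add_nonneg (mul_nonneg (h0 n) hv) hq)
  linarith

theorem cw_key (α : ℕ → ℝ) (h0 : ∀ l, 0 ≤ α l) (h1 : ∀ l, α l ≤ 1) (g : ℝ) (hg0 : 0 ≤ g)
    (hg : ∀ n, g ≤ Gp α n) (d l : ℕ) (hd : 1 ≤ d) (hl : l < d) :
    cw α d l + α l * (cw α d d - cw α d l) ≤ (1 - g / (2 * d)) * cw α d (l + 1) := by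
  have hcd := cw_le_one α h1 d d hd le_rfl
  have hcl := cw_le_one α h1 d (l + 1) hd hl
  have hq : (0 : ℝ) ≤ 1 / (2 * d) := by positivity
  have s1 : cw α d l + α l * (cw α d d - cw α d l) ≤ cw α d l + α l * (1 - cw α d l) := by
    have := mul_le_mul_of_nonneg_left (sub_le_sub_right hcd (cw α d l)) (h0 l)
    linarith
  have s2 : cw α d l + α l * (1 - cw α d l) = cw α d (l + 1) - Gp α (l + 1) * (1 / (2 * d)) := by
    unfold cw
    rw [Gp_succ, frac_succ d l hd]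
    ring
  have s3 : g * (1 / (2 * d)) ≤ Gp α (l + 1) * (1 / (2 * d)) :=
    mul_le_mul_of_nonneg_right (hg (l + 1)) hq
  have s4 : g * (1 / (2 * d)) * cw α d (l + 1) ≤ g * (1 / (2 * d)) * 1 :=
    mul_le_mul_of_nonneg_left hcl (mul_nonneg hg0 hq)
  have e : (1 - g / (2 * d)) * cw α d (l + 1) =
      cw α d (l + 1) - g * (1 / (2 * d)) * cw α d (l + 1) := by ring
  rw [e]
  linarith

theorem cw_one_ge (α : ℕ → ℝ) (h0 : ∀ l, 0 ≤ α l) (h1 : ∀ l, α l ≤ 1) (d : ℕ) (hd : 1 ≤ d) :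
    1 / (2 * (d : ℝ)) ≤ cw α d 1 := by
  have hv := frac_bounds d 1 hd hd
  unfold cw
  have e : Gp α 1 = 1 - α 0 := by simp [Gp]
  rw [e]
  push_cast at hv ⊢
  have := mul_nonneg (h0 0) hv
  nlinarith

/-- the potential -/
noncomputable def Pot (α : ℕ → ℝ) (d : ℕ) (S : ℕ → ℝ) : ℝ :=
  ∑ l ∈ range d, cw α d (l + 1) * (S l - S (l + 1))

theorem Pot_le (α : ℕ → ℝ) (h1 : ∀ l, α l ≤ 1) (d : ℕ) (hd : 1 ≤ d) (S : ℕ → ℝ) (hSd : S d = 0)
    (hmono : ∀ l < d, S (l + 1) ≤ S l) : Pot α d S ≤ S 0 := by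
  have h : Pot α d S ≤ ∑ l ∈ range d, (S l - S (l + 1)) := by
    refine sum_le_sum fun l hl => ?_
    have hl' := mem_range.1 hl
    have hx : 0 ≤ S l - S (l + 1) := by linarith [hmono l hl']
    have := mul_le_mul_of_nonneg_right (cw_le_one α h1 d (l + 1) hd hl') hx
    linarith
  rw [sum_range_sub'] at h
  linarith

theorem le_Pot (α : ℕ → ℝ) (h0 : ∀ l, 0 ≤ α l) (h1 : ∀ l, α l ≤ 1) (d : ℕ) (hd : 1 ≤ d)
    (S : ℕ → ℝ) (hSd : S d = 0) (hmono : ∀ l < d, S (l + 1) ≤ S l) :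
    1 / (2 * (d : ℝ)) * S 0 ≤ Pot α d S := by
  have hc : ∀ l, l < d → 1 / (2 * (d : ℝ)) ≤ cw α d (l + 1) := by
    intro l
    induction l with
    | zero => intro _; exact cw_one_ge α h0 h1 d hd
    | succ l ih =>
      intro hl
      exact (ih (by omega)).trans (cw_mono α h0 h1 d (l + 1) hd hl)
  have h : ∑ l ∈ range d, 1 / (2 * (d : ℝ)) * (S l - S (l + 1)) ≤ Pot α d S := by
    refine sum_le_sum fun l hl => ?_
    have hl' := mem_range.1 hl
    have hx : 0 ≤ S l - S (l + 1) := by linarith [hmono l hl']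
    exact mul_le_mul_of_nonneg_right (hc l hl') hx
  rw [← mul_sum, sum_range_sub', hSd, sub_zero] at h
  exact h

/-- the coefficients built from a threshold `J` and a tail sequence `R` -/
noncomputable def al (J : ℕ) (R : ℕ → ℝ) (l : ℕ) : ℝ := if l ≤ J then 1 / 2 + R (J + 1) else R l

theorem T_bound (d J : ℕ) (R th S T : ℕ → ℝ) (hR0 : ∀ l, 0 ≤ R l)
    (hth : ∀ i, J < i → th i ≤ R i - R (i + 1))
    (hmono : ∀ l < d, S (l + 1) ≤ S l)
    (hT1 : ∀ j < d, T j ≤ (S 0 - S (j + 1)) / 2)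
    (hT2 : ∀ j, J ≤ j → j + 1 < d → T (j + 1) ≤ T j + th (j + 1) * (S 0 - S (j + 2)))
    (i : ℕ) (hi : i < d) :
    T i ≤ ∑ l ∈ range (i + 1), al J R l * (S l - S (l + 1)) := by
  have hx : ∀ l < d, 0 ≤ S l - S (l + 1) := fun l hl => by linarith [hmono l hl]
  have tel : ∀ n, ∑ l ∈ range n, (S l - S (l + 1)) = S 0 - S n := fun n => sum_range_sub' _ _
  have half : ∀ n, (S 0 - S n) / 2 = ∑ l ∈ range n, 1 / 2 * (S l - S (l + 1)) := by
    intro n
    rw [← mul_sum, tel]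
    ring
  rcases le_total i J with h | h
  · refine (hT1 i hi).trans ?_
    rw [half]
    refine sum_le_sum fun l hl => ?_
    have hl' : l ≤ i := Nat.lt_succ_iff.1 (mem_range.1 hl)
    have e : al J R l = 1 / 2 + R (J + 1) := by
      unfold al
      rw [if_pos (hl'.trans h)]
    rw [e]
    exact mul_le_mul_of_nonneg_right (by linarith [hR0 (J + 1)]) (hx l (by omega))
  · have claim : ∀ n, J ≤ n → n < d →
        T n ≤ ∑ l ∈ range (n + 1), (al J R l - R (n + 1)) * (S l - S (l + 1)) := by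
      intro n hn
      induction n, hn using Nat.le_induction with
      | base =>
        intro hJ
        refine (hT1 J hJ).trans (le_of_eq ?_)
        rw [half]
        refine sum_congr rfl fun l hl => ?_
        have hl' : l ≤ J := Nat.lt_succ_iff.1 (mem_range.1 hl)
        have e : al J R l = 1 / 2 + R (J + 1) := by
          unfold al
          rw [if_pos hl']
        rw [e]
        ring
      | succ n hn ih =>
        intro hnd
        have ih' := ih (by omega)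
        have h2 := hT2 n hn hnd
        have hth' := hth (n + 1) (by omega)
        have hS : 0 ≤ S 0 - S (n + 2) := by
          rw [← tel]
          exact sum_nonneg fun l hl => hx l (by have := mem_range.1 hl; omega)
        have h3 : th (n + 1) * (S 0 - S (n + 2)) ≤ (R (n + 1) - R (n + 2)) * (S 0 - S (n + 2)) :=
          mul_le_mul_of_nonneg_right hth' hS
        have e1 : al J R (n + 1) = R (n + 1) := by
          unfold al
          rw [if_neg (by omega)]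
        have e2 : ∑ l ∈ range (n + 1), (al J R l - R (n + 1 + 1)) * (S l - S (l + 1)) =
            ∑ l ∈ range (n + 1), (al J R l - R (n + 1)) * (S l - S (l + 1)) +
              (R (n + 1) - R (n + 2)) * ∑ l ∈ range (n + 1), (S l - S (l + 1)) := by
          rw [mul_sum, ← sum_add_distrib]
          exact sum_congr rfl fun l _ => by ring
        rw [sum_range_succ, e2, e1, tel]
        have e3 : S 0 - S (n + 2) = (S 0 - S (n + 1)) + (S (n + 1) - S (n + 1 + 1)) := by ring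
        rw [e3] at h3 h2
        nlinarith
    refine (claim i h hi).trans ?_
    refine sum_le_sum fun l hl => ?_
    have hl' : l ≤ i := Nat.lt_succ_iff.1 (mem_range.1 hl)
    exact mul_le_mul_of_nonneg_right (by linarith [hR0 (i + 1)]) (hx l (by omega))

theorem al_nonneg (J : ℕ) (R : ℕ → ℝ) (hR0 : ∀ l, 0 ≤ R l) (l : ℕ) : 0 ≤ al J R l := by
  unfold al
  split_ifs
  · linarith [hR0 (J + 1)]
  · exact hR0 l

theorem al_le_one (J : ℕ) (R : ℕ → ℝ) (hR0 : ∀ l, 0 ≤ R l) (hRJ : R (J + 1) ≤ 1 / 4)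
    (hsum : ∀ m, ∑ l ∈ range m, R (J + 1 + l) ≤ 1 / 2) (l : ℕ) : al J R l ≤ 1 := by
  unfold al
  split_ifs with h
  · linarith
  · have h1 : R (J + 1 + (l - J - 1)) ≤ ∑ l' ∈ range (l - J), R (J + 1 + l') :=
      single_le_sum (f := fun l' => R (J + 1 + l')) (fun i _ => hR0 _)
        (mem_range.2 (by omega))
    have e : J + 1 + (l - J - 1) = l := by omega
    rw [e] at h1
    linarith [hsum (l - J)]

theorem Gp_al_lower (J : ℕ) (R : ℕ → ℝ) (hR0 : ∀ l, 0 ≤ R l) (hRJ : R (J + 1) ≤ 1 / 4)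
    (hsum : ∀ m, ∑ l ∈ range m, R (J + 1 + l) ≤ 1 / 2) (n : ℕ) :
    (1 / 4 : ℝ) ^ (J + 1) * (1 / 2) ≤ Gp (al J R) n := by
  have ph1 : ∀ n, n ≤ J + 1 → (1 / 4 : ℝ) ^ n ≤ Gp (al J R) n := by
    intro n
    induction n with
    | zero => intro _; simp [Gp]
    | succ n ih =>
      intro hn
      rw [Gp_succ, pow_succ]
      have e : al J R n = 1 / 2 + R (J + 1) := by
        unfold al
        rw [if_pos (by omega)]
      exact mul_le_mul (ih (by omega)) (by rw [e]; linarith) (by norm_num)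
        (Gp_nonneg _ (al_le_one J R hR0 hRJ hsum) n)
  have ph2 : ∀ m, (1 / 4 : ℝ) ^ (J + 1) * (1 - ∑ l ∈ range m, R (J + 1 + l)) ≤
      Gp (al J R) (J + 1 + m) := by
    intro m
    induction m with
    | zero => simpa using ph1 (J + 1) le_rfl
    | succ m ih =>
      rw [← add_assoc, Gp_succ, sum_range_succ]
      have e : al J R (J + 1 + m) = R (J + 1 + m) := by
        unfold al
        rw [if_neg (by omega)]
      rw [e]
      have hs := hsum (m + 1)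
      rw [sum_range_succ] at hs
      have hs0 : 0 ≤ ∑ l ∈ range m, R (J + 1 + l) := sum_nonneg fun l _ => hR0 _
      have hr := hR0 (J + 1 + m)
      have hp : (0 : ℝ) ≤ (1 / 4 : ℝ) ^ (J + 1) := by positivity
      have a1 : (1 / 4 : ℝ) ^ (J + 1) * (1 - ∑ l ∈ range m, R (J + 1 + l)) * (1 - R (J + 1 + m)) ≤
          Gp (al J R) (J + 1 + m) * (1 - R (J + 1 + m)) :=
        mul_le_mul_of_nonneg_right ih (by linarith)
      have a2 : 0 ≤ (1 / 4 : ℝ) ^ (J + 1) * ((∑ l ∈ range m, R (J + 1 + l)) * R (J + 1 + m)) :=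
        mul_nonneg hp (mul_nonneg hs0 hr)
      nlinarith
  have hp : (0 : ℝ) ≤ (1 / 4 : ℝ) ^ (J + 1) := by positivity
  rcases le_total n (J + 1) with h | h
  · have a1 : (1 / 4 : ℝ) ^ (J + 1) ≤ (1 / 4 : ℝ) ^ n :=
      pow_le_pow_of_le_one (by norm_num) (by norm_num) h
    have a2 := ph1 n h
    linarith
  · obtain ⟨m, rfl⟩ := Nat.exists_eq_add_of_le h
    have a1 := ph2 m
    have a2 := hsum m
    have a3 : (1 / 4 : ℝ) ^ (J + 1) * (1 / 2) ≤
        (1 / 4 : ℝ) ^ (J + 1) * (1 - ∑ l ∈ range m, R (J + 1 + l)) :=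
      mul_le_mul_of_nonneg_left (by linarith) hp
    linarith

private lemma log_bd (d : ℕ) (hd : 1 ≤ d) :
    Real.log (8 * (2 * (d : ℝ) * 4 ^ d)) ≤ 6 * d := by
  have hd' : (1 : ℝ) ≤ d := by exact_mod_cast hd
  have hd0 : (0 : ℝ) < d := by linarith
  have e : 8 * (2 * (d : ℝ) * 4 ^ d) = 16 * d * 4 ^ d := by ring
  rw [e, Real.log_mul (by positivity) (by positivity), Real.log_mul (by norm_num) (by positivity),
    Real.log_pow]
  have h16 : Real.log 16 = 4 * Real.log 2 := by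
    rw [show (16 : ℝ) = 2 ^ 4 by norm_num, Real.log_pow]
    norm_num
  have h4 : Real.log 4 = 2 * Real.log 2 := by
    rw [show (4 : ℝ) = 2 ^ 2 by norm_num, Real.log_pow]
    norm_num
  have h2 := Real.log_two_lt_d9
  have hld : Real.log d ≤ d - 1 := Real.log_le_sub_one_of_pos hd0
  rw [h16, h4]
  nlinarith

/-- (R), abstract version with a tail sequence `R` -/
theorem rec_abstract (J : ℕ) (R : ℕ → ℝ) (hR0 : ∀ l, 0 ≤ R l) (hRJ : R (J + 1) ≤ 1 / 4)
    (hsum : ∀ m, ∑ l ∈ range m, R (J + 1 + l) ≤ 1 / 2)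
    (d : ℕ) (th : ℕ → ℝ) (S T : ℕ → ℕ → ℝ) (hd : 1 ≤ d)
    (hth : ∀ i, J < i → th i ≤ R i - R (i + 1))
    (hSd : ∀ t, S t d = 0)
    (hmono : ∀ t j, j < d → S t (j + 1) ≤ S t j)
    (hstep : ∀ t j, j < d → S (t + 1) j ≤ S t (j + 1) + T t j)
    (hT1 : ∀ t j, j < d → T t j ≤ (S t 0 - S t (j + 1)) / 2)
    (hT2 : ∀ t j, J ≤ j → j + 1 < d → T t (j + 1) ≤ T t j + th (j + 1) * (S t 0 - S t (j + 2)))
    (hS0 : S 0 0 ≤ 4 ^ d) (t : ℕ)
    (ht : 12 / ((1 / 4 : ℝ) ^ (J + 1) * (1 / 2)) * (d : ℝ) ^ 2 ≤ t) : S t 0 ≤ 1 / 8 := by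
  obtain ⟨g, hgdef⟩ : ∃ g : ℝ, g = (1 / 4 : ℝ) ^ (J + 1) * (1 / 2) := ⟨_, rfl⟩
  rw [← hgdef] at ht
  have hgpos : 0 < g := by rw [hgdef]; positivity
  have hgle : g ≤ 1 := by
    rw [hgdef]
    have : (1 / 4 : ℝ) ^ (J + 1) ≤ 1 := pow_le_one₀ (by norm_num) (by norm_num)
    linarith
  have hd' : (1 : ℝ) ≤ d := by exact_mod_cast hd
  have hd0 : (0 : ℝ) < d := by linarith
  have h0 := al_nonneg J R hR0
  have h1 := al_le_one J R hR0 hRJ hsum
  have hG : ∀ n, g ≤ Gp (al J R) n := fun n => by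
    rw [hgdef]; exact Gp_al_lower J R hR0 hRJ hsum n
  obtain ⟨ε, hε⟩ : ∃ ε : ℝ, ε = g / (2 * d) := ⟨_, rfl⟩
  have hε0 : 0 < ε := by rw [hε]; positivity
  have hε1 : ε ≤ 1 := by
    rw [hε, div_le_one (by positivity)]
    linarith
  have hone : ∀ t, Pot (al J R) d (S (t + 1)) ≤ (1 - ε) * Pot (al J R) d (S t) := by
    intro t
    rw [hε]
    exact one_step d (cw (al J R) d) (al J R) (S t) (S (t + 1)) (T t) (g / (2 * d))
      (cw_zero _ _) (fun i hi => cw_mono _ h0 h1 d i hd hi)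
      (fun l hl => cw_key _ h0 h1 g hgpos.le hG d l hd hl) (hSd t) (hSd (t + 1)) (hmono t)
      (hstep t) (fun i hi => T_bound d J R th (S t) (T t) hR0 hth (hmono t) (hT1 t) (hT2 t) i hi)
  have hiter : ∀ t, Pot (al J R) d (S t) ≤ (1 - ε) ^ t * Pot (al J R) d (S 0) := by
    intro t
    induction t with
    | zero => simp
    | succ t ih =>
      calc Pot (al J R) d (S (t + 1)) ≤ (1 - ε) * Pot (al J R) d (S t) := hone t
        _ ≤ (1 - ε) * ((1 - ε) ^ t * Pot (al J R) d (S 0)) :=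
          mul_le_mul_of_nonneg_left ih (by linarith)
        _ = (1 - ε) ^ (t + 1) * Pot (al J R) d (S 0) := by ring
  have hP0 : Pot (al J R) d (S 0) ≤ 4 ^ d :=
    (Pot_le _ h1 d hd (S 0) (hSd 0) (hmono 0)).trans hS0
  have hlow := le_Pot _ h0 h1 d hd (S t) (hSd t) (hmono t)
  have hpw : 0 ≤ (1 - ε) ^ t := pow_nonneg (by linarith) t
  have hchain : S t 0 ≤ (1 - ε) ^ t * (2 * (d : ℝ) * 4 ^ d) := by
    have a1 : 1 / (2 * (d : ℝ)) * S t 0 ≤ (1 - ε) ^ t * 4 ^ d :=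
      hlow.trans ((hiter t).trans (mul_le_mul_of_nonneg_left hP0 hpw))
    have a2 : S t 0 = 2 * (d : ℝ) * (1 / (2 * (d : ℝ)) * S t 0) := by
      field_simp
    rw [a2]
    calc 2 * (d : ℝ) * (1 / (2 * (d : ℝ)) * S t 0) ≤ 2 * (d : ℝ) * ((1 - ε) ^ t * 4 ^ d) :=
          mul_le_mul_of_nonneg_left a1 (by positivity)
      _ = _ := by ring
  refine hchain.trans (Vale.Agent.P162.Top.decay_le ε _ t hε0 hε1 (by positivity) ?_)
  refine (log_bd d hd).trans ?_
  have a3 : ε * (12 / g * (d : ℝ) ^ 2) ≤ ε * t := mul_le_mul_of_nonneg_left ht hε0.le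
  have a4 : ε * (12 / g * (d : ℝ) ^ 2) = 6 * d := by
    rw [hε]
    field_simp
    ring
  linarith

/-- (R) for geometrically decaying `th` : quadratic time bound -/
theorem rec_quadratic (c0 ρ : ℝ) (hc0 : 0 ≤ c0) (hρ0 : 0 ≤ ρ) (hρ1 : ρ < 1) (i0 : ℕ) :
    ∃ C : ℝ, 0 < C ∧ ∀ (d : ℕ) (th : ℕ → ℝ) (S T : ℕ → ℕ → ℝ), 1 ≤ d →
      (∀ i, i0 ≤ i → th i ≤ c0 * ρ ^ i) →
      (∀ t, S t d = 0) →
      (∀ t j, j < d → S t (j + 1) ≤ S t j) →
      (∀ t j, j < d → S (t + 1) j ≤ S t (j + 1) + T t j) →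
      (∀ t j, j < d → T t j ≤ (S t 0 - S t (j + 1)) / 2) →
      (∀ t j, i0 ≤ j + 1 → j + 1 < d →
        T t (j + 1) ≤ T t j + th (j + 1) * (S t 0 - S t (j + 2))) →
      S 0 0 ≤ 4 ^ d →
      ∀ t : ℕ, C * (d : ℝ) ^ 2 ≤ t → S t 0 ≤ 1 / 8 := by
  have h1ρ : 0 < 1 - ρ := by linarith
  obtain ⟨q, hq⟩ : ∃ q : ℝ, q = c0 / (1 - ρ) ^ 2 := ⟨_, rfl⟩
  have hq0 : 0 ≤ q := by rw [hq]; positivity
  obtain ⟨n, hn⟩ := exists_pow_lt_of_lt_one (show (0 : ℝ) < 1 / (4 * (q + 1)) by positivity) hρ1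
  obtain ⟨J, hJ⟩ : ∃ J : ℕ, J = max n i0 := ⟨_, rfl⟩
  have hJn : n ≤ J + 1 := by rw [hJ]; exact (le_max_left _ _).trans (Nat.le_succ _)
  have hJi : i0 ≤ J := by rw [hJ]; exact le_max_right _ _
  have hpow : ρ ^ (J + 1) ≤ 1 / (4 * (q + 1)) :=
    (pow_le_pow_of_le_one hρ0 hρ1.le hJn).trans hn.le
  have hQJ : q * ρ ^ (J + 1) ≤ 1 / 4 := by
    have a1 : q * ρ ^ (J + 1) ≤ q * (1 / (4 * (q + 1))) := mul_le_mul_of_nonneg_left hpow hq0
    have a2 : q * (1 / (4 * (q + 1))) ≤ 1 / 4 := by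
      rw [mul_one_div, div_le_div_iff₀ (by positivity) (by norm_num)]
      linarith
    linarith
  -- tails
  have hRQ : ∀ l, c0 * ρ ^ l / (1 - ρ) = q * ρ ^ l - q * ρ ^ (l + 1) := by
    intro l
    rw [hq, pow_succ]
    field_simp
    ring
  have hQ0 : ∀ l, 0 ≤ q * ρ ^ l := fun l => mul_nonneg hq0 (pow_nonneg hρ0 l)
  have hR0 : ∀ l, 0 ≤ c0 * ρ ^ l / (1 - ρ) := fun l => by positivity
  have hRJ : c0 * ρ ^ (J + 1) / (1 - ρ) ≤ 1 / 4 := by
    rw [hRQ]
    linarith [hQ0 (J + 1 + 1)]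
  have hsum : ∀ m, ∑ l ∈ range m, c0 * ρ ^ (J + 1 + l) / (1 - ρ) ≤ 1 / 2 := by
    intro m
    have e : ∑ l ∈ range m, c0 * ρ ^ (J + 1 + l) / (1 - ρ) =
        ∑ l ∈ range m, (q * ρ ^ (J + 1 + l) - q * ρ ^ (J + 1 + (l + 1))) :=
      sum_congr rfl fun l _ => by rw [hRQ]; rfl
    rw [e, sum_range_sub' (fun l => q * ρ ^ (J + 1 + l))]
    simp only [add_zero]
    linarith [hQ0 (J + 1 + m)]
  refine ⟨12 / ((1 / 4 : ℝ) ^ (J + 1) * (1 / 2)), by positivity, ?_⟩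
  intro d th S T hd hth hSd hmono hstep hT1 hT2 hS0 t ht
  refine rec_abstract J (fun l => c0 * ρ ^ l / (1 - ρ)) hR0 hRJ hsum d th S T hd ?_ hSd hmono hstep
    hT1 (fun t j hj hjd => hT2 t j (by omega) hjd) hS0 t ht
  intro i hi
  refine (hth i (by omega)).trans (le_of_eq ?_)
  rw [pow_succ]
  field_simp

end Vale.Agent.P162.SBR
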