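import Vale.Agent.P162.KL.HalfA

/-!
# P162 : the reference laws of (lowest position bit, new bit) for a block of `2 M` cards, `M` even

`lowB M h x` is the parity of the position of the card `x`; the channel is `bitChan M`.
Under the uniform permutation the pair of columns is uniform on the pairs of balanced colourings
whose four classes all have `M / 2` elements.
-/

namespace Vale.Agent.P162.SBR

open Finset Nat Vale.Agent.P162.KL

/-- parity of a position -/
def par (M : ℕ) (y : Fin (2 * M)) : Bool := decide (y.val % 2 = 1)

/-- the column of lowest position bits -/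
def lowB (M : ℕ) (h : Equiv.Perm (Fin (2 * M))) : Fin (2 * M) → Bool :=
  fun x => decide ((h x).val % 2 = 1)

theorem lowB_eq (M : ℕ) (h : Equiv.Perm (Fin (2 * M))) : lowB M h = par M ∘ h := rfl

theorem cnt_par (k : ℕ) (u : Bool) :
    ((range (2 * k)).filter (fun n => decide (n % 2 = 1) = u)).card = k := by
  induction k with
  | zero => simp
  | succ k ih =>
    rw [show 2 * (k + 1) = 2 * k + 1 + 1 by ring, range_add_one, range_add_one, filter_insert,
      filter_insert]
    have h1 : (2 * k + 1) % 2 = 1 := by omega
    have h0 : (2 * k) % 2 = 0 := by omega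
    cases u
    · simp only [h1, h0, decide_true, Bool.true_eq_false, if_false, zero_ne_one, decide_false,
        if_true]
      rw [card_insert_of_notMem (by simp), ih]
    · simp only [h1, h0, decide_true, if_true, zero_ne_one, decide_false, Bool.false_eq_true,
        if_false]
      rw [card_insert_of_notMem (by simp), ih]

theorem cnt_par_fin' (k : ℕ) (u : Bool) :
    (univ.filter (fun e : Fin (2 * k) => decide (e.val % 2 = 1) = u)).card = k := by
  have h := cnt_par k u
  refine Eq.trans ?_ h
  apply Finset.card_bij (fun e _ => e.val)
  · intro e he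
    simp only [mem_filter, mem_univ, true_and] at he
    simp only [mem_filter, mem_range]
    exact ⟨e.isLt, he⟩
  · intro a _ b _ hab
    exact Fin.ext hab
  · intro n hn
    simp only [mem_filter, mem_range] at hn
    exact ⟨⟨n, hn.1⟩, by simp only [mem_filter, mem_univ, true_and]; exact hn.2, rfl⟩

theorem cnt_par_fin (M : ℕ) (hM : Even M) (u : Bool) :
    (univ.filter (fun e : Fin M => decide (e.val % 2 = 1) = u)).card = M / 2 := by
  obtain ⟨k, rfl⟩ := hM
  have e : k + k = 2 * k := by ring
  rw [e, cnt_par_fin' k u]
  omega

theorem par_pos (M : ℕ) (hM : Even M) (e : Fin M) (s : Bool) :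
    par M (pos M e s) = decide (e.val % 2 = 1) := by
  obtain ⟨k, hk⟩ := hM
  unfold par pos
  cases s
  · simp
  · simp only [if_true]
    congr 1
    apply propext
    omega

/-- colouring of the positions by (parity, new bit) -/
def col2 (M : ℕ) (b : Fin M → Bool) (y : Fin (2 * M)) : Bool × Bool := (par M y, pbit M b y)

theorem card_col2 (M : ℕ) (hM : Even M) (b : Fin M → Bool) (c : Bool × Bool) :
    Fintype.card {y // col2 M b y = c} = M / 2 := by
  obtain ⟨u, v⟩ := c
  rw [Fintype.card_subtype, ← cnt_par_fin M hM u]
  symm
  apply Finset.card_bij (fun e _ => pos M e (xor (b e) v))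
  · intro e he
    simp only [mem_filter, mem_univ, true_and] at he ⊢
    unfold col2
    rw [par_pos M hM, pbit_pos, he]
    cases b e <;> cases v <;> rfl
  · intro e1 _ e2 _ h12
    have := congrArg (edge M) h12
    rwa [edge_pos, edge_pos] at this
  · intro y hy
    simp only [mem_filter, mem_univ, true_and] at hy
    unfold col2 at hy
    rw [← pos_edge M y, par_pos M hM, pbit_pos] at hy
    have h1 := (Prod.mk.inj hy).1
    have h2 := (Prod.mk.inj hy).2
    refine ⟨edge M y, ?_, ?_⟩
    · simp only [mem_filter, mem_univ, true_and]
      exact h1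
    · conv_rhs => rw [← pos_edge M y]
      congr 1
      rw [← h2]
      cases b (edge M y) <;> cases decide (M ≤ y.val) <;> rfl

theorem card_pbit (M : ℕ) (b : Fin M → Bool) (v : Bool) :
    Fintype.card {y // pbit M b y = v} = M := by
  rw [Fintype.card_subtype]
  have : (univ : Finset (Fin M)).card = M := by simp
  conv_rhs => rw [← this]
  symm
  apply Finset.card_bij (fun e _ => pos M e (xor (b e) v))
  · intro e _
    simp only [mem_filter, mem_univ, true_and]
    rw [pbit_pos]
    cases b e <;> cases v <;> rfl
  · intro e1 _ e2 _ h12
    have := congrArg (edge M) h12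
    rwa [edge_pos, edge_pos] at this
  · intro y hy
    simp only [mem_filter, mem_univ, true_and] at hy
    rw [← pos_edge M y, pbit_pos] at hy
    refine ⟨edge M y, mem_univ _, ?_⟩
    conv_rhs => rw [← pos_edge M y]
    congr 1
    rw [← hy]
    cases b (edge M y) <;> cases decide (M ≤ y.val) <;> rfl

theorem card_par (M : ℕ) (u : Bool) : Fintype.card {y // par M y = u} = M := by
  rw [Fintype.card_subtype]
  exact cnt_par_fin' M u

/-- all four classes of `x ↦ (b x, c x)` have `M / 2` elements -/
def Q4 (M : ℕ) (b c : Fin (2 * M) → Bool) : Prop :=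
  ∀ cl : Bool × Bool, Fintype.card {x // (fun x => (b x, c x)) x = cl} = M / 2

instance (M : ℕ) (b c : Fin (2 * M) → Bool) : Decidable (Q4 M b c) := by
  unfold Q4; infer_instance

theorem cond2_iff (M : ℕ) (h : Equiv.Perm (Fin (2 * M))) (e : Fin M → Bool)
    (b c : Fin (2 * M) → Bool) :
    (lowB M h = b ∧ newBit M h e = c) ↔ col2 M e ∘ h = fun x => (b x, c x) := by
  constructor
  · rintro ⟨h1, h2⟩
    funext x
    rw [← h1, ← h2]
    rfl
  · intro hh
    constructor
    · funext x
      exact (Prod.mk.inj (congrFun hh x)).1
    · funext x
      exact (Prod.mk.inj (congrFun hh x)).2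

/-- number of permutations with the two prescribed columns, for fixed coins -/
theorem card_joint (M : ℕ) (hM : Even M) (e : Fin M → Bool) (b c : Fin (2 * M) → Bool) :
    (univ.filter (fun h : Equiv.Perm (Fin (2 * M)) => lowB M h = b ∧ newBit M h e = c)).card =
      if Q4 M b c then ((M / 2)!) ^ 4 else 0 := by
  have e1 : (univ.filter (fun h : Equiv.Perm (Fin (2 * M)) => lowB M h = b ∧ newBit M h e = c)) =
      univ.filter (fun h : Equiv.Perm (Fin (2 * M)) => col2 M e ∘ h = fun x => (b x, c x)) := by
    apply Finset.filter_congr
    intro h _
    exact cond2_iff M h e b c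
  rw [e1, card_perm_colour]
  by_cases hq : Q4 M b c
  · have hq' : ∀ cl, Fintype.card {x // (fun x => (b x, c x)) x = cl} =
        Fintype.card {y // col2 M e y = cl} := by
      intro cl
      rw [card_col2 M hM, hq cl]
    rw [if_pos hq', if_pos hq]
    rw [Finset.prod_congr rfl (fun cl _ => by rw [hq cl])]
    simp [Finset.prod_const, Finset.card_univ]
  · have hq' : ¬ ∀ cl, Fintype.card {x // (fun x => (b x, c x)) x = cl} =
        Fintype.card {y // col2 M e y = cl} := by
      intro hh
      apply hq
      intro cl
      rw [hh cl, card_col2 M hM]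
    rw [if_neg hq', if_neg hq]

/-- number of permutations with a prescribed column of lowest bits -/
theorem card_low (M : ℕ) (b : Fin (2 * M) → Bool) :
    (univ.filter (fun h : Equiv.Perm (Fin (2 * M)) => lowB M h = b)).card =
      if KL.Bal M b then (M !) ^ 2 else 0 := by
  have e1 : (univ.filter (fun h : Equiv.Perm (Fin (2 * M)) => lowB M h = b)) =
      univ.filter (fun h : Equiv.Perm (Fin (2 * M)) => par M ∘ h = b) := rfl
  rw [e1, card_perm_colour]
  have htot : Fintype.card {x // b x = true} + Fintype.card {x // b x = false} = 2 * M := by
    have := Fintype.card_subtype_compl (fun x => b x = true)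
    have h2 : Fintype.card {x // b x = false} = Fintype.card {x // ¬ b x = true} := by
      apply Fintype.card_congr
      apply Equiv.subtypeEquivRight
      intro x
      cases b x <;> simp
    have h3 := Fintype.card_subtype_le (fun x => b x = true)
    rw [Fintype.card_fin] at this h3
    omega
  by_cases hb : KL.Bal M b
  · have hb' : ∀ u, Fintype.card {x // b x = u} = Fintype.card {y // par M y = u} := by
      intro u
      rw [card_par]
      unfold KL.Bal at hb
      cases u
      · omega
      · exact hb
    rw [if_pos hb', if_pos hb]
    rw [Finset.prod_congr rfl (fun u _ => by rw [hb' u, card_par])]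
    simp [Finset.prod_const, Finset.card_univ]
  · have hb' : ¬ ∀ u, Fintype.card {x // b x = u} = Fintype.card {y // par M y = u} := by
      intro hh
      apply hb
      unfold KL.Bal
      rw [hh true, card_par]
    rw [if_neg hb', if_neg hb]

/-- number of permutations with a prescribed column of new bits, for fixed coins -/
theorem card_new (M : ℕ) (e : Fin M → Bool) (c : Fin (2 * M) → Bool) :
    (univ.filter (fun h : Equiv.Perm (Fin (2 * M)) => newBit M h e = c)).card =
      if KL.Bal M c then (M !) ^ 2 else 0 := by
  have e1 : (univ.filter (fun h : Equiv.Perm (Fin (2 * M)) => newBit M h e = c)) =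
      univ.filter (fun h : Equiv.Perm (Fin (2 * M)) => pbit M e ∘ h = c) := rfl
  rw [e1, card_perm_colour]
  have htot : Fintype.card {x // c x = true} + Fintype.card {x // c x = false} = 2 * M := by
    have := Fintype.card_subtype_compl (fun x => c x = true)
    have h2 : Fintype.card {x // c x = false} = Fintype.card {x // ¬ c x = true} := by
      apply Fintype.card_congr
      apply Equiv.subtypeEquivRight
      intro x
      cases c x <;> simp
    have h3 := Fintype.card_subtype_le (fun x => c x = true)
    rw [Fintype.card_fin] at this h3
    omega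
  by_cases hb : KL.Bal M c
  · have hb' : ∀ u, Fintype.card {x // c x = u} = Fintype.card {y // pbit M e y = u} := by
      intro u
      rw [card_pbit]
      unfold KL.Bal at hb
      cases u
      · omega
      · exact hb
    rw [if_pos hb', if_pos hb]
    rw [Finset.prod_congr rfl (fun u _ => by rw [hb' u, card_pbit])]
    simp [Finset.prod_const, Finset.card_univ]
  · have hb' : ¬ ∀ u, Fintype.card {x // c x = u} = Fintype.card {y // pbit M e y = u} := by
      intro hh
      apply hb
      unfold KL.Bal
      rw [hh true, card_pbit]
    rw [if_neg hb', if_neg hb]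

end Vale.Agent.P162.SBR
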