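import Vale.Agent.P162.SB.Defs
import Vale.Agent.P162.SB.Cond
import Vale.Agent.P162.KL.Tensor
import Vale.Agent.P162.KL.SBProd

namespace Vale.Agent.P162.SB

open Finset Real Vale.Agent.P162 Vale.Agent.P162.KL

/-- SB in the three-channel form -/
theorem SB_iff_SB3 {A B C : Type*} [Fintype A] [Fintype B] [DecidableEq B] [Fintype C]
    (β : A → B) (K : A → C → ℝ) (θ : ℝ) :
    SB β K θ ↔ SBT.SB3 (detK β) K (pairK β K) θ := by
  unfold SB SBT.SB3 Dv
  simp only [pm_eq_push, joint_eq_push]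

/-- the function value is a degradation of the pair -/
theorem deg_fst {A B C : Type*} [Fintype B] [DecidableEq B] [Fintype C]
    (β : A → B) (K : A → C → ℝ) (hK : IsChan K) (a : A) (b : B) :
    detK β a b = ∑ z : B × C, detK (Prod.fst : B × C → B) z b * pairK β K a z := by
  rw [Fintype.sum_prod_type]
  simp only [detK, pairK]
  rw [Finset.sum_eq_single b]
  · by_cases h : β a = b
    · simp [h, (hK a).2]
    · simp [h]
  · intro b' _ hb
    simp [hb]
  · simp

/-- the channel output is a degradation of the pair -/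
theorem deg_snd {A B C : Type*} [Fintype B] [DecidableEq B] [Fintype C] [DecidableEq C]
    (β : A → B) (K : A → C → ℝ) (a : A) (c : C) :
    K a c = ∑ z : B × C, detK (Prod.snd : B × C → C) z c * pairK β K a z := by
  rw [Fintype.sum_prod_type]
  simp only [detK, pairK]
  rw [Finset.sum_eq_single (β a)]
  · simp
  · intro b' _ hb
    simp [Ne.symm hb]
  · simp

/-- SB is invariant under relabelling -/
theorem SB_equiv {A A' B B' C C' : Type*} [Fintype A] [Fintype A'] [Fintype B] [Fintype B']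
    [DecidableEq B] [DecidableEq B'] [Fintype C] [Fintype C']
    (e : A ≃ A') (f : B ≃ B') (g : C ≃ C') (β : A → B) (K : A → C → ℝ) (β' : A' → B')
    (K' : A' → C' → ℝ) (hβ : ∀ a, β' (e a) = f (β a)) (hKK : ∀ a c, K' (e a) (g c) = K a c)
    (θ : ℝ) (h : SB β K θ) : SB β' K' θ := by
  rw [SB_iff_SB3] at h ⊢
  refine SBT.SB3_equiv e f g (f.prodCongr g) ?_ hKK ?_ h
  · intro a x
    simp [detK, hβ]
  · intro a z
    simp [pairK, hβ, hKK]

/-- tensorisation, two factors (proof: board 365 (b)) -/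
theorem SB_prod {A1 A2 B1 B2 C1 C2 : Type*} [Fintype A1] [Fintype A2] [Fintype B1] [Fintype B2]
    [DecidableEq B1] [DecidableEq B2] [Fintype C1] [Fintype C2]
    (β1 : A1 → B1) (K1 : A1 → C1 → ℝ) (β2 : A2 → B2) (K2 : A2 → C2 → ℝ)
    (h1 : IsChan K1) (h2 : IsChan K2) (θ : ℝ) (hθ : 0 ≤ θ) (s1 : SB β1 K1 θ) (s2 : SB β2 K2 θ) :
    SB (fun a : A1 × A2 => (β1 a.1, β2 a.2))
      (fun (a : A1 × A2) (c : C1 × C2) => K1 a.1 c.1 * K2 a.2 c.2) θ := by
  classical
  rw [SB_iff_SB3] at s1 s2 ⊢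
  have h := SBT.SB3_prod hθ (isChan_detK β1) h1 (isChan_pairK β1 K1 h1) (isChan_detK β2) h2
    (isChan_pairK β2 K2 h2) (detK Prod.fst) (isChan_detK _) (deg_fst β1 K1 h1)
    (detK Prod.snd) (isChan_detK _) (deg_snd β1 K1) s1 s2
  refine SBT.SB3_equiv (Equiv.refl _) (Equiv.refl _) (Equiv.refl _)
    (Equiv.prodProdProdComm B1 C1 B2 C2) ?_ ?_ ?_ h
  · intro a x
    simp only [Equiv.refl_apply, detK, Tz.prodChan, Prod.ext_iff]
    by_cases e1 : β1 a.1 = x.1 <;> by_cases e2 : β2 a.2 = x.2 <;> simp [e1, e2]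
  · intro a x
    rfl
  · intro a z
    simp only [Equiv.refl_apply, pairK, Tz.prodChan, Prod.ext_iff, Equiv.prodProdProdComm_apply]
    by_cases e1 : β1 a.1 = z.1.1 <;> by_cases e2 : β2 a.2 = z.2.1 <;> simp [e1, e2]

/-- tensorisation, `R` equal factors -/
theorem SB_pi {A B C : Type*} [Fintype A] [Fintype B] [DecidableEq B] [Fintype C]
    (β : A → B) (K : A → C → ℝ) (hK : IsChan K) (θ : ℝ) (hθ : 0 ≤ θ) (s : SB β K θ) (R : ℕ) :
    SB (fun (a : Fin R → A) (i : Fin R) => β (a i))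
      (fun (a : Fin R → A) (c : Fin R → C) => ∏ i, K (a i) (c i)) θ := by
  classical
  rw [SB_iff_SB3] at s ⊢
  have h := SBT.SB3_pi_fin hθ (isChan_detK β) hK (isChan_pairK β K hK)
    (detK Prod.fst) (isChan_detK _) (deg_fst β K hK)
    (detK Prod.snd) (isChan_detK _) (deg_snd β K) s R
  refine SBT.SB3_equiv (Equiv.refl _) (Equiv.refl _) (Equiv.refl _)
    (Equiv.arrowProdEquivProdArrow (Fin R) (fun _ => B) (fun _ => C)) ?_ ?_ ?_ h
  · intro a x
    simp only [Equiv.refl_apply, detK, Tz.piChan]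
    rw [Finset.prod_ite_zero]
    simp [funext_iff]
  · intro a x
    rfl
  · intro a z
    simp only [Equiv.refl_apply, pairK, Tz.piChan]
    rw [Finset.prod_ite_zero]
    simp [funext_iff, Equiv.arrowProdEquivProdArrow]

end Vale.Agent.P162.SB
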