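import Vale.Agent.P162.SB.Defs
import Vale.Agent.P162.KL.Tensor
import Vale.Agent.P162.KL.JointPair

/-!
# P162, SB route : tensorisation of `SB` (two factors)

`hkl g q` is the homogeneous relative entropy of an unnormalised weight `g` with respect to a law `q`.
`SB_scaled` : the homogeneous form of `SB`.  `SB_prod'` : `SB` for two factors implies `SB` for the product system.
-/

namespace Vale.Agent.P162.SB

open Finset Real Vale.Agent.P162 Vale.Agent.P162.KL

/-- homogeneous relative entropy of a weight `g` with respect to `q` -/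
noncomputable def hkl {X : Type*} [Fintype X] (g q : X → ℝ) : ℝ :=
  ∑ x, g x * Real.log (g x / ((∑ x', g x') * q x))

theorem hkl_of_sum_one {X : Type*} [Fintype X] (g q : X → ℝ) (h : ∑ x, g x = 1) :
    hkl g q = kl g q := by
  unfold hkl kl
  simp [h]

theorem hkl_smul {X : Type*} [Fintype X] (c : ℝ) (hc : 0 ≤ c) (g q : X → ℝ) :
    hkl (fun x => c * g x) q = c * hkl g q := by
  rcases hc.eq_or_lt with h0 | hpos
  · subst h0
    simp [hkl]
  · unfold hkl
    rw [Finset.mul_sum]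
    apply Finset.sum_congr rfl
    intro x _
    rw [← Finset.mul_sum, mul_assoc c (∑ x', g x') (q x), mul_div_mul_left _ _ hpos.ne', mul_assoc]

theorem hkl_zero {X : Type*} [Fintype X] (q : X → ℝ) : hkl (fun _ => (0 : ℝ)) q = 0 := by
  simp [hkl]

/-- subadditivity of the homogeneous entropy (log-sum inequality) -/
theorem hkl_sum_le {ι X : Type*} [Fintype ι] [Fintype X] (g : ι → X → ℝ) (q : X → ℝ)
    (hg : ∀ i x, 0 ≤ g i x) (hq : ∀ x, 0 ≤ q x) (hac : ∀ i x, q x = 0 → g i x = 0) :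
    hkl (fun x => ∑ i, g i x) q ≤ ∑ i, hkl (g i) q := by
  have hR : ∑ i, hkl (g i) q =
      ∑ x, ∑ i, g i x * Real.log (g i x / ((∑ x', g i x') * q x)) := by
    unfold hkl
    exact Finset.sum_comm
  rw [hR]
  unfold hkl
  apply Finset.sum_le_sum
  intro x _
  have h := log_sum Finset.univ (fun i => g i x) (fun i => (∑ x', g i x') * q x)
    (fun i _ => hg i x)
    (fun i _ => mul_nonneg (Finset.sum_nonneg fun x' _ => hg i x') (hq x)) ?_
  · have e : ∑ i, (∑ x', g i x') * q x = (∑ x', ∑ i, g i x') * q x := by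
      rw [← Finset.sum_mul, Finset.sum_comm]
    rw [e] at h
    exact h
  · intro i _ hz
    rcases mul_eq_zero.1 hz with h0 | h0
    · exact (Finset.sum_eq_zero_iff_of_nonneg (fun x' _ => hg i x')).1 h0 x (Finset.mem_univ x)
    · exact hac i x h0

/-- chain rule in the `hkl` vocabulary -/
theorem chain_hkl {X Y : Type*} [Fintype X] [Fintype Y] (F : X × Y → ℝ) (a : X → ℝ) (b : Y → ℝ)
    (hF : ∀ z, 0 ≤ F z) (ha : ∀ x, a x = 0 → ∑ y, F (x, y) = 0)
    (hb : ∀ x y, b y = 0 → F (x, y) = 0) :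
    ∑ z, F z * Real.log (F z / (a z.1 * b z.2)) =
      kl (fun x => ∑ y, F (x, y)) a + ∑ x, hkl (fun y => F (x, y)) b :=
  Tz.chain_prod F a b hF ha hb

section lin

variable {A B C : Type*} [Fintype A] [Fintype B] [DecidableEq B] [Fintype C]

theorem pm_eq_ite (P : A → ℝ) (β : A → B) (b : B) :
    KL.pm P β b = ∑ a, if β a = b then P a else 0 := by
  unfold KL.pm
  rw [Finset.sum_filter]

theorem pm_smul (m : ℝ) (P : A → ℝ) (β : A → B) :
    KL.pm (fun a => m * P a) β = fun b => m * KL.pm P β b := by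
  funext b
  unfold KL.pm
  rw [Finset.mul_sum]

theorem push_smul (m : ℝ) (P : A → ℝ) (K : A → C → ℝ) :
    push K (fun a => m * P a) = fun c => m * push K P c := by
  funext c
  unfold push
  rw [Finset.mul_sum]
  apply Finset.sum_congr rfl
  intro a _
  ring

theorem joint_smul (m : ℝ) (P : A → ℝ) (β : A → B) (K : A → C → ℝ) :
    joint β K (fun a => m * P a) = fun x => m * joint β K P x := by
  funext x
  unfold joint
  rw [Finset.mul_sum]
  apply Finset.sum_congr rfl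
  intro a _
  split_ifs
  · ring
  · simp

theorem joint_nonneg (β : A → B) (K : A → C → ℝ) (hK : ∀ a c, 0 ≤ K a c) (g : A → ℝ)
    (hg : ∀ a, 0 ≤ g a) (x : B × C) : 0 ≤ joint β K g x := by
  unfold joint
  apply Finset.sum_nonneg
  intro a _
  split_ifs
  · exact mul_nonneg (hg a) (hK a _)
  · exact le_rfl

theorem joint_zero_of_unif [Nonempty A] (β : A → B) (K : A → C → ℝ) (hK : ∀ a c, 0 ≤ K a c)
    (x : B × C) (h : joint β K (unif A) x = 0) (g : A → ℝ) : joint β K g x = 0 := by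
  unfold joint at h ⊢
  have hz := (Finset.sum_eq_zero_iff_of_nonneg (fun a _ => by
    split_ifs
    · exact mul_nonneg (Tz.unif_nonneg a) (hK a _)
    · exact le_rfl)).1 h
  apply Finset.sum_eq_zero
  intro a ha
  have h1 := hz a ha
  split_ifs at h1 ⊢ with hc
  · rcases mul_eq_zero.1 h1 with h2 | h2
    · exact absurd h2 (Tz.unif_pos a).ne'
    · rw [h2, mul_zero]
  · rfl

theorem pm_zero_of_unif [Nonempty A] (β : A → B) (b : B) (h : KL.pm (unif A) β b = 0) (g : A → ℝ) :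
    KL.pm g β b = 0 := by
  rw [pm_eq_ite] at h ⊢
  have hz := (Finset.sum_eq_zero_iff_of_nonneg (fun a _ => by
    split_ifs
    · exact Tz.unif_nonneg a
    · exact le_rfl)).1 h
  apply Finset.sum_eq_zero
  intro a ha
  have h1 := hz a ha
  split_ifs at h1 ⊢ with hc
  · exact absurd h1 (Tz.unif_pos a).ne'
  · rfl

theorem push_zero_of_unif [Nonempty A] (K : A → C → ℝ) (hK : ∀ a c, 0 ≤ K a c) (c : C)
    (h : push K (unif A) c = 0) (g : A → ℝ) : push K g c = 0 := by
  unfold push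
  apply Finset.sum_eq_zero
  intro a _
  rw [Tz.col_zero_of_push_unif hK h a, mul_zero]

/-- the homogeneous form of `SB` -/
theorem SB_scaled (β : A → B) (K : A → C → ℝ) (hK : IsChan K) (θ : ℝ) (s : SB β K θ)
    (g : A → ℝ) (hg : ∀ a, 0 ≤ g a) :
    hkl (KL.pm g β) (KL.pm (unif A) β) + hkl (push K g) (push K (unif A)) ≤
      hkl (joint β K g) (joint β K (unif A)) + θ * hkl g (unif A) := by
  set m := ∑ a, g a with hm
  have hm0 : 0 ≤ m := Finset.sum_nonneg fun a _ => hg a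
  rcases hm0.eq_or_lt with h0 | hpos
  · have hz : g = fun _ => m * 0 := by
      funext a
      rw [mul_zero]
      exact (Finset.sum_eq_zero_iff_of_nonneg (fun a _ => hg a)).1 h0.symm a (Finset.mem_univ a)
    rw [hz, pm_smul, push_smul, joint_smul, hkl_smul m hm0, hkl_smul m hm0, hkl_smul m hm0,
      hkl_smul m hm0, ← h0]
    simp
  · have hp : IsLaw (fun a => g a / m) := by
      refine ⟨fun a => div_nonneg (hg a) hm0, ?_⟩
      rw [← Finset.sum_div, ← hm, div_self hpos.ne']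
    have hgp : g = fun a => m * (g a / m) := by
      funext a
      field_simp
    have h1 := s _ hp
    have e1 : hkl (KL.pm (fun a => g a / m) β) (KL.pm (unif A) β) = Dv (fun a => g a / m) (unif A) β := by
      rw [hkl_of_sum_one _ _ (by rw [pm_sum, hp.2])]
      rfl
    have e2 : hkl (push K (fun a => g a / m)) (push K (unif A)) =
        kl (push K (fun a => g a / m)) (push K (unif A)) :=
      hkl_of_sum_one _ _ (by rw [Tz.push_sum hK, hp.2])
    have e3 : hkl (joint β K (fun a => g a / m)) (joint β K (unif A)) =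
        kl (joint β K (fun a => g a / m)) (joint β K (unif A)) :=
      hkl_of_sum_one _ _ (by rw [sum_joint β K hK, hp.2])
    have e4 : hkl (fun a => g a / m) (unif A) = kl (fun a => g a / m) (unif A) :=
      hkl_of_sum_one _ _ hp.2
    rw [hgp, pm_smul, push_smul, joint_smul, hkl_smul m hm0, hkl_smul m hm0, hkl_smul m hm0,
      hkl_smul m hm0, e1, e2, e3, e4]
    nlinarith [mul_le_mul_of_nonneg_left h1 hm0]

end lin

section prod

variable {A1 A2 B1 B2 C1 C2 : Type*} [Fintype A1] [Fintype A2] [Fintype B1] [Fintype B2]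
  [DecidableEq B1] [DecidableEq B2] [Fintype C1] [Fintype C2]

/-- the weight of the second input given the first pair (function value, output) -/
noncomputable def gz2 (β1 : A1 → B1) (K1 : A1 → C1 → ℝ) (p : A1 × A2 → ℝ) (z : B1 × C1)
    (a2 : A2) : ℝ :=
  ∑ a1, if β1 a1 = z.1 then p (a1, a2) * K1 a1 z.2 else 0

theorem gz2_nonneg (β1 : A1 → B1) (K1 : A1 → C1 → ℝ) (hK1 : ∀ a c, 0 ≤ K1 a c) (p : A1 × A2 → ℝ)
    (hp : ∀ a, 0 ≤ p a) (z : B1 × C1) (a2 : A2) : 0 ≤ gz2 β1 K1 p z a2 := by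
  unfold gz2
  apply Finset.sum_nonneg
  intro a1 _
  split_ifs
  · exact mul_nonneg (hp _) (hK1 _ _)
  · exact le_rfl

theorem joint_prod_eq (β1 : A1 → B1) (K1 : A1 → C1 → ℝ) (β2 : A2 → B2) (K2 : A2 → C2 → ℝ)
    (p : A1 × A2 → ℝ) (b1 : B1) (b2 : B2) (c1 : C1) (c2 : C2) :
    joint (fun a : A1 × A2 => (β1 a.1, β2 a.2))
      (fun (a : A1 × A2) (c : C1 × C2) => K1 a.1 c.1 * K2 a.2 c.2) p ((b1, b2), (c1, c2)) =
      joint β2 K2 (gz2 β1 K1 p (b1, c1)) (b2, c2) := by
  unfold joint gz2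
  rw [Fintype.sum_prod_type, Finset.sum_comm]
  apply Finset.sum_congr rfl
  intro a2 _
  by_cases h2 : β2 a2 = b2
  · simp only [h2, if_true, Prod.mk.injEq, and_true]
    rw [Finset.sum_mul]
    apply Finset.sum_congr rfl
    intro a1 _
    split_ifs
    · ring
    · simp
  · simp [h2]

theorem pm_prod_eq (β1 : A1 → B1) (K1 : A1 → C1 → ℝ) (hK1 : IsChan K1) (β2 : A2 → B2)
    (p : A1 × A2 → ℝ) (b1 : B1) (b2 : B2) :
    KL.pm p (fun a : A1 × A2 => (β1 a.1, β2 a.2)) (b1, b2) =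
      ∑ c1, KL.pm (gz2 β1 K1 p (b1, c1)) β2 b2 := by
  simp only [pm_eq_ite]
  unfold gz2
  rw [Fintype.sum_prod_type, Finset.sum_comm, Finset.sum_comm (s := (Finset.univ : Finset C1))]
  apply Finset.sum_congr rfl
  intro a2 _
  by_cases h2 : β2 a2 = b2
  · simp only [h2, if_true, Prod.mk.injEq, and_true]
    rw [Finset.sum_comm]
    apply Finset.sum_congr rfl
    intro a1 _
    split_ifs
    · rw [← Finset.mul_sum, (hK1 a1).2, mul_one]
    · simp
  · simp [h2]

theorem push_prod_eq (β1 : A1 → B1) (K1 : A1 → C1 → ℝ) (K2 : A2 → C2 → ℝ)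
    (p : A1 × A2 → ℝ) (c1 : C1) (c2 : C2) :
    push (fun (a : A1 × A2) (c : C1 × C2) => K1 a.1 c.1 * K2 a.2 c.2) p (c1, c2) =
      ∑ b1, push K2 (gz2 β1 K1 p (b1, c1)) c2 := by
  unfold push gz2
  rw [Fintype.sum_prod_type, Finset.sum_comm, Finset.sum_comm (s := (Finset.univ : Finset B1))]
  apply Finset.sum_congr rfl
  intro a2 _
  rw [← Finset.sum_mul, Finset.sum_comm, Finset.sum_mul]
  apply Finset.sum_congr rfl
  intro a1 _
  rw [Finset.sum_ite_eq]
  simp only [Finset.mem_univ, if_true]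
  ring

theorem gz2_sum (β1 : A1 → B1) (K1 : A1 → C1 → ℝ) (p : A1 × A2 → ℝ) (z : B1 × C1) :
    ∑ a2, gz2 β1 K1 p z a2 = joint β1 K1 (fun a1 => ∑ a2, p (a1, a2)) z := by
  unfold gz2 joint
  rw [Finset.sum_comm]
  apply Finset.sum_congr rfl
  intro a1 _
  split_ifs
  · rw [Finset.sum_mul]
  · simp

theorem gz2_unif (β1 : A1 → B1) (K1 : A1 → C1 → ℝ) (z : B1 × C1) :
    gz2 β1 K1 (unif (A1 × A2)) z = fun a2 => joint β1 K1 (unif A1) z * unif A2 a2 := by
  funext a2
  unfold gz2 joint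
  rw [Finset.sum_mul]
  apply Finset.sum_congr rfl
  intro a1 _
  rw [Tz.unif_prod]
  split_ifs
  · ring
  · simp

theorem pm_unif_prod (β1 : A1 → B1) (β2 : A2 → B2) (b1 : B1) (b2 : B2) :
    KL.pm (unif (A1 × A2)) (fun a : A1 × A2 => (β1 a.1, β2 a.2)) (b1, b2) =
      KL.pm (unif A1) β1 b1 * KL.pm (unif A2) β2 b2 := by
  simp only [pm_eq_ite]
  rw [Fintype.sum_prod_type, Finset.sum_mul_sum]
  apply Finset.sum_congr rfl
  intro a1 _
  apply Finset.sum_congr rfl
  intro a2 _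
  rw [Tz.unif_prod]
  by_cases h1 : β1 a1 = b1 <;> by_cases h2 : β2 a2 = b2 <;> simp [h1, h2]

theorem pm_prod_sum (β1 : A1 → B1) (β2 : A2 → B2) (p : A1 × A2 → ℝ) (b1 : B1) :
    ∑ b2, KL.pm p (fun a : A1 × A2 => (β1 a.1, β2 a.2)) (b1, b2) =
      KL.pm (fun a1 => ∑ a2, p (a1, a2)) β1 b1 := by
  simp only [pm_eq_ite]
  rw [Finset.sum_comm, Fintype.sum_prod_type]
  apply Finset.sum_congr rfl
  intro a1 _
  by_cases h1 : β1 a1 = b1
  · simp [h1]
  · simp [h1]

theorem push_prod_sum (K1 : A1 → C1 → ℝ) (K2 : A2 → C2 → ℝ) (hK2 : IsChan K2)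
    (p : A1 × A2 → ℝ) (c1 : C1) :
    ∑ c2, push (fun (a : A1 × A2) (c : C1 × C2) => K1 a.1 c.1 * K2 a.2 c.2) p (c1, c2) =
      push K1 (fun a1 => ∑ a2, p (a1, a2)) c1 := by
  unfold push
  rw [Finset.sum_comm, Fintype.sum_prod_type]
  apply Finset.sum_congr rfl
  intro a1 _
  rw [Finset.sum_mul]
  apply Finset.sum_congr rfl
  intro a2 _
  simp only
  rw [← Finset.mul_sum, ← Finset.mul_sum, (hK2 a2).2, mul_one]

/-- **Tensorisation of `SB`, two factors.** -/
theorem SB_prod' (β1 : A1 → B1) (K1 : A1 → C1 → ℝ) (β2 : A2 → B2) (K2 : A2 → C2 → ℝ)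
    (h1 : IsChan K1) (h2 : IsChan K2) (θ : ℝ) (hθ : 0 ≤ θ) (s1 : SB β1 K1 θ) (s2 : SB β2 K2 θ) :
    SB (fun a : A1 × A2 => (β1 a.1, β2 a.2))
      (fun (a : A1 × A2) (c : C1 × C2) => K1 a.1 c.1 * K2 a.2 c.2) θ := by
  intro p hp
  have hne : Nonempty (A1 × A2) := Tz.IsLaw.nonempty hp
  haveI hne1 : Nonempty A1 := hne.map Prod.fst
  haveI hne2 : Nonempty A2 := hne.map Prod.snd
  have hk1 : ∀ a c, 0 ≤ K1 a c := fun a c => (h1 a).1 c
  have hk2 : ∀ a c, 0 ≤ K2 a c := fun a c => (h2 a).1 c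
  set p1 : A1 → ℝ := fun a1 => ∑ a2, p (a1, a2) with hp1
  have hp1law : IsLaw p1 := by
    refine ⟨fun a1 => Finset.sum_nonneg (fun a2 _ => hp.1 _), ?_⟩
    rw [← hp.2, Fintype.sum_prod_type]
  set g := gz2 β1 K1 p with hg
  have hg0 : ∀ z a2, 0 ≤ g z a2 := gz2_nonneg β1 K1 hk1 p hp.1
  set J1 := joint β1 K1 (unif A1) with hJ1
  set J2 := joint β2 K2 (unif A2) with hJ2
  have hJu : ∀ b1 b2 c1 c2, joint (fun a : A1 × A2 => (β1 a.1, β2 a.2))
      (fun (a : A1 × A2) (c : C1 × C2) => K1 a.1 c.1 * K2 a.2 c.2) (unif (A1 × A2))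
      ((b1, b2), (c1, c2)) = J1 (b1, c1) * J2 (b2, c2) := by
    intro b1 b2 c1 c2
    rw [joint_prod_eq, gz2_unif, joint_smul]
  -- the joint term
  have hD1 : kl (joint (fun a : A1 × A2 => (β1 a.1, β2 a.2))
      (fun (a : A1 × A2) (c : C1 × C2) => K1 a.1 c.1 * K2 a.2 c.2) p)
      (joint (fun a : A1 × A2 => (β1 a.1, β2 a.2))
      (fun (a : A1 × A2) (c : C1 × C2) => K1 a.1 c.1 * K2 a.2 c.2) (unif (A1 × A2))) =
      kl (joint β1 K1 p1) J1 + ∑ z, hkl (joint β2 K2 (g z)) J2 := by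
    have hsum : ∀ z, ∑ w, joint β2 K2 (g z) w = joint β1 K1 p1 z := by
      intro z
      rw [sum_joint β2 K2 h2, hg, gz2_sum]
    have hc := chain_hkl (fun zw : (B1 × C1) × (B2 × C2) => joint β2 K2 (g zw.1) zw.2) J1 J2
      (fun zw => joint_nonneg β2 K2 hk2 _ (hg0 zw.1) zw.2)
      (fun z hz => by
        simp only
        rw [hsum]
        exact joint_zero_of_unif β1 K1 hk1 z hz p1)
      (fun z w hw => joint_zero_of_unif β2 K2 hk2 w hw _)
    simp only [hsum] at hc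
    rw [← hc]
    unfold kl
    rw [← Equiv.sum_comp (Equiv.prodProdProdComm B1 C1 B2 C2)]
    apply Finset.sum_congr rfl
    rintro ⟨⟨b1, c1⟩, ⟨b2, c2⟩⟩ _
    simp only [Equiv.prodProdProdComm_apply]
    rw [joint_prod_eq, hJu]
  -- the function term
  have hD2 : Dv p (unif (A1 × A2)) (fun a : A1 × A2 => (β1 a.1, β2 a.2)) =
      Dv p1 (unif A1) β1 + ∑ b1, hkl (fun b2 =>
        KL.pm p (fun a : A1 × A2 => (β1 a.1, β2 a.2)) (b1, b2)) (KL.pm (unif A2) β2) := by
    have hc := chain_hkl (KL.pm p (fun a : A1 × A2 => (β1 a.1, β2 a.2))) (KL.pm (unif A1) β1)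
      (KL.pm (unif A2) β2) (fun z => pm_nonneg p hp.1 _ z)
      (fun b1 hb => by
        rw [pm_prod_sum]
        exact pm_zero_of_unif β1 b1 hb _)
      (fun b1 b2 hb => by
        apply pm_zero_of_unif
        rw [pm_unif_prod, hb, mul_zero])
    simp only [pm_prod_sum] at hc
    unfold Dv
    rw [← hc]
    unfold kl
    apply Finset.sum_congr rfl
    rintro ⟨b1, b2⟩ _
    rw [pm_unif_prod]
  -- the output term
  have hD3 : kl (push (fun (a : A1 × A2) (c : C1 × C2) => K1 a.1 c.1 * K2 a.2 c.2) p)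
      (push (fun (a : A1 × A2) (c : C1 × C2) => K1 a.1 c.1 * K2 a.2 c.2) (unif (A1 × A2))) =
      kl (push K1 p1) (push K1 (unif A1)) + ∑ c1, hkl (fun c2 =>
        push (fun (a : A1 × A2) (c : C1 × C2) => K1 a.1 c.1 * K2 a.2 c.2) p (c1, c2))
        (push K2 (unif A2)) := by
    have hu : ∀ c : C1 × C2, push (fun (a : A1 × A2) (c : C1 × C2) => K1 a.1 c.1 * K2 a.2 c.2)
        (unif (A1 × A2)) c = push K1 (unif A1) c.1 * push K2 (unif A2) c.2 :=
      fun c => Tz.push_unif_prod K1 K2 c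
    have hc := chain_hkl (push (fun (a : A1 × A2) (c : C1 × C2) => K1 a.1 c.1 * K2 a.2 c.2) p)
      (push K1 (unif A1)) (push K2 (unif A2))
      (fun z => Tz.push_nonneg (fun a c => mul_nonneg (hk1 _ _) (hk2 _ _)) hp.1 z)
      (fun c1 hc1 => by
        rw [push_prod_sum K1 K2 h2]
        exact push_zero_of_unif K1 hk1 c1 hc1 _)
      (fun c1 c2 hc2 => by
        apply push_zero_of_unif _ (fun a c => mul_nonneg (hk1 _ _) (hk2 _ _))
        rw [hu, hc2, mul_zero])
    simp only [push_prod_sum K1 K2 h2] at hc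
    rw [← hc]
    unfold kl
    apply Finset.sum_congr rfl
    intro c _
    rw [hu]
  -- the input term
  have hD4 : kl p (unif (A1 × A2)) =
      kl p1 (unif A1) + ∑ a1, hkl (fun a2 => p (a1, a2)) (unif A2) := by
    have hc := chain_hkl p (unif A1) (unif A2) hp.1
      (fun a1 h => absurd h (Tz.unif_pos a1).ne') (fun a1 a2 h => absurd h (Tz.unif_pos a2).ne')
    rw [← hc]
    unfold kl
    apply Finset.sum_congr rfl
    intro a _
    rw [Tz.unif_prod]
  -- subadditivity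
  have hS2 : ∀ b1, hkl (fun b2 => KL.pm p (fun a : A1 × A2 => (β1 a.1, β2 a.2)) (b1, b2))
      (KL.pm (unif A2) β2) ≤ ∑ c1, hkl (KL.pm (g (b1, c1)) β2) (KL.pm (unif A2) β2) := by
    intro b1
    rw [show (fun b2 => KL.pm p (fun a : A1 × A2 => (β1 a.1, β2 a.2)) (b1, b2)) =
      fun b2 => ∑ c1, KL.pm (g (b1, c1)) β2 b2 from funext (pm_prod_eq β1 K1 h1 β2 p b1)]
    exact hkl_sum_le (fun c1 => KL.pm (g (b1, c1)) β2) _
      (fun c1 b2 => pm_nonneg _ (hg0 _) _ _) (fun b2 => pm_nonneg _ Tz.unif_nonneg _ _)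
      (fun c1 b2 hb => pm_zero_of_unif β2 b2 hb _)
  have hS3 : ∀ c1, hkl (fun c2 =>
      push (fun (a : A1 × A2) (c : C1 × C2) => K1 a.1 c.1 * K2 a.2 c.2) p (c1, c2))
      (push K2 (unif A2)) ≤ ∑ b1, hkl (push K2 (g (b1, c1))) (push K2 (unif A2)) := by
    intro c1
    rw [show (fun c2 => push (fun (a : A1 × A2) (c : C1 × C2) => K1 a.1 c.1 * K2 a.2 c.2) p
      (c1, c2)) = fun c2 => ∑ b1, push K2 (g (b1, c1)) c2 from
      funext (push_prod_eq β1 K1 K2 p c1)]
    exact hkl_sum_le (fun b1 => push K2 (g (b1, c1))) _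
      (fun b1 c2 => Tz.push_nonneg hk2 (hg0 _) _) (fun c2 => Tz.push_nonneg hk2 Tz.unif_nonneg _)
      (fun b1 c2 hc => push_zero_of_unif K2 hk2 c2 hc _)
  have hS4 : ∑ z, hkl (g z) (unif A2) ≤ ∑ a1, hkl (fun a2 => p (a1, a2)) (unif A2) := by
    have hz : ∀ z : B1 × C1, hkl (g z) (unif A2) ≤
        ∑ a1, (if β1 a1 = z.1 then K1 a1 z.2 else 0) * hkl (fun a2 => p (a1, a2)) (unif A2) := by
      intro z
      have e : g z = fun a2 => ∑ a1, (if β1 a1 = z.1 then K1 a1 z.2 else 0) * p (a1, a2) := by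
        funext a2
        rw [hg]
        unfold gz2
        apply Finset.sum_congr rfl
        intro a1 _
        split_ifs
        · ring
        · simp
      have hw : ∀ a1, 0 ≤ (if β1 a1 = z.1 then K1 a1 z.2 else 0) := by
        intro a1
        split_ifs
        · exact hk1 _ _
        · exact le_rfl
      rw [e]
      refine le_trans (hkl_sum_le (fun a1 a2 => (if β1 a1 = z.1 then K1 a1 z.2 else 0) * p (a1, a2))
        _ (fun a1 a2 => mul_nonneg (hw a1) (hp.1 _)) Tz.unif_nonneg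
        (fun a1 a2 h => absurd h (Tz.unif_pos a2).ne')) (le_of_eq ?_)
      apply Finset.sum_congr rfl
      intro a1 _
      exact hkl_smul _ (hw a1) _ _
    refine le_trans (Finset.sum_le_sum fun z _ => hz z) (le_of_eq ?_)
    rw [Finset.sum_comm]
    apply Finset.sum_congr rfl
    intro a1 _
    rw [← Finset.sum_mul]
    have e1 : ∑ z : B1 × C1, (if β1 a1 = z.1 then K1 a1 z.2 else 0) = 1 := by
      rw [Fintype.sum_prod_type]
      simp only
      rw [Finset.sum_eq_single (β1 a1)]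
      · simp [(h1 a1).2]
      · intro b _ hb
        simp [Ne.symm hb]
      · intro h
        exact absurd (Finset.mem_univ _) h
    rw [e1, one_mul]
  -- the two applications of the hypothesis
  have hA := s1 p1 hp1law
  have hB : ∀ z, hkl (KL.pm (g z) β2) (KL.pm (unif A2) β2) + hkl (push K2 (g z)) (push K2 (unif A2))
      ≤ hkl (joint β2 K2 (g z)) J2 + θ * hkl (g z) (unif A2) :=
    fun z => SB_scaled β2 K2 h2 θ s2 (g z) (hg0 z)
  have hBs := Finset.sum_le_sum (fun z (_ : z ∈ (Finset.univ : Finset (B1 × C1))) => hB z)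
  rw [Finset.sum_add_distrib, Finset.sum_add_distrib, ← Finset.mul_sum] at hBs
  have hT2 : ∑ b1, hkl (fun b2 => KL.pm p (fun a : A1 × A2 => (β1 a.1, β2 a.2)) (b1, b2))
      (KL.pm (unif A2) β2) ≤ ∑ z : B1 × C1, hkl (KL.pm (g z) β2) (KL.pm (unif A2) β2) := by
    rw [Fintype.sum_prod_type]
    exact Finset.sum_le_sum fun b1 _ => hS2 b1
  have hT3 : ∑ c1, hkl (fun c2 =>
      push (fun (a : A1 × A2) (c : C1 × C2) => K1 a.1 c.1 * K2 a.2 c.2) p (c1, c2))
      (push K2 (unif A2)) ≤ ∑ z : B1 × C1, hkl (push K2 (g z)) (push K2 (unif A2)) := by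
    rw [Fintype.sum_prod_type, Finset.sum_comm]
    exact Finset.sum_le_sum fun c1 _ => hS3 c1
  rw [hD1, hD2, hD3, hD4]
  have hS4' := mul_le_mul_of_nonneg_left hS4 hθ
  linarith

end prod

end Vale.Agent.P162.SB
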